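import Vale.Agent.P328.Defs

/-! Tables with negative entries have small total weight: a switching argument (job Accept). -/

namespace Vale.Agent.P328

open Finset

namespace Acp

lemma geo {a : ℝ} (p T : ℕ) : (1 - a) * ∑ t ∈ range T, (if p < t + 1 then a ^ (t + 1 - p) else 0) =
    a - a ^ (T - p + 1) := by
  induction T with
  | zero => simp
  | succ T ih =>
    rw [sum_range_succ, mul_add, ih]
    split_ifs with h
    · rw [show T + 1 - p = T - p + 1 by omega]; ring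
    · rw [show T + 1 - p = T - p by omega]; ring

variable {m n : ℕ} (r : Fin m → ℕ) (c : Fin n → ℕ) (B : ℕ) (a : Fin m × Fin n → ℝ)

/-- integer tables with entries bounded below -/
noncomputable def XX : Finset (Fin m × Fin n → ℤ) :=
  (Fintype.piFinset fun e => Icc (-(B : ℤ)) (r e.1 + n * B)).filter fun X =>
    (∀ i, ∑ j, X (i, j) = r i) ∧ ∀ j, ∑ i, X (i, j) = c j

noncomputable def wt (X : Fin m × Fin n → ℤ) : ℝ := ∏ e, a e ^ (-X e).toNat

def dl (i k u : Fin m) : ℤ := (if u = i then 1 else 0) - if u = k then 1 else 0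

lemma sum_dl (i k : Fin m) : ∑ u, dl i k u = 0 := by simp [dl]

/-- the switching vector -/
def sw (i k : Fin m) (j l : Fin n) (t : ℤ) (e : Fin m × Fin n) : ℤ := t * (dl i k e.1 * dl l j e.2)

variable {r c B a}

lemma mem_XX {X : Fin m × Fin n → ℤ} : X ∈ XX r c B ↔ (∀ e, -(B : ℤ) ≤ X e) ∧
    (∀ i, ∑ j, X (i, j) = r i) ∧ ∀ j, ∑ i, X (i, j) = c j := by
  simp only [XX, mem_filter, Fintype.mem_piFinset, mem_Icc]
  refine ⟨fun h => ⟨fun e => (h.1 e).1, h.2⟩, fun h => ⟨fun ⟨i, j⟩ => ⟨h.1 _, ?_⟩, h.2⟩⟩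
  have h1 : X (i, j) + B ≤ ∑ l, (X (i, l) + B) :=
    single_le_sum (f := fun l => X (i, l) + B) (fun l _ => by have := h.1 (i, l); omega) (mem_univ j)
  rw [sum_add_distrib, h.2.1 i] at h1
  simp only [sum_const, card_univ, Fintype.card_fin, nsmul_eq_mul] at h1
  have : (0 : ℤ) ≤ B := Int.natCast_nonneg B
  simp only
  omega

lemma wt_nonneg (ha0 : ∀ e, 0 < a e) (X : Fin m × Fin n → ℤ) : 0 ≤ wt a X :=
  prod_nonneg fun e _ => (pow_pos (ha0 e) _).le

lemma sw_mem {X : Fin m × Fin n → ℤ} (hX : X ∈ XX r c B) {i k : Fin m} {j l : Fin n} {t : ℤ}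
    (ht : 0 ≤ t) (h1 : t ≤ X (i, j)) (h2 : t ≤ X (k, l)) : X + sw i k j l t ∈ XX r c B := by
  rw [mem_XX] at hX ⊢
  refine ⟨fun ⟨u, v⟩ => ?_, fun u => ?_, fun v => ?_⟩
  · have := hX.1 (u, v)
    simp only [Pi.add_apply, sw, dl]
    split_ifs <;> subst_vars <;> omega
  · simp only [Pi.add_apply, sw, sum_add_distrib, hX.2.1 u]
    rw [← mul_sum, ← mul_sum, sum_dl]
    simp
  · simp only [Pi.add_apply, sw, sum_add_distrib, hX.2.2 v]
    rw [← mul_sum, ← sum_mul, sum_dl]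
    simp

lemma wt_sw (ha0 : ∀ e, 0 < a e) (ha1 : ∀ e, a e ≤ 1) {X : Fin m × Fin n → ℤ} {i k : Fin m}
    {j l : Fin n} {t : ℕ} (h0 : X (i, l) < 0) (h1 : (t : ℤ) + 1 ≤ X (i, j))
    (h2 : (t : ℤ) + 1 ≤ X (k, l)) :
    wt a X ≤ (if ((X + sw i k j l (t + 1)) (i, l)).toNat < t + 1 then
      a (i, l) ^ (t + 1 - ((X + sw i k j l (t + 1)) (i, l)).toNat) else 0) *
      wt a (X + sw i k j l (t + 1)) := by
  have hj : l ≠ j := fun e => by subst e; omega
  have hk : i ≠ k := fun e => by subst e; omega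
  have e : (X + sw i k j l (t + 1)) (i, l) = X (i, l) + (t + 1) := by simp [sw, dl, hj, hk]
  rw [if_pos (by rw [e]; omega), wt, wt, ← mul_prod_erase _ _ (mem_univ (i, l)),
    ← mul_prod_erase _ _ (mem_univ (i, l)), ← mul_assoc, ← pow_add, e]
  refine mul_le_mul (le_of_eq (congrArg _ (by omega))) (prod_le_prod
    (fun f _ => (pow_pos (ha0 f) _).le) fun ⟨u, v⟩ hf => pow_le_pow_of_le_one (ha0 _).le (ha1 _) ?_)
    (prod_nonneg fun f _ => (pow_pos (ha0 f) _).le) (pow_pos (ha0 _) _).le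
  simp only [Pi.add_apply, sw, dl]
  split_ifs <;> subst_vars <;> omega

lemma exists_big {k M R : ℕ} (hk : k ≤ M) {x : Fin k → ℤ} {l : Fin k} (h0 : x l < 0) {U : ℕ}
    (hU : U ≤ R) (hx : ∑ j, x j = R) : ∃ j, ((U / M + 1 : ℕ) : ℤ) ≤ x j := by
  by_contra! h
  have h1 : ∑ j, x j < ∑ _j : Fin k, ((U / M : ℕ) : ℤ) :=
    sum_lt_sum (fun j _ => by have := h j; omega)
      ⟨l, mem_univ _, h0.trans_le (Int.natCast_nonneg _)⟩
  simp only [sum_const, card_univ, Fintype.card_fin, nsmul_eq_mul, hx] at h1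
  have h2 := (Nat.mul_le_mul_right (U / M) hk).trans (Nat.mul_div_le U M)
  have h3 : ((k * (U / M) : ℕ) : ℤ) ≤ R := by exact_mod_cast h2.trans hU
  rw [Nat.cast_mul] at h3
  omega

lemma neg_le (hm : 0 < m) (hn : 0 < n) (ha0 : ∀ e, 0 < a e)
    (ha : ∀ e : Fin m × Fin n,
      (1 + 2 * ((m * n : ℕ) : ℝ) ^ 3 / ((min (r e.1) (c e.2) : ℕ) + 1)) * a e ≤ 1)
    (e : Fin m × Fin n) : 2 * ((m * n : ℕ) : ℝ) * ∑ X ∈ XX r c B with X e < 0, wt a X ≤
      ∑ X ∈ XX r c B, wt a X := by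
  obtain ⟨i, l⟩ := e
  have hM : 0 < m * n := Nat.mul_pos hm hn
  have ha1 : ∀ e, a e ≤ 1 := fun e => le_trans (le_mul_of_one_le_left (ha0 e).le
    (le_add_of_nonneg_right (by positivity))) (ha e)
  have hae := ha (i, l)
  generalize hU : min (r (i, l).1) (c (i, l).2) = U at hae
  set Z := ∑ X ∈ XX r c B, wt a X
  set N := ∑ X ∈ XX r c B with X (i, l) < 0, wt a X
  set T := U / (m * n) + 1 with hT
  set G : ℕ → ℕ → ℝ := fun p t => if p < t + 1 then a (i, l) ^ (t + 1 - p) else 0 with hG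
  have G0 : ∀ p t, 0 ≤ G p t := fun p t => by
    have := ha0 (i, l)
    simp only [hG]; split_ifs <;> positivity
  have hq : ∀ p, 2 * ((m * n : ℕ) : ℝ) ^ 3 / (U + 1) * ∑ t ∈ range T, G p t ≤ 1 := fun p => by
    have h1 := geo (a := a (i, l)) p T
    have h2 := pow_pos (ha0 (i, l)) (T - p + 1)
    have h3 : 0 ≤ ∑ t ∈ range T, G p t := sum_nonneg fun t _ => G0 p t
    refine le_of_mul_le_mul_left ?_ (ha0 (i, l))
    nlinarith [mul_le_mul_of_nonneg_right hae h3]
  have step : ∀ t ∈ range T, N ≤ ∑ _p : Fin m × Fin n, ∑ X ∈ XX r c B,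
      G (X (i, l)).toNat t * wt a X := fun t ht => by
    have ht' : (t : ℤ) + 1 ≤ T := by exact_mod_cast mem_range.mp ht
    calc N ≤ ∑ X ∈ XX r c B with X (i, l) < 0, ∑ p : Fin m × Fin n,
          if (T : ℤ) ≤ X (i, p.2) ∧ (T : ℤ) ≤ X (p.1, l) then wt a X else 0 := by
          refine sum_le_sum fun X hX => ?_
          obtain ⟨h1, h2⟩ := mem_filter.mp hX
          obtain ⟨-, h3, h4⟩ := mem_XX.mp h1
          obtain ⟨j, hj⟩ := exists_big (x := fun j => X (i, j)) (Nat.le_mul_of_pos_left n hm) h2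
            (hU ▸ min_le_left _ _) (h3 i)
          obtain ⟨k, hk⟩ := exists_big (x := fun k => X (k, l)) (Nat.le_mul_of_pos_right m hn) h2
            (hU ▸ min_le_right _ _) (h4 l)
          refine le_trans (le_of_eq (if_pos ⟨hj, hk⟩).symm) (single_le_sum
            (f := fun p : Fin m × Fin n => if (T : ℤ) ≤ X (i, p.2) ∧ (T : ℤ) ≤ X (p.1, l)
              then wt a X else 0) (fun p _ => ?_) (mem_univ (k, j)))
          split_ifs
          exacts [wt_nonneg ha0 X, le_rfl]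
      _ ≤ _ := by
          rw [sum_comm]
          refine sum_le_sum fun ⟨k, j⟩ _ => ?_
          rw [← sum_filter]
          refine le_trans (sum_le_sum (g := fun X => G ((X + sw i k j l (t + 1)) (i, l)).toNat t *
            wt a (X + sw i k j l (t + 1))) fun X hX => ?_) ?_
          · obtain ⟨h1, h2, h3⟩ := mem_filter.mp hX
            exact wt_sw ha0 ha1 (mem_filter.mp h1).2 (ht'.trans h2) (ht'.trans h3)
          rw [← sum_image (g := fun X => X + sw i k j l (t + 1))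
            (f := fun X => G (X (i, l)).toNat t * wt a X) fun X _ Y _ h => add_right_cancel h]
          refine sum_le_sum_of_subset_of_nonneg (fun Y hY => ?_) fun X _ _ =>
            mul_nonneg (G0 _ _) (wt_nonneg ha0 X)
          obtain ⟨X, hX, rfl⟩ := mem_image.mp hY
          obtain ⟨h1, h2, h3⟩ := mem_filter.mp hX
          exact sw_mem (mem_filter.mp h1).1 (by positivity) (ht'.trans h2) (ht'.trans h3)
  have h1 := sum_le_sum step
  simp only [sum_const, card_range, card_univ, Fintype.card_prod, Fintype.card_fin,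
    nsmul_eq_mul] at h1
  rw [← mul_sum, sum_comm] at h1
  have h2 : 2 * ((m * n : ℕ) : ℝ) ^ 3 / (U + 1) * ∑ X ∈ XX r c B, ∑ t ∈ range T,
      G (X (i, l)).toNat t * wt a X ≤ Z := by
    rw [mul_sum]
    refine sum_le_sum fun X _ => ?_
    rw [← sum_mul, ← mul_assoc]
    exact mul_le_of_le_one_left (wt_nonneg ha0 X) (hq _)
  have h3 : (U : ℝ) + 1 ≤ ((m * n : ℕ) : ℝ) * T := by
    exact_mod_cast Nat.lt_mul_div_succ U hM
  have h4 : 0 ≤ N := sum_nonneg fun X _ => wt_nonneg ha0 X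
  have h5 : (0 : ℝ) < (m * n : ℕ) := by exact_mod_cast hM
  generalize ∑ X ∈ XX r c B, ∑ t ∈ range T, G (X (i, l)).toNat t * wt a X = Y at h1 h2
  generalize ((m * n : ℕ) : ℝ) = M at *
  refine le_trans ?_ h2
  rw [div_mul_eq_mul_div, le_div_iff₀ (by positivity)]
  calc 2 * M * N * (U + 1) ≤ 2 * M * N * (M * T) := by gcongr
    _ = 2 * M ^ 2 * (T * N) := by ring
    _ ≤ 2 * M ^ 2 * (M * Y) := by gcongr
    _ = _ := by ring

lemma card_le : ((XX r c B).filter fun X => ∀ e, 0 ≤ X e).card ≤ (Omega r c).card := by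
  refine card_le_card_of_injOn (fun X i j => (X (i, j)).toNat) (fun X hX => ?_) fun X hX Y hY h => ?_
  · obtain ⟨h1, h2⟩ := mem_filter.mp hX
    obtain ⟨-, h3, h4⟩ := mem_XX.mp h1
    have h5 : ∀ i, ∑ j, (X (i, j)).toNat = r i := fun i => by
      have := h3 i
      zify
      rwa [sum_congr rfl fun j _ => Int.toNat_of_nonneg (h2 (i, j))]
    simp only [Omega, coe_filter, Fintype.mem_piFinset, mem_range, Set.mem_ofPred_eq]
    refine ⟨fun i j => Nat.lt_succ_of_le (h5 i ▸ single_le_sum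
      (f := fun j => (X (i, j)).toNat) (fun _ _ => Nat.zero_le _) (mem_univ j)), h5, fun j => ?_⟩
    have := h4 j
    zify
    rwa [sum_congr rfl fun i _ => Int.toNat_of_nonneg (h2 (i, j))]
  · funext ⟨i, j⟩
    have h1 := (mem_filter.mp hX).2 (i, j)
    have h2 := (mem_filter.mp hY).2 (i, j)
    have h3 : (X (i, j)).toNat = (Y (i, j)).toNat := congrFun (congrFun h i) j
    omega

end Acp

open Acp in
theorem accept {m n : ℕ} (hm : 0 < m) (hn : 0 < n) (r : Fin m → ℕ) (c : Fin n → ℕ)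
    (a : Fin m × Fin n → ℝ) (ha0 : ∀ e, 0 < a e)
    (ha : ∀ e : Fin m × Fin n,
      (1 + 2 * ((m * n : ℕ) : ℝ) ^ 3 / ((min (r e.1) (c e.2) : ℕ) + 1)) * a e ≤ 1)
    (S : Finset (Fin m × Fin n → ℤ))
    (hS : ∀ X ∈ S, (∀ i, ∑ j, X (i, j) = r i) ∧ ∀ j, ∑ i, X (i, j) = c j) :
    ∑ X ∈ S, ∏ e, a e ^ (-X e).toNat ≤ 2 * ((Omega r c).card : ℝ) := by
  set B := S.sup fun X => univ.sup fun e => (-X e).toNat
  have hB : S ⊆ XX r c B := fun X hX => mem_XX.mpr ⟨fun e => by
    have : (-X e).toNat ≤ B := (le_sup (f := fun e => (-X e).toNat) (mem_univ e)).trans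
      (le_sup (f := fun X : Fin m × Fin n → ℤ => univ.sup fun e => (-X e).toNat) hX)
    omega, hS X hX⟩
  refine le_trans (sum_le_sum_of_subset_of_nonneg (f := wt a) hB fun X _ _ => wt_nonneg ha0 X) ?_
  have h1 : ∑ X ∈ XX r c B, wt a X ≤ ∑ X ∈ XX r c B, ((if ∀ e, 0 ≤ X e then 1 else 0) +
      ∑ e, if X e < 0 then wt a X else 0) := sum_le_sum fun X _ => by
    have h0 : ∀ e, 0 ≤ if X e < 0 then wt a X else 0 := fun e => by
      split_ifs
      exacts [wt_nonneg ha0 X, le_rfl]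
    split_ifs with h
    · refine le_add_of_le_of_nonneg (le_of_eq (prod_eq_one fun e _ => ?_)) (sum_nonneg fun e _ => h0 e)
      rw [show (-X e).toNat = 0 by have := h e; omega, pow_zero]
    · obtain ⟨e, he⟩ := not_forall.mp h
      rw [zero_add]
      exact le_trans (le_of_eq (if_pos (not_le.mp he)).symm)
        (single_le_sum (f := fun e => if X e < 0 then wt a X else 0) (fun e _ => h0 e) (mem_univ e))
  rw [sum_add_distrib, sum_boole, sum_comm] at h1
  have h2 : 2 * ((m * n : ℕ) : ℝ) * ∑ e, ∑ X ∈ XX r c B, (if X e < 0 then wt a X else 0) ≤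
      ((m * n : ℕ) : ℝ) * ∑ X ∈ XX r c B, wt a X := by
    rw [mul_sum]
    refine (sum_le_card_nsmul _ _ (∑ X ∈ XX r c B, wt a X) fun e _ => ?_).trans_eq (by simp)
    rw [← sum_filter]
    exact neg_le hm hn ha0 ha e
  have h3 : (((XX r c B).filter fun X => ∀ e, 0 ≤ X e).card : ℝ) ≤ (Omega r c).card :=
    Nat.cast_le.mpr card_le
  have h5 : (0 : ℝ) < (m * n : ℕ) := by exact_mod_cast Nat.mul_pos hm hn
  rw [mul_comm 2, mul_assoc] at h2
  have := le_of_mul_le_mul_left h2 h5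
  linarith

end Vale.Agent.P328
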