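import Vale.Agent.P328.Model
import Vale.Agent.P317.Prog

/-! The sampling algorithm (definitions). -/

namespace Vale.Agent.P328

open Finset P317 P317.Prog

def ent (X : List (List ℤ)) (i j : ℕ) : ℤ := (X.getD i []).getD j 0

def tab {β : Type} (m n : ℕ) (F : ℕ → ℕ → β) : List (List β) :=
  (List.range m).map fun i => (List.range n).map fun j => F i j

/-- the position of a largest entry -/
def amax (r : List ℕ) : ℕ := r.findIdx fun x => r.all fun y => decide (y ≤ x)

def ML (r c : List ℕ) : ℕ := r.length * c.length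
def lamL (r c : List ℕ) (i j : ℕ) : ℚ := lamQ (ML r c) (r.getD i 0) (c.getD j 0)
def UL (r c : List ℕ) (i j : ℕ) : ℕ :=
  if i = amax r ∨ j = amax c then 0 else min (r.getD i 0) (c.getD j 0)
def sL (r c : List ℕ) (i j : ℕ) : ℕ := 1 + (UL r c i j + 1) / (3 * Lam (ML r c) * ML r c)
def rowL (c : List ℕ) (X : List (List ℤ)) (i : ℕ) : ℤ := ∑ j ∈ range c.length, ent X i j
def colL (r : List ℕ) (X : List (List ℤ)) (j : ℕ) : ℤ := ∑ i ∈ range r.length, ent X i j
def totL (r c : List ℕ) (X : List (List ℤ)) : ℤ := ∑ i ∈ range r.length, rowL c X i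

def penL (r c : List ℕ) (X : List (List ℤ)) : ℚ :=
  ∑ i ∈ range r.length, lamL r c i (amax c) * ((rowL c X i - r.getD i 0).toNat : ℚ) +
    ∑ j ∈ range c.length, lamL r c (amax r) j * ((colL r X j - c.getD j 0).toNat : ℚ) +
    lamL r c (amax r) (amax c) *
      (((r.sum : ℤ) - r.getD (amax r) 0 - c.getD (amax c) 0 - totL r c X).toNat : ℚ)

def exL (r c : List ℕ) (X : List (List ℤ)) : ℕ := ⌊penL r c X⌋.toNat

def fillL (r c : List ℕ) (X : List (List ℤ)) (i j : ℕ) : ℤ :=
  ent X i j + (if j = amax c then r.getD i 0 - rowL c X i else 0) +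
    (if i = amax r then c.getD j 0 - colL r X j else 0) -
    if i = amax r ∧ j = amax c then r.sum - totL r c X else 0

def outL (r c : List ℕ) (X : List (List ℤ)) : Option (List (List ℕ)) :=
  if ∀ i < r.length, ∀ j < c.length, 0 ≤ fillL r c X i j then
    some (tab r.length c.length fun i j => (fillL r c X i j).toNat) else none

def mvL (r c : List ℕ) (X : List (List ℤ)) (i j : ℕ) (δ : ℤ) : List (List ℤ) :=
  tab r.length c.length fun i' j' => max 0 (min (r.sum : ℤ)
    (if i' = i ∧ j' = j then refl (UL r c i j) (ent X i j + δ) else ent X i' j'))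

/-- the north-west corner table -/
def dflt (r c : List ℕ) : List (List ℕ) :=
  tab r.length c.length fun i j =>
    (min (r.take (i + 1)).sum (c.take (j + 1)).sum + min (r.take i).sum (c.take j).sum) -
      (min (r.take i).sum (c.take (j + 1)).sum + min (r.take (i + 1)).sum (c.take j).sum)

/-- a uniform number below `s`, by bisection -/
def unifP (s : ℕ) : Prog Unit ℕ :=
  bind (foldP (List.range s.size) (fun (x : ℕ × ℕ) _ =>
    bind (coinP (((x.2 / 2 : ℕ) : ℚ) / x.2)) fun b =>
      .ret (if b = true then (x.1, x.2 / 2) else (x.1 + x.2 / 2, x.2 - x.2 / 2))) (0, s))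
    fun x => .ret x.1

def propP (r c : List ℕ) (X : List (List ℤ)) : Prog Unit (List (List ℤ)) :=
  bind (unifP r.length) fun i => bind (unifP c.length) fun j =>
    bind (coinP (1 / 2)) fun β => bind (unifP (sL r c i j)) fun t => bind (coinP (1 / 2)) fun σ =>
      .ret (mvL r c X i j (if σ = true then ((if β = true then sL r c i j else t : ℕ) : ℤ)
        else -((if β = true then sL r c i j else t : ℕ) : ℤ)))

def stepP (r c : List ℕ) (X : List (List ℤ)) : Prog Unit (List (List ℤ)) :=
  bind (coinP (1 / 2)) fun z => if z = true then .ret X else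
    bind (propP r c X) fun Y =>
      bind (coinP (1 / 2 ^ min (exL r c Y - exL r c X) (dd (ML r c) r.sum + 1))) fun b =>
        .ret (if b = true then Y else X)

def walkP (r c : List ℕ) (k : ℕ) : Prog Unit (List (List ℤ)) :=
  foldP (List.range (TT (ML r c) r.sum k)) (fun X _ => stepP r c X)
    (tab r.length c.length fun _ _ => 0)

def trialP (r c : List ℕ) (k : ℕ) : Prog Unit (Option (List (List ℕ))) :=
  bind (walkP r c k) fun X => .ret (outL r c X)

def mainP (r c : List ℕ) (k : ℕ) : Prog Unit (List (List ℕ)) :=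
  bind (rep (6 * (k + 2)) (trialP r c k)) fun os => .ret ((os.filterMap id).headD (dflt r c))

/-- there is no oracle -/
def O0 : Unit → Bool := fun _ => false

namespace Inst

variable (I : Inst)

def rL : List ℕ := List.ofFn I.r
def cL : List ℕ := List.ofFn I.c

/-- the chosen row and column are the ones the algorithm finds -/
def Std : Prop := amax I.rL = I.i0 ∧ amax I.cL = I.j0

def enc (D : I.Cell → ℤ) : List (List ℤ) := List.ofFn fun i => List.ofFn fun j => D (i, j)

end Inst

end Vale.Agent.P328
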