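import Vale.Agent.P328.Algo
import Vale.Agent.P317.PP

/-! The algorithm is a polynomial-time program (job AlgoPP). -/

namespace Vale.Agent.P328

open P317 P317.Prog Vale.Agent.PT

attribute [local irreducible] PTime PB

namespace AlgoPP

variable {α : Type} [TEnc α] {r c : α → List ℕ} {X Y : α → List (List ℤ)} {i j s k : α → ℕ}
  {δ : α → ℤ}

@[fun_prop] lemma pb_min {f g : α → ℕ} (hg : PB g) : PB fun a => min (f a) (g a) :=
  hg.of_le fun _ => min_le_right _ _

@[fun_prop] lemma pt_ent (hX : PTime X) (hi : PTime i) (hj : PTime j) :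
    PTime fun a => ent (X a) (i a) (j a) := by
  unfold ent; fun_prop

lemma pt_tab {β : Type} [TEnc β] {F : α → ℕ → ℕ → β} (hr : PTime r) (hc : PTime c)
    (hF : PTime fun z : (α × ℕ) × ℕ => F z.1.1 z.1.2 z.2) :
    PTime fun a => tab (r a).length (c a).length (F a) := by
  unfold tab
  refine PTime.map (by fun_prop) ?_
  exact PTime.map (f := fun (z : α × ℕ) j => F z.1 z.2 j) (by fun_prop) hF

@[fun_prop] lemma pt_amax (hr : PTime r) : PTime fun a => amax (r a) := by
  unfold amax; fun_prop

@[fun_prop] lemma pt_ML (hr : PTime r) (hc : PTime c) : PTime fun a => ML (r a) (c a) := by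
  unfold ML; fun_prop

@[fun_prop] lemma pb_ML (hr : PTime r) (hc : PTime c) : PB fun a => ML (r a) (c a) := by
  unfold ML; fun_prop

@[fun_prop] lemma pt_Lam (hs : PTime s) : PTime fun a => Lam (s a) := by
  unfold Lam; fun_prop

@[fun_prop] lemma pb_Lam (hs : PB s) : PB fun a => Lam (s a) := by
  unfold Lam; fun_prop

@[fun_prop] lemma pt_dd (hs : PTime s) (hk : PTime k) : PTime fun a => dd (s a) (k a) := by
  unfold dd; fun_prop

@[fun_prop] lemma pb_dd (hs : PB s) (hk : PTime k) : PB fun a => dd (s a) (k a) := by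
  unfold dd; fun_prop

lemma pt_TT (hs : PTime s) (hk : PTime k) (hi : PTime i) :
    PTime fun a => TT (s a) (k a) (i a) := by
  unfold TT CC CS CP; fun_prop

lemma pb_TT (hs : PB s) (hk : PTime k) (hi : PB i) : PB fun a => TT (s a) (k a) (i a) := by
  unfold TT CC CS CP; fun_prop

@[fun_prop] lemma pt_lamL (hr : PTime r) (hc : PTime c) (hi : PTime i) (hj : PTime j) :
    PTime fun a => lamL (r a) (c a) (i a) (j a) := by
  unfold lamL lamQ ell; fun_prop

@[fun_prop] lemma pt_UL (hr : PTime r) (hc : PTime c) (hi : PTime i) (hj : PTime j) :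
    PTime fun a => UL (r a) (c a) (i a) (j a) := by
  unfold UL; fun_prop

@[fun_prop] lemma pt_sL (hr : PTime r) (hc : PTime c) (hi : PTime i) (hj : PTime j) :
    PTime fun a => sL (r a) (c a) (i a) (j a) := by
  unfold sL; fun_prop

@[fun_prop] lemma pt_rowL (hc : PTime c) (hX : PTime X) (hi : PTime i) :
    PTime fun a => rowL (c a) (X a) (i a) := by
  unfold rowL; fun_prop

@[fun_prop] lemma pt_colL (hr : PTime r) (hX : PTime X) (hj : PTime j) :
    PTime fun a => colL (r a) (X a) (j a) := by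
  unfold colL; fun_prop

@[fun_prop] lemma pt_totL (hr : PTime r) (hc : PTime c) (hX : PTime X) :
    PTime fun a => totL (r a) (c a) (X a) := by
  unfold totL; fun_prop

@[fun_prop] lemma pt_penL (hr : PTime r) (hc : PTime c) (hX : PTime X) :
    PTime fun a => penL (r a) (c a) (X a) := by
  unfold penL; fun_prop

@[fun_prop] lemma pt_exL (hr : PTime r) (hc : PTime c) (hX : PTime X) :
    PTime fun a => exL (r a) (c a) (X a) := by
  unfold exL; fun_prop

@[fun_prop] lemma pt_fillL (hr : PTime r) (hc : PTime c) (hX : PTime X) (hi : PTime i)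
    (hj : PTime j) : PTime fun a => fillL (r a) (c a) (X a) (i a) (j a) := by
  unfold fillL; fun_prop

lemma pt_outL (hr : PTime r) (hc : PTime c) (hX : PTime X) :
    PTime fun a => outL (r a) (c a) (X a) := by
  unfold outL
  refine PTime.ite (by fun_prop) (PTime.some (pt_tab hr hc ?_)) (PTime.const _)
  fun_prop

@[fun_prop] lemma pt_refl {U x : α → ℤ} (hU : PTime U) (hx : PTime x) :
    PTime fun a => refl (U a) (x a) := by
  unfold refl; fun_prop

lemma pt_mvL (hr : PTime r) (hc : PTime c) (hX : PTime X) (hi : PTime i) (hj : PTime j)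
    (hδ : PTime δ) : PTime fun a => mvL (r a) (c a) (X a) (i a) (j a) (δ a) := by
  unfold mvL
  refine pt_tab hr hc ?_
  fun_prop

lemma pt_dflt (hr : PTime r) (hc : PTime c) : PTime fun a => dflt (r a) (c a) := by
  unfold dflt
  refine pt_tab hr hc ?_
  fun_prop

lemma pp_unifP (hs : PTime s) : PP fun a => unifP (s a) := by
  unfold unifP
  have hz : PB fun a => sz (s a) := hs.sz_PB
  refine PP.bind (PP.foldP (by fun_prop) (by fun_prop) ?_ (fun a _ x => x.1 + x.2 ≤ s a)
    (fun a => 8 * sz (s a) + 3) (by fun_prop) (fun a => by simp) (fun a k x c _ hx => ?_)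
    fun a k x _ hx => ?_) (PP.ret (by fun_prop))
  · exact PP.bind (PP.coinP (by fun_prop)) (PP.ret (by fun_prop))
  · refine All.bind' _ fun b => ?_
    rw [All_ret]
    split_ifs <;> simp only <;> omega
  · have h1 := sz_nat_le_of_le (m := x.1) (n := s a) (by omega)
    have h2 := sz_nat_le_of_le (m := x.2) (n := s a) (by omega)
    have h3 := sz_prod x.1 x.2
    rw [Prod.mk.eta] at h3
    omega

lemma pp_propP (hr : PTime r) (hc : PTime c) (hX : PTime X) :
    PP fun a => propP (r a) (c a) (X a) := by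
  unfold propP
  refine PP.bind (pp_unifP ?_) (PP.bind (pp_unifP ?_) (PP.bind (PP.coinP ?_)
    (PP.bind (pp_unifP ?_) (PP.bind (PP.coinP ?_) (PP.ret (pt_mvL ?_ ?_ ?_ ?_ ?_ ?_)))))) <;>
    fun_prop

lemma pp_stepP (hr : PTime r) (hc : PTime c) (hX : PTime X) :
    PP fun a => stepP (r a) (c a) (X a) := by
  unfold stepP
  refine PP.bind (PP.coinP ?_) (PP.ite ?_ (PP.ret ?_) (PP.bind (pp_propP ?_ ?_ ?_)
    (PP.bind (PP.coinP ?_) (PP.ret ?_)))) <;> fun_prop

/-- size bound for the states -/
def Sz (r c : List ℕ) (X : List (List ℤ)) : Prop :=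
  sz X ≤ r.length * (c.length * (4 * sz r + 5 + 1) + 1 + 1) + 1

lemma sz_tab (r c : List ℕ) (F : ℕ → ℕ → ℤ) (h : ∀ i j, 0 ≤ F i j ∧ F i j ≤ r.sum) :
    Sz r c (tab r.length c.length F) := by
  have h1 := sz_list_le (tab r.length c.length F) (B := c.length * (4 * sz r + 5 + 1) + 1)
    fun row hrow => by
      obtain ⟨i, -, rfl⟩ := List.mem_map.1 hrow
      have h2 := sz_list_le ((List.range c.length).map fun j => F i j) (B := 4 * sz r + 5)
        fun x hx => by
          obtain ⟨j, -, rfl⟩ := List.mem_map.1 hx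
          refine sz_int_le_of_lt (lt_of_le_of_lt ?_ (sum_lt_two_pow r))
          have := h i j
          omega
      simpa using h2
  simpa [Sz, tab] using h1

lemma all_stepP (r c : List ℕ) (X : List (List ℤ)) (h : Sz r c X) :
    All (Sz r c) (stepP r c X) := by
  refine All.bind' _ fun z => ?_
  split_ifs
  · exact h
  · refine All.bind (P := Sz r c) ?_ fun Y hY => All.bind' _ fun b => ?_
    · refine All.bind' _ fun i => All.bind' _ fun j => All.bind' _ fun β => All.bind' _ fun t =>
        All.bind' _ fun σ => ?_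
      rw [All_ret]
      exact sz_tab r c _ fun i j => ⟨le_max_left _ _,
        max_le (Int.natCast_nonneg _) (min_le_left _ _)⟩
    · rw [All_ret]
      split_ifs
      · exact hY
      · exact h

lemma pp_walkP (hr : PTime r) (hc : PTime c) (hk : PTime k) (hk' : PB k) :
    PP fun a => walkP (r a) (c a) (k a) := by
  unfold walkP
  have hz : PB fun a => sz (r a) := hr.sz_PB
  refine PP.foldP (PTime.range (pt_TT ?_ ?_ hk) (pb_TT ?_ ?_ hk'))
    (pt_tab (F := fun _ _ _ => (0 : ℤ)) hr hc (PTime.const _)) (pp_stepP ?_ ?_ ?_)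
    (fun a _ X => Sz (r a) (c a) X)
    (fun a => (r a).length * ((c a).length * (4 * sz (r a) + 5 + 1) + 1 + 1) + 1) ?_
    (fun a => sz_tab _ _ _ fun _ _ => ⟨le_rfl, Int.natCast_nonneg _⟩)
    (fun a k X c _ hX => all_stepP _ _ _ hX) fun a k X _ hX => hX
  all_goals fun_prop

lemma pp_trialP (hr : PTime r) (hc : PTime c) (hk : PTime k) (hk' : PB k) :
    PP fun a => trialP (r a) (c a) (k a) := by
  unfold trialP
  refine PP.bind (pp_walkP hr hc hk hk') (PP.ret (pt_outL ?_ ?_ ?_)) <;> fun_prop

end AlgoPP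

open AlgoPP in
theorem pp_mainP :
    PP fun a : List ℕ × List ℕ × List Unit => mainP a.1 a.2.1 a.2.2.length := by
  unfold mainP
  refine PP.bind (PP.rep ?_ ?_ (pp_trialP ?_ ?_ ?_ ?_))
    (PP.ret (PTime.headD ?_ (pt_dflt ?_ ?_))) <;> fun_prop

end Vale.Agent.P328
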