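import Mathlib

/-! Weighted boxes of integer vectors: definitions shared by the analytic files. -/

namespace Vale.Agent.P328

open Finset

variable {E : Type} [Fintype E] [DecidableEq E]

noncomputable def box (lo hi : E → ℤ) : Finset (E → ℤ) := Fintype.piFinset fun u => Icc (lo u) (hi u)

lemma mem_box {lo hi D : E → ℤ} : D ∈ box lo hi ↔ ∀ u, lo u ≤ D u ∧ D u ≤ hi u := by
  simp [box]

/-- the discrete Hessian condition (at most one positive eigenvalue) -/
def Hess (H : (E → ℤ) → ℝ) : Prop := ∀ (α : E → ℤ) (γ : E → ℝ),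
  H α * ∑ u, ∑ v, H (α + Pi.single u 1 + Pi.single v 1) * (γ u * γ v) ≤
    (∑ u, H (α + Pi.single u 1) * γ u) ^ 2

def LogConc (φ : ℤ → ℝ) : Prop := (∀ k, 0 < φ k) ∧ ∀ k, φ k * φ (k + 2) ≤ φ (k + 1) ^ 2

structure Good (H : (E → ℤ) → ℝ) (K : ℝ) : Prop where
  pos : ∀ α, 0 < H α
  hess : Hess H
  up : ∀ α u, H (α + Pi.single u 1) ≤ K * H α
  down : ∀ α u, H α ≤ K * H (α + Pi.single u 1)

/-- the diagonal embedding -/
def emb (D : E → ℤ) : E × Bool → ℤ := fun e => if e.2 = true then D e.1 else -D e.1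

/-- unit step energy in direction `u` -/
noncomputable def dir (w f : (E → ℤ) → ℝ) (lo hi : E → ℤ) (u : E) : ℝ :=
  ∑ D ∈ box lo hi with D u < hi u, w D * (f (D + Pi.single u 1) - f D) ^ 2

noncomputable def energy (w f : (E → ℤ) → ℝ) (lo hi : E → ℤ) : ℝ :=
  ∑ u, ((hi u : ℝ) - lo u + 1) ^ 2 * dir w f lo hi u

/-- unnormalised variance -/
noncomputable def var {X : Type} (B : Finset X) (w f : X → ℝ) : ℝ :=
  ∑ x ∈ B, w x * f x ^ 2 - (∑ x ∈ B, w x * f x) ^ 2 / ∑ x ∈ B, w x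

/-- the covariance bound with constant `C` -/
def CovB (w : (E → ℤ) → ℝ) (C : ℝ) : Prop := ∀ (lo hi : E → ℤ), (∀ u, lo u ≤ hi u) →
  ∀ (f : (E → ℤ) → ℝ) (v : E),
  ((∑ D ∈ box lo hi, w D) * (∑ D ∈ box lo hi, w D * f D * ((D v : ℝ) - lo v)) -
    (∑ D ∈ box lo hi, w D * f D) * ∑ D ∈ box lo hi, w D * ((D v : ℝ) - lo v)) ^ 2 ≤
  ((hi v : ℝ) - lo v) ^ 2 * C * (∑ D ∈ box lo hi, w D) ^ 3 * energy w f lo hi

/-- reflection at the ends of the interval `[0, U]` -/
def refl (U x : ℤ) : ℤ := if x < 0 then -1 - x else if U < x then 2 * U + 1 - x else x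

/-- the move by `δ` in direction `u` -/
def mv (U D : E → ℤ) (u : E) (δ : ℤ) : E → ℤ := Function.update D u (refl (U u) (D u + δ))

/-- the energy of a move -/
noncomputable def mvE (w f : (E → ℤ) → ℝ) (U : E → ℤ) (u : E) (δ : ℤ) : ℝ :=
  ∑ D ∈ box 0 U, w D * (f (mv U D u δ) - f D) ^ 2

/-- the energy of all moves of size at most `s` -/
noncomputable def bigE (w f : (E → ℤ) → ℝ) (U : E → ℤ) (s : E → ℕ) : ℝ :=
  ∑ u, ((∑ t ∈ range (s u), (mvE w f U u t + mvE w f U u (-t))) / s u +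
    (mvE w f U u (s u) + mvE w f U u (-s u)))

section Var

variable {X : Type} {B : Finset X} {w : X → ℝ}

lemma sum_sub_sq (f : X → ℝ) (c : ℝ) : ∑ x ∈ B, w x * (f x - c) ^ 2 =
    ∑ x ∈ B, w x * f x ^ 2 - 2 * c * ∑ x ∈ B, w x * f x + c ^ 2 * ∑ x ∈ B, w x := by
  rw [mul_sum, mul_sum, ← sum_sub_distrib, ← sum_add_distrib]
  exact sum_congr rfl fun x _ => by ring

lemma var_eq (hB : 0 < ∑ x ∈ B, w x) (f : X → ℝ) : var B w f =
    ∑ x ∈ B, w x * (f x - (∑ x ∈ B, w x * f x) / ∑ x ∈ B, w x) ^ 2 := by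
  rw [sum_sub_sq, var]; field_simp; ring

lemma var_le (hB : 0 < ∑ x ∈ B, w x) (f : X → ℝ) (c : ℝ) :
    var B w f ≤ ∑ x ∈ B, w x * (f x - c) ^ 2 := by
  rw [sum_sub_sq, var]
  generalize ∑ x ∈ B, w x = m at *
  generalize ∑ x ∈ B, w x * f x = a
  have : 2 * c * a - c ^ 2 * m ≤ a ^ 2 / m := by
    rw [le_div_iff₀ hB]; nlinarith [sq_nonneg (a - c * m)]
  linarith

lemma var_nonneg (hw : ∀ x ∈ B, 0 ≤ w x) (hB : 0 < ∑ x ∈ B, w x) (f : X → ℝ) : 0 ≤ var B w f := by
  rw [var_eq hB]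
  exact sum_nonneg fun x hx => mul_nonneg (hw x hx) (sq_nonneg _)

end Var

/-- shifting the summation by one unit -/
lemma sum_shift (lo hi : E → ℤ) (u : E) (F : (E → ℤ) → ℝ) :
    ∑ D ∈ box lo hi with D u < hi u, F (D + Pi.single u 1) =
      ∑ D ∈ box lo hi with lo u < D u, F D := by
  refine sum_nbij' (fun D => D + Pi.single u 1) (fun D => D - Pi.single u 1) ?_ ?_ ?_ ?_ ?_
  · intro D hD
    simp only [mem_filter, mem_box] at hD ⊢
    refine ⟨fun v => ?_, by have := (hD.1 u).1; simp; omega⟩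
    by_cases h : v = u
    · subst h; have := hD.1 v; simp; omega
    · simpa [h] using hD.1 v
  · intro D hD
    simp only [mem_filter, mem_box] at hD ⊢
    refine ⟨fun v => ?_, by have := (hD.1 u).2; simp; omega⟩
    by_cases h : v = u
    · subst h; have := hD.1 v; simp; omega
    · simpa [h] using hD.1 v
  · intro D _; simp
  · intro D _; simp
  · intro D _; rfl

lemma refl_mem {U x δ : ℤ} (h0 : 0 ≤ x) (h1 : x ≤ U) (hδ : |δ| ≤ U + 1) :
    0 ≤ refl U (x + δ) ∧ refl U (x + δ) ≤ U := by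
  have := abs_le.1 hδ
  unfold refl; split_ifs <;> omega

lemma refl_dist {U x : ℤ} (δ : ℤ) (h0 : 0 ≤ x) (h1 : x ≤ U) : |refl U (x + δ) - x| ≤ |δ| := by
  have h2 := le_abs_self δ
  have h3 := neg_abs_le δ
  rw [abs_le]
  unfold refl; split_ifs <;> omega

lemma mv_mem {U D : E → ℤ} (hD : D ∈ box 0 U) {u : E} {δ : ℤ} (hδ : |δ| ≤ U u + 1) :
    mv U D u δ ∈ box 0 U := by
  rw [mem_box] at hD ⊢
  intro v
  by_cases h : v = u
  · subst h
    simpa [mv] using refl_mem (hD v).1 (hD v).2 hδ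
  · simpa [mv, h] using hD v

lemma refl_ind {U y : ℤ} (z : ℤ) (h2 : 0 ≤ y) (h3 : y ≤ U) :
    (if refl U z = y then 1 else 0 : ℝ) = (if z - y = 0 then 1 else 0) +
      (if z + y = -1 then 1 else 0) + (if z + y = 2 * U + 1 then 1 else 0) := by
  unfold refl
  split_ifs <;> first | omega | simp

lemma refl_symm {U x y : ℤ} (t : ℤ) (h0 : 0 ≤ x) (h1 : x ≤ U) (h2 : 0 ≤ y) (h3 : y ≤ U) :
    ((if refl U (x + t) = y then 1 else 0) + (if refl U (x + -t) = y then 1 else 0) : ℝ) =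
      (if refl U (y + t) = x then 1 else 0) + (if refl U (y + -t) = x then 1 else 0) := by
  rw [refl_ind _ h2 h3, refl_ind _ h2 h3, refl_ind _ h0 h1, refl_ind _ h0 h1,
    show y + t + x = x + t + y by ring, show y + -t + x = x + -t + y by ring,
    if_congr (show y + t - x = 0 ↔ x + -t - y = 0 by omega) rfl rfl,
    if_congr (show y + -t - x = 0 ↔ x + t - y = 0 by omega) rfl rfl]
  ring

omit [Fintype E] in
lemma mv_eq_iff {U D D' : E → ℤ} {u : E} {t : ℤ} :
    mv U D u t = D' ↔ (∀ v, v ≠ u → D v = D' v) ∧ refl (U u) (D u + t) = D' u := by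
  constructor
  · rintro rfl
    exact ⟨fun v hv => by simp [mv, hv], by simp [mv]⟩
  · rintro ⟨h1, h2⟩
    funext v
    by_cases hv : v = u
    · subst hv; simpa [mv] using h2
    · simpa [mv, hv] using h1 v hv

lemma mv_symm {U D D' : E → ℤ} (hD : D ∈ box 0 U) (hD' : D' ∈ box 0 U) (u : E) (t : ℤ) :
    ((if mv U D u t = D' then 1 else 0) + (if mv U D u (-t) = D' then 1 else 0) : ℝ) =
      (if mv U D' u t = D then 1 else 0) + (if mv U D' u (-t) = D then 1 else 0) := by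
  rw [mem_box] at hD hD'
  simp only [mv_eq_iff]
  by_cases h : ∀ v, v ≠ u → D v = D' v
  · have h' : ∀ v, v ≠ u → D' v = D v := fun v hv => (h v hv).symm
    simp only [eq_true h, eq_true h', true_and]
    exact refl_symm t (hD u).1 (hD u).2 (hD' u).1 (hD' u).2
  · have h' : ¬ ∀ v, v ≠ u → D' v = D v := fun h' => h fun v hv => (h' v hv).symm
    simp only [eq_false h, eq_false h', false_and, if_false]

/-- the pair of moves `t`, `-t` is reversible for the counting measure -/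
lemma sum_mv_symm {U : E → ℤ} {u : E} {t : ℤ} (ht : |t| ≤ U u + 1) (F : (E → ℤ) → (E → ℤ) → ℝ) :
    ∑ D ∈ box 0 U, (F D (mv U D u t) + F D (mv U D u (-t))) =
      ∑ D ∈ box 0 U, (F (mv U D u t) D + F (mv U D u (-t)) D) := by
  have key : ∀ (G : (E → ℤ) → ℝ), ∀ D ∈ box 0 U, G (mv U D u t) + G (mv U D u (-t)) =
      ∑ y ∈ box 0 U, ((if mv U D u t = y then 1 else 0) +
        (if mv U D u (-t) = y then 1 else 0)) * G y := by
    intro G D hD
    simp [add_mul, sum_add_distrib, mv_mem hD ht, mv_mem hD (δ := -t) (by rwa [abs_neg])]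
  rw [sum_congr rfl fun D hD => key (F D) D hD, sum_congr rfl fun D hD => key (fun y => F y D) D hD,
    sum_comm]
  exact sum_congr rfl fun y hy => sum_congr rfl fun D hD => by rw [mv_symm hD hy]

/-- the expectation of `g` after a proposed move from `D` -/
noncomputable def Kq (U : E → ℤ) (s : E → ℕ) (g : (E → ℤ) → ℝ) (D : E → ℤ) : ℝ :=
  (∑ u, ((∑ t ∈ range (s u), (g (mv U D u t) + g (mv U D u (-t)))) / s u +
    (g (mv U D u (s u)) + g (mv U D u (-s u))))) / (4 * Fintype.card E)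

/-- the lazy Metropolis chain with proposal matrix `q` and stationary weights `W` -/
noncomputable def MH {X : Type} (B : Finset X) (q : X → X → ℝ) (W f : X → ℝ) (x : X) : ℝ :=
  f x / 2 + (∑ y ∈ B, q x y * (min 1 (W y / W x) * f y + (1 - min 1 (W y / W x)) * f x)) / 2

/-- the proposal matrix -/
noncomputable def qm (U : E → ℤ) (s : E → ℕ) (D y : E → ℤ) : ℝ :=
  Kq U s (fun z => if z = y then 1 else 0) D

end Vale.Agent.P328
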