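import Vale.Agent.P328.Box

/-! Mixing of a lazy Metropolis chain; the proposal matrix (job Chain). -/

namespace Vale.Agent.P328

open Finset

section

variable {X : Type} {B : Finset X} {q : X → X → ℝ} {W : X → ℝ}

lemma MH_congr {f g : X → ℝ} (h : ∀ x ∈ B, f x = g x) {x : X} (hx : x ∈ B) :
    MH B q W f x = MH B q W g x := by
  unfold MH
  rw [h x hx, sum_congr rfl fun y hy => by rw [h y hy]]

namespace Ch

lemma W_R (hW : ∀ x ∈ B, 0 < W x) (hq1 : ∀ x ∈ B, ∑ y ∈ B, q x y = 1) (f : X → ℝ) {x : X}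
    (hx : x ∈ B) : W x * (f x - MH B q W f x)
      = (∑ y ∈ B, q x y * min (W x) (W y) * (f x - f y)) / 2 := by
  have h1 : ∀ y, min (W x) (W y) = W x * min 1 (W y / W x) := by
    intro y
    rw [mul_min_of_nonneg _ _ (hW x hx).le, mul_one, mul_div_cancel₀ _ (hW x hx).ne']
  have h2 : ∑ y ∈ B, q x y * (min 1 (W y / W x) * f y + (1 - min 1 (W y / W x)) * f x)
      = ∑ y ∈ B, q x y * f x - ∑ y ∈ B, q x y * min 1 (W y / W x) * (f x - f y) := by
    rw [← sum_sub_distrib]; exact sum_congr rfl fun y _ => by ring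
  have h3 : ∑ y ∈ B, q x y * min (W x) (W y) * (f x - f y)
      = W x * ∑ y ∈ B, q x y * min 1 (W y / W x) * (f x - f y) := by
    rw [mul_sum]; exact sum_congr rfl fun y _ => by rw [h1]; ring
  rw [MH, h2, h3, ← sum_mul, hq1 x hx]; ring

lemma form (hW : ∀ x ∈ B, 0 < W x) (hq1 : ∀ x ∈ B, ∑ y ∈ B, q x y = 1)
    (hsym : ∀ x ∈ B, ∀ y ∈ B, q x y = q y x) (f g : X → ℝ) :
    ∑ x ∈ B, W x * (f x - MH B q W f x) * g x
      = (∑ x ∈ B, ∑ y ∈ B, q x y * (min (W x) (W y) * ((f y - f x) * (g y - g x)))) / 4 := by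
  have h1 : ∑ x ∈ B, W x * (f x - MH B q W f x) * g x
      = (∑ x ∈ B, ∑ y ∈ B, q x y * min (W x) (W y) * (f x - f y) * g x) / 2 := by
    rw [sum_div]
    exact sum_congr rfl fun x hx => by rw [W_R hW hq1 f hx, ← sum_mul]; ring
  have h2 : ∑ x ∈ B, ∑ y ∈ B, q x y * min (W x) (W y) * (f x - f y) * g x
      = ∑ x ∈ B, ∑ y ∈ B, q x y * min (W x) (W y) * (f y - f x) * g y := by
    rw [sum_comm]
    exact sum_congr rfl fun x hx => sum_congr rfl fun y hy => by rw [hsym y hy x hx, min_comm]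
  have h3 : ∑ x ∈ B, ∑ y ∈ B, q x y * (min (W x) (W y) * ((f y - f x) * (g y - g x)))
      = ∑ x ∈ B, ∑ y ∈ B, q x y * min (W x) (W y) * (f x - f y) * g x
        + ∑ x ∈ B, ∑ y ∈ B, q x y * min (W x) (W y) * (f y - f x) * g y := by
    rw [← sum_add_distrib]
    refine sum_congr rfl fun x _ => ?_
    rw [← sum_add_distrib]
    exact sum_congr rfl fun y _ => by ring
  rw [h1, h3, ← h2]; ring

lemma mean_MH (hW : ∀ x ∈ B, 0 < W x) (hq1 : ∀ x ∈ B, ∑ y ∈ B, q x y = 1)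
    (hsym : ∀ x ∈ B, ∀ y ∈ B, q x y = q y x) (f : X → ℝ) :
    ∑ x ∈ B, W x * MH B q W f x = ∑ x ∈ B, W x * f x := by
  have h1 := form hW hq1 hsym f fun _ => 1
  simp only [mul_one, sub_self, mul_zero, sum_const_zero, zero_div, mul_sub,
    sum_sub_distrib] at h1
  linarith

lemma sq_R (hW : ∀ x ∈ B, 0 < W x) (hq0 : ∀ x ∈ B, ∀ y ∈ B, 0 ≤ q x y)
    (hq1 : ∀ x ∈ B, ∑ y ∈ B, q x y = 1) (f : X → ℝ) {x : X} (hx : x ∈ B) :
    W x * (f x - MH B q W f x) ^ 2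
      ≤ (∑ y ∈ B, q x y * (min (W x) (W y) * (f y - f x) ^ 2)) / 4 := by
  have hm : ∀ y ∈ B, 0 ≤ q x y * min (W x) (W y) :=
    fun y hy => mul_nonneg (hq0 x hx y hy) (le_min (hW x hx).le (hW y hy).le)
  have h1 : (∑ y ∈ B, q x y * min (W x) (W y) * (f x - f y)) ^ 2
      ≤ (∑ y ∈ B, q x y * min (W x) (W y))
        * ∑ y ∈ B, q x y * (min (W x) (W y) * (f y - f x) ^ 2) :=
    sum_sq_le_sum_mul_sum_of_sq_le_mul B hm
      (fun y hy => by rw [← mul_assoc]; exact mul_nonneg (hm y hy) (sq_nonneg _))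
      fun y _ => le_of_eq (by ring)
  have h2 : ∑ y ∈ B, q x y * min (W x) (W y) ≤ W x := by
    calc _ ≤ ∑ y ∈ B, q x y * W x :=
          sum_le_sum fun y hy => mul_le_mul_of_nonneg_left (min_le_left _ _) (hq0 x hx y hy)
      _ = W x := by rw [← sum_mul, hq1 x hx, one_mul]
  have h3 : 0 ≤ ∑ y ∈ B, q x y * (min (W x) (W y) * (f y - f x) ^ 2) :=
    sum_nonneg fun y hy => by rw [← mul_assoc]; exact mul_nonneg (hm y hy) (sq_nonneg _)
  have h4 := h1.trans (mul_le_mul_of_nonneg_right h2 h3)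
  have h5 := W_R hW hq1 f hx
  refine le_of_mul_le_mul_left ?_ (hW x hx)
  calc W x * (W x * (f x - MH B q W f x) ^ 2) = (W x * (f x - MH B q W f x)) ^ 2 := by ring
    _ = (∑ y ∈ B, q x y * min (W x) (W y) * (f x - f y)) ^ 2 / 4 := by rw [h5]; ring
    _ ≤ _ := by linarith

lemma var_MH (hW : ∀ x ∈ B, 0 < W x) (hq0 : ∀ x ∈ B, ∀ y ∈ B, 0 ≤ q x y)
    (hq1 : ∀ x ∈ B, ∑ y ∈ B, q x y = 1) (hsym : ∀ x ∈ B, ∀ y ∈ B, q x y = q y x) (f : X → ℝ) :
    var B W (MH B q W f) ≤ var B W f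
      - (∑ x ∈ B, ∑ y ∈ B, q x y * (min (W x) (W y) * (f y - f x) ^ 2)) / 4 := by
  have h1 := form hW hq1 hsym f f
  simp only [← sq] at h1
  have h2 : ∑ x ∈ B, W x * (f x - MH B q W f x) ^ 2
      ≤ (∑ x ∈ B, ∑ y ∈ B, q x y * (min (W x) (W y) * (f y - f x) ^ 2)) / 4 := by
    rw [sum_div]; exact sum_le_sum fun x hx => sq_R hW hq0 hq1 f hx
  have h3 : ∑ x ∈ B, W x * MH B q W f x ^ 2 = ∑ x ∈ B, W x * f x ^ 2
      - 2 * ∑ x ∈ B, W x * (f x - MH B q W f x) * f x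
      + ∑ x ∈ B, W x * (f x - MH B q W f x) ^ 2 := by
    rw [mul_sum, ← sum_sub_distrib, ← sum_add_distrib]
    exact sum_congr rfl fun x _ => by ring
  rw [var, var, mean_MH hW hq1 hsym, h3, h1]
  linarith

lemma half_pow {n : ℕ} (hn : 1 ≤ n) : (1 - 1 / (n : ℝ)) ^ n ≤ 1 / 2 := by
  have hn' : (1 : ℝ) ≤ n := by exact_mod_cast hn
  have h0 : 0 ≤ 1 / (n : ℝ) := by positivity
  have h1 : 1 / (n : ℝ) ≤ 1 := by rw [div_le_one (by linarith)]; exact hn'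
  have h2 : 1 + (n : ℝ) * (1 / n) ≤ (1 + 1 / (n : ℝ)) ^ n := one_add_mul_le_pow (by linarith) n
  rw [mul_one_div_cancel (by linarith)] at h2
  have h3 : (1 - 1 / (n : ℝ)) ^ n * (1 + 1 / (n : ℝ)) ^ n ≤ 1 := by
    rw [← mul_pow]
    exact pow_le_one₀ (by nlinarith) (by nlinarith)
  have h4 : 0 ≤ (1 - 1 / (n : ℝ)) ^ n := pow_nonneg (by linarith) n
  nlinarith

end Ch

theorem mix (hW : ∀ x ∈ B, 0 < W x) (hq0 : ∀ x ∈ B, ∀ y ∈ B, 0 ≤ q x y)
    (hq1 : ∀ x ∈ B, ∑ y ∈ B, q x y = 1) (hsym : ∀ x ∈ B, ∀ y ∈ B, q x y = q y x) {C : ℝ}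
    (hC : 1 ≤ C)
    (h : ∀ f, var B W f ≤ C * ∑ x ∈ B, ∑ y ∈ B, q x y * (min (W x) (W y) * (f y - f x) ^ 2))
    (f : X → ℝ) (hf : ∀ x ∈ B, |f x| ≤ 1) {x : X} (hx : x ∈ B) (t : ℕ) :
    W x * ((MH B q W)^[t] f x - (∑ y ∈ B, W y * f y) / ∑ y ∈ B, W y) ^ 2 ≤
      (1 - 1 / (4 * C)) ^ t * ∑ y ∈ B, W y := by
  have hB : 0 < ∑ y ∈ B, W y := sum_pos hW ⟨x, hx⟩
  have hρ : 0 ≤ 1 - 1 / (4 * C) := by
    rw [sub_nonneg, div_le_one (by linarith)]; linarith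
  have h1 : ∀ t, ∑ y ∈ B, W y * (MH B q W)^[t] f y = ∑ y ∈ B, W y * f y := by
    intro t
    induction t with
    | zero => rfl
    | succ t ih => rw [Function.iterate_succ_apply', Ch.mean_MH hW hq1 hsym, ih]
  have h2 : ∀ t, var B W ((MH B q W)^[t] f) ≤ (1 - 1 / (4 * C)) ^ t * ∑ y ∈ B, W y := by
    intro t
    induction t with
    | zero =>
      rw [pow_zero, one_mul]
      refine (var_le hB _ 0).trans (sum_le_sum fun y hy => ?_)
      have h3 : f y ^ 2 ≤ 1 := (sq_le_one_iff_abs_le_one _).2 (hf y hy)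
      simpa using mul_le_mul_of_nonneg_left h3 (hW y hy).le
    | succ t ih =>
      rw [Function.iterate_succ_apply', pow_succ', mul_assoc]
      refine (Ch.var_MH hW hq0 hq1 hsym _).trans (le_trans ?_ (mul_le_mul_of_nonneg_left ih hρ))
      have h3 := h ((MH B q W)^[t] f)
      rw [← div_le_iff₀' (by linarith)] at h3
      have h4 : (1 - 1 / (4 * C)) * var B W ((MH B q W)^[t] f)
          = var B W ((MH B q W)^[t] f) - var B W ((MH B q W)^[t] f) / C / 4 := by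
        field_simp
      linarith
  refine le_trans ?_ (h2 t)
  rw [var_eq hB, h1]
  exact single_le_sum (f := fun y => W y * ((MH B q W)^[t] f y
    - (∑ y ∈ B, W y * f y) / ∑ y ∈ B, W y) ^ 2)
    (fun y hy => mul_nonneg (hW y hy).le (sq_nonneg _)) hx

/-- the form used in the end -/
theorem mix_nat (hW : ∀ x ∈ B, 0 < W x) (hq0 : ∀ x ∈ B, ∀ y ∈ B, 0 ≤ q x y)
    (hq1 : ∀ x ∈ B, ∑ y ∈ B, q x y = 1) (hsym : ∀ x ∈ B, ∀ y ∈ B, q x y = q y x) {C : ℕ}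
    (hC : 1 ≤ C)
    (h : ∀ f, var B W f ≤ C * ∑ x ∈ B, ∑ y ∈ B, q x y * (min (W x) (W y) * (f y - f x) ^ 2))
    (f : X → ℝ) (hf : ∀ x ∈ B, |f x| ≤ 1) {x : X} (hx : x ∈ B) {d k : ℕ}
    (hd : ∑ y ∈ B, W y ≤ 2 ^ d * W x) :
    |(MH B q W)^[4 * C * (d + 2 * k)] f x - (∑ y ∈ B, W y * f y) / ∑ y ∈ B, W y| ≤ (1 / 2) ^ k := by
  have hC' : (1 : ℝ) ≤ C := by exact_mod_cast hC
  have h1 := mix hW hq0 hq1 hsym hC' h f hf hx (4 * C * (d + 2 * k))
  have h2 : (1 - 1 / (4 * (C : ℝ))) ^ (4 * C) ≤ 1 / 2 := by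
    have := Ch.half_pow (n := 4 * C) (by omega)
    push_cast at this
    exact this
  have hρ : 0 ≤ 1 - 1 / (4 * (C : ℝ)) := by
    rw [sub_nonneg, div_le_one (by linarith)]; linarith
  have h3 : (1 - 1 / (4 * (C : ℝ))) ^ (4 * C * (d + 2 * k)) ≤ (1 / 2) ^ (d + 2 * k) := by
    rw [pow_mul]; exact pow_le_pow_left₀ (pow_nonneg hρ _) h2 _
  have h4 := h1.trans (mul_le_mul h3 hd (sum_nonneg fun y hy => (hW y hy).le) (by positivity))
  have h5 : ((1 : ℝ) / 2) ^ (d + 2 * k) * (2 ^ d * W x) = W x * ((1 / 2) ^ k) ^ 2 := by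
    rw [pow_add, mul_comm 2 k, pow_mul, one_div, inv_pow 2 d]
    field_simp
  rw [h5] at h4
  exact abs_le_of_sq_le_sq (le_of_mul_le_mul_left h4 (hW x hx)) (by positivity)

end

variable {E : Type} [Fintype E] [DecidableEq E] {U : E → ℤ} {s : E → ℕ}

lemma Kq_eq (hs2 : ∀ u, (s u : ℤ) ≤ U u + 1) (g : (E → ℤ) → ℝ) {D : E → ℤ} (hD : D ∈ box 0 U) :
    Kq U s g D = ∑ y ∈ box 0 U, qm U s D y * g y := by
  have key : ∀ u (δ : ℤ), |δ| ≤ s u →
      ∑ y ∈ box 0 U, (if mv U D u δ = y then 1 else 0 : ℝ) * g y = g (mv U D u δ) := by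
    intro u δ hδ
    simp [mv_mem hD (hδ.trans (hs2 u))]
  simp only [qm, Kq, div_mul_eq_mul_div, ← sum_div, sum_mul, add_mul]
  rw [sum_comm]
  congr 1
  refine sum_congr rfl fun u _ => Eq.symm ?_
  rw [sum_add_distrib, sum_add_distrib, ← sum_div, sum_comm, key u _ (by simp),
    key u _ (by simp)]
  congr 2
  refine sum_congr rfl fun t ht => ?_
  have ht' : (t : ℤ) ≤ s u := by exact_mod_cast (mem_range.1 ht).le
  rw [sum_add_distrib, key u _ (by simpa using ht'), key u _ (by simpa using ht')]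

lemma qm_nonneg (D y : E → ℤ) : 0 ≤ qm U s D y := by
  have h : ∀ z : E → ℤ, (0 : ℝ) ≤ if z = y then 1 else 0 := fun z => by split_ifs <;> norm_num
  exact div_nonneg (sum_nonneg fun u _ => add_nonneg
    (div_nonneg (sum_nonneg fun t _ => add_nonneg (h _) (h _)) (Nat.cast_nonneg _))
    (add_nonneg (h _) (h _))) (by positivity)

lemma qm_sum [Nonempty E] (hs1 : ∀ u, 1 ≤ s u) (hs2 : ∀ u, (s u : ℤ) ≤ U u + 1) {D : E → ℤ}
    (hD : D ∈ box 0 U) : ∑ y ∈ box 0 U, qm U s D y = 1 := by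
  have h1 := Kq_eq hs2 (fun _ => 1) hD
  simp only [mul_one] at h1
  have h2 : ∀ u, (∑ t ∈ range (s u), ((1 : ℝ) + 1)) / s u + (1 + 1) = 4 := by
    intro u
    have : (s u : ℝ) ≠ 0 := by have := hs1 u; positivity
    rw [sum_const, card_range, nsmul_eq_mul]; field_simp; norm_num
  have h3 : (Fintype.card E : ℝ) ≠ 0 := by exact_mod_cast Fintype.card_ne_zero
  rw [← h1, Kq]
  simp only [h2]
  rw [sum_const, card_univ, nsmul_eq_mul]
  field_simp

lemma qm_symm {D y : E → ℤ} (hD : D ∈ box 0 U) (hy : y ∈ box 0 U) : qm U s D y = qm U s y D := by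
  simp only [qm, Kq, mv_symm hD hy]

/-- comparison of the energy of long moves with the Dirichlet form of the chain -/
lemma bigE_le [Nonempty E] (hs2 : ∀ u, (s u : ℤ) ≤ U u + 1) {w W : (E → ℤ) → ℝ} {A : ℝ}
    (h : ∀ D ∈ box 0 U, ∀ u (δ : ℤ), |δ| ≤ s u → w D ≤ A * min (W D) (W (mv U D u δ)))
    (f : (E → ℤ) → ℝ) : bigE w f U s ≤ 4 * Fintype.card E * A *
      ∑ x ∈ box 0 U, ∑ y ∈ box 0 U, qm U s x y * (min (W x) (W y) * (f y - f x) ^ 2) := by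
  have h3 : (Fintype.card E : ℝ) ≠ 0 := by exact_mod_cast Fintype.card_ne_zero
  have key : ∀ u (δ : ℤ), |δ| ≤ s u → mvE w f U u δ ≤
      ∑ D ∈ box 0 U, A * (min (W D) (W (mv U D u δ)) * (f (mv U D u δ) - f D) ^ 2) := by
    intro u δ hδ
    refine sum_le_sum fun D hD => ?_
    rw [← mul_assoc]
    exact mul_le_mul_of_nonneg_right (h D hD u δ hδ) (sq_nonneg _)
  have h1 : ∀ x ∈ box 0 U, 4 * Fintype.card E * A *
      ∑ y ∈ box 0 U, qm U s x y * (min (W x) (W y) * (f y - f x) ^ 2)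
      = ∑ u, ((∑ t ∈ range (s u),
          (A * (min (W x) (W (mv U x u t)) * (f (mv U x u t) - f x) ^ 2)
            + A * (min (W x) (W (mv U x u (-t))) * (f (mv U x u (-t)) - f x) ^ 2))) / s u
        + (A * (min (W x) (W (mv U x u (s u))) * (f (mv U x u (s u)) - f x) ^ 2)
          + A * (min (W x) (W (mv U x u (-s u))) * (f (mv U x u (-s u)) - f x) ^ 2))) := by
    intro x hx
    rw [← Kq_eq hs2 (fun y => min (W x) (W y) * (f y - f x) ^ 2) hx, Kq]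
    simp only [← mul_add, ← mul_sum, mul_div_assoc]
    field_simp
  rw [mul_sum, sum_congr rfl h1, sum_comm, bigE]
  refine sum_le_sum fun u _ => ge_iff_le.1 ?_
  rw [sum_add_distrib, sum_add_distrib, ← sum_div, sum_comm]
  refine add_le_add (div_le_div_of_nonneg_right (sum_le_sum fun t ht => ?_) (Nat.cast_nonneg _))
    (add_le_add (key u (s u) (by simp)) (key u (-s u) (by simp)))
  have ht' : (t : ℤ) ≤ s u := by exact_mod_cast (mem_range.1 ht).le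
  rw [sum_add_distrib]
  exact add_le_add (key u _ (by simpa using ht')) (key u _ (by simpa using ht'))

end Vale.Agent.P328
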