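import Vale.Agent.P328.CovB

/-! The covariance bound (job Cov). -/

namespace Vale.Agent.P328

open Finset P317 P317.Fl

variable {E : Type} [Fintype E] [DecidableEq E] {n : ℕ}
variable {H : (E × Bool → ℤ) → ℝ} {lo hi : E → ℤ} {c : Fin n → E} {K : ℝ}

lemma Tr_two {a j : Fin n} (hj : j ∈ (List.finRange n).erase a) {F : Finset (El n) → ℝ}
    (h : ∀ T, 0 ≤ F T) (b b' : Bool) :
    Tr (((List.finRange n).erase a).erase j) (fun T => F (insert (a, b) (insert (j, b') T))) ∅ ≤
      Tr (List.finRange n) F ∅ :=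
  (Tr_part hj (F := fun T => F (insert (a, b) T)) (fun _ => h _) b').trans
    (Tr_part (List.mem_finRange a) h b)

omit [Fintype E] in
lemma two_facts {a j : Fin n} (hj : j ∈ (List.finRange n).erase a) {T : Finset (El n)}
    (h1 : ∀ e ∈ T, e ∈ (∅ : Finset (El n)) ∨ e.1 ∈ ((List.finRange n).erase a).erase j)
    (h2 : ∀ u, cnt (kap c) T (u, true) + cnt (kap c) T (u, false) = cnt (kap c) ∅ (u, true) +
      cnt (kap c) ∅ (u, false) + mult c (((List.finRange n).erase a).erase j) u) :
    (∀ b, (a, b) ∉ T) ∧ (∀ b, (j, b) ∉ T) ∧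
      cnt (kap c) T (c a, true) + cnt (kap c) T (c a, false) ≤ fib c (c a) ∧
      cnt (kap c) T (c j, true) + cnt (kap c) T (c j, false) < fib c (c j) := by
  have h0 := List.nodup_finRange n
  have h3 := fun u => mult_erase c (List.mem_finRange a) u
  have h4 := fun u => mult_erase c hj u
  have h5 : ∀ e, cnt (kap c) ∅ e = 0 := fun e => by simp [cnt]
  refine ⟨fun b hb => ?_, fun b hb => ?_, ?_, ?_⟩
  · exact h0.not_mem_erase (List.mem_of_mem_erase ((h1 _ hb).resolve_left (notMem_empty _)))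
  · exact (h0.erase a).not_mem_erase ((h1 _ hb).resolve_left (notMem_empty _))
  · rw [h2, h5, h5, ← mult_all, h3, h4]; omega
  · rw [h2, h5, h5, ← mult_all, h3, h4, if_pos rfl]; omega

lemma ne_of_erase {a j : Fin n} (hj : j ∈ (List.finRange n).erase a) : a ≠ j := fun e =>
  (List.nodup_finRange n).not_mem_erase (e ▸ hj)

lemma D_z (a : Fin n) (x y : ℝ) (g : Finset (El n) → ℝ) (T : Finset (El n)) :
    D (y • ind (a, true) - x • ind (a, false)) g T =
      y * (if (a, true) ∈ T then 0 else g (insert (a, true) T)) -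
        x * (if (a, false) ∈ T then 0 else g (insert (a, false) T)) := by
  rw [D_sub_left, D_smul_left, D_smul_left, D_ind, D_ind]

lemma B_le (hK : 1 ≤ K) (h : Good H K) {a j : Fin n} (hj : j ∈ (List.finRange n).erase a)
    {x y : ℝ} (hx : 0 ≤ x) (hy : 0 ≤ y) (hxy : x + y = Tr (List.finRange n) (mu H lo hi c) ∅) :
    fib c (c a) * B (mu H lo hi c) (((List.finRange n).erase a).erase j)
      (y • ind (a, true) - x • ind (a, false)) ∅ ≤ K ^ 2 * fib c (c j) * (x + y) ^ 3 := by
  have h0 := List.nodup_finRange n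
  have hp := fun T => (mu_pos (lo := lo) (hi := hi) (c := c) h T).le
  have h1 : Tr (((List.finRange n).erase a).erase j) (D (y • ind (a, true) - x • ind (a, false))
      (D (y • ind (a, true) - x • ind (a, false)) (mu H lo hi c))) ∅ =
      Tr (((List.finRange n).erase a).erase j)
        (fun T => (-2 * (x * y)) * mu H lo hi c (insert (a, false) (insert (a, true) T))) ∅ := by
    refine Tr_congr a (fun T hT => ?_) _ (fun e => h0.not_mem_erase (List.mem_of_mem_erase e)) _
      fun _ => notMem_empty _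
    simp [D_z, hT, insert_comm (a, true) (a, false)]
    ring
  have h2 := Tr_mono' c _ ((h0.erase a).erase j) ∅ (fresh_empty _) fun T h1 h2 =>
    have h3 := two_facts hj h1 h2
    mu_double (lo := lo) (hi := hi) hK h (ne_of_erase hj) h3.1 h3.2.1 h3.2.2.1
  rw [Tr_mul, Tr_mul, Tr_add] at h2
  have h3 := Tr_two hj hp true false
  have h4 := Tr_two hj hp false false
  simp only [insert_comm (a, true) (j, false), insert_comm (a, false) (j, false)] at h3 h4
  rw [B, h1, Tr_mul]
  have h5 : 0 ≤ K ^ 2 * fib c (c j) := by positivity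
  have h6 := h2.trans (mul_le_mul_of_nonneg_left (add_le_add h3 h4) h5)
  rw [← hxy] at h6
  have h7 := mul_le_mul_of_nonneg_left h6 (mul_nonneg hx hy)
  have h8 : x * y * (x + y + (x + y)) ≤ (x + y) ^ 3 := by
    have : 0 ≤ (x + y) * (x ^ 2 + y ^ 2) := by positivity
    nlinarith
  nlinarith [mul_le_mul_of_nonneg_left h8 h5]

lemma En_le (hK : 1 ≤ K) (h : Good H K) (hc : ∀ u, (fib c u : ℤ) = hi u - lo u) {a j : Fin n}
    (hj : j ∈ (List.finRange n).erase a) (f : (E → ℤ) → ℝ) :
    fib c (c j) * En (mu H lo hi c) (fun T => f (Dof lo c T)) j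
      (((List.finRange n).erase a).erase j) ∅ ≤
      2 * K ^ 4 * fib c (c a) * PF c * dir (fun D => H (emb D)) f lo hi (c j) := by
  have h0 := List.nodup_finRange n
  have hp := fun T => (mu_pos (lo := lo) (hi := hi) (c := c) h T).le
  obtain ⟨g1, hg1⟩ : ∃ g : (E → ℤ) → ℝ, g = fun D =>
    if lo (c j) < D (c j) then (f D - f (D - Pi.single (c j) 1)) ^ 2 else 0 := ⟨_, rfl⟩
  obtain ⟨g2, hg2⟩ : ∃ g : (E → ℤ) → ℝ, g = fun D =>
    if D (c j) < hi (c j) then (f (D + Pi.single (c j) 1) - f D) ^ 2 else 0 := ⟨_, rfl⟩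
  have h1 : ∀ D, 0 ≤ g1 D := fun D => by rw [hg1]; positivity
  have h2 : ∀ D, 0 ≤ g2 D := fun D => by rw [hg2]; positivity
  have h3 := Tr_two hj (F := fun T => mu H lo hi c T * g1 (Dof lo c T))
    (fun T => mul_nonneg (hp T) (h1 _)) false true
  have h4 := Tr_two hj (F := fun T => mu H lo hi c T * g2 (Dof lo c T))
    (fun T => mul_nonneg (hp T) (h2 _)) false false
  rw [Tr_full hc] at h3 h4
  have h5 : ∑ D ∈ box lo hi, H (emb D) * g1 D ≤ K ^ 2 * dir (fun D => H (emb D)) f lo hi (c j) := by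
    rw [hg1]; exact dir_shift hK h f (c j)
  have h6 : ∑ D ∈ box lo hi, H (emb D) * g2 D = dir (fun D => H (emb D)) f lo hi (c j) := by
    simp only [hg2, dir, sum_filter, mul_ite, mul_zero]
  have h7 : 0 ≤ dir (fun D => H (emb D)) f lo hi (c j) :=
    h6 ▸ sum_nonneg fun D _ => mul_nonneg (h.pos _).le (h2 D)
  have hP := (PF_pos c).le
  have h8 := add_le_add (h3.trans (mul_le_mul_of_nonneg_left h5 hP)) (h4.trans (by rw [h6]))
  rw [← Tr_add] at h8
  have h9 : 0 ≤ K ^ 2 * fib c (c a) := by positivity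
  have h10 := mul_le_mul_of_nonneg_left h8 h9
  rw [← Tr_mul] at h10
  rw [En, ← Tr_mul]
  refine (Tr_mono' c _ ((h0.erase a).erase j) ∅ (fresh_empty _) fun T h1 h2 => ?_).trans
    (h10.trans ?_)
  · obtain ⟨ha, hj', -, hlt⟩ := two_facts hj h1 h2
    have hne := ne_of_erase hj
    have e1 := mu_double (lo := lo) (hi := hi) hK h hne.symm hj' ha hlt.le
    have e2 : lo (c j) ≤ Dof lo c T (c j) := by simp [Dof]
    have e3 : Dof lo c T (c j) < hi (c j) := by have := hc (c j); unfold Dof; omega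
    rw [Dof_false lo c (hj' _), Dof_true lo c (hj' _), Dof_false lo c (by simp [ha]),
      Dof_false lo c (by simp [ha, hne]), Dof_false lo c (hj' _), Dof_true lo c (hj' _), hg1, hg2]
    simp only [add_sub_cancel_right]
    rw [if_pos e3, if_pos (by simp; omega), ← mul_assoc, ← add_mul, ← mul_assoc, sub_sq_comm]
    exact mul_le_mul_of_nonneg_right e1 (sq_nonneg _)
  · have : 1 ≤ K ^ 2 := one_le_pow₀ hK
    have e := mul_nonneg h9 (mul_nonneg hP h7)
    nlinarith

omit [Fintype E] in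
lemma fib_pos (c : Fin n → E) (a : Fin n) : (0 : ℝ) < fib c (c a) := by
  exact_mod_cast card_pos.2 ⟨a, by simp⟩

lemma sum_fib (c : Fin n → E) (φ : E → ℝ) : ∑ j, φ (c j) = ∑ u, fib c u * φ u := by
  rw [← sum_fiberwise univ c]
  refine sum_congr rfl fun u _ => ?_
  rw [sum_congr rfl fun j hj => by rw [(mem_filter.1 hj).2], sum_const, nsmul_eq_mul, fib]

lemma dir_nonneg {w : (E → ℤ) → ℝ} (hw : ∀ D, 0 < w D) (f : (E → ℤ) → ℝ) (u : E) :
    0 ≤ dir w f lo hi u := sum_nonneg fun D _ => mul_nonneg (hw D).le (sq_nonneg _)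

/-- the sum over the transversals with a prescribed element -/
noncomputable def XX (H : (E × Bool → ℤ) → ℝ) (lo hi : E → ℤ) (c : Fin n → E) (a : Fin n)
    (b : Bool) (g : (E → ℤ) → ℝ) : ℝ := Tr ((List.finRange n).erase a)
      (fun T => mu H lo hi c (insert (a, b) T) * g (Dof lo c (insert (a, b) T))) ∅

lemma XX_add (hc : ∀ u, (fib c u : ℤ) = hi u - lo u) (a : Fin n) (g : (E → ℤ) → ℝ) :
    XX H lo hi c a true g + XX H lo hi c a false g = PF c * ∑ D ∈ box lo hi, H (emb D) * g D := by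
  rw [← Tr_full hc, Tr_split (List.mem_finRange a), add_comm]; rfl

lemma XX_sum (hc : ∀ u, (fib c u : ℤ) = hi u - lo u) (v : E) (g : (E → ℤ) → ℝ) :
    ∑ a with c a = v, XX H lo hi c a true g =
      PF c * ∑ D ∈ box lo hi, H (emb D) * g D * ((D v : ℝ) - lo v) := by
  have h0 := List.nodup_finRange n
  have h1 : ∀ a, XX H lo hi c a true g = Tr (List.finRange n)
      (fun T => if (a, true) ∈ T then mu H lo hi c T * g (Dof lo c T) else 0) ∅ := by
    intro a
    rw [Tr_split (List.mem_finRange a), Tr_congr a (g := fun T => 0 * 0)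
      (fun T hT => by simp [hT]) _ h0.not_mem_erase _ fun _ => notMem_empty _, Tr_mul]
    simp [XX]
  simp only [h1, mul_assoc]
  rw [← Tr_sum, ← Tr_full hc]
  congr 1
  funext T
  rw [← sum_filter, sum_const, nsmul_eq_mul]
  have h2 : (filter (fun a => (a, true) ∈ T) (filter (fun a => c a = v) univ)).card =
      cnt (kap c) T (v, true) := by
    unfold cnt
    refine card_nbij' (fun a => (a, true)) Prod.fst ?_ ?_ ?_ ?_
    · intro a ha; simp at ha; simp [kap, ha]
    · rintro ⟨a, b⟩ ha; simp [kap] at ha; obtain ⟨h1, h2, rfl⟩ := ha; simp [h1, h2]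
    · intro a _; rfl
    · rintro ⟨a, b⟩ ha; simp [kap] at ha; simp [ha.2.2]
  rw [h2]; simp [Dof]; ring

lemma slot_bound (hK : 1 ≤ K) (h : Good H K) (hc : ∀ u, (fib c u : ℤ) = hi u - lo u) (a : Fin n)
    (f : (E → ℤ) → ℝ) {τ : ℝ} (hτ : 0 < τ) {Z : ℝ} (hZ : Z = PF c * ∑ D ∈ box lo hi, H (emb D)) :
    Z * XX H lo hi c a true f -
      XX H lo hi c a true (fun _ => 1) * (PF c * ∑ D ∈ box lo hi, H (emb D) * f D) ≤
      (τ * ((Fintype.card E + 1) * K ^ 2 * Z ^ 3) +
        3 * K ^ 4 * PF c * energy (fun D => H (emb D)) f lo hi / τ) / 2 := by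
  have h0 := List.nodup_finRange n
  have hp := fun T => mu_pos (lo := lo) (hi := hi) (c := c) h T
  have hP := PF_pos c
  have hK0 : 0 < K := by linarith
  obtain ⟨x, hx⟩ : ∃ x, x = Tr ((List.finRange n).erase a)
    (fun T => mu H lo hi c (insert (a, true) T)) ∅ := ⟨_, rfl⟩
  obtain ⟨y, hy⟩ : ∃ y, y = Tr ((List.finRange n).erase a)
    (fun T => mu H lo hi c (insert (a, false) T)) ∅ := ⟨_, rfl⟩
  have hx0 : 0 < x := hx ▸ Tr_pos (fun _ => hp _) _ _
  have hy0 : 0 < y := hy ▸ Tr_pos (fun _ => hp _) _ _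
  have hx1 : XX H lo hi c a true (fun _ => 1) = x := by simp [XX, hx]
  have hxy : x + y = Tr (List.finRange n) (mu H lo hi c) ∅ := by
    rw [Tr_split (List.mem_finRange a), hx, hy, add_comm]
  have hZ' : Z = x + y := by
    have := Tr_full (H := H) hc fun _ => 1
    simp only [mul_one] at this
    rw [hxy, hZ, ← this]
  have hcg : ∀ {F G : Finset (El n) → ℝ}, (∀ T, (∀ b, (a, b) ∉ T) → F T = G T) →
      Tr ((List.finRange n).erase a) F ∅ = Tr ((List.finRange n).erase a) G ∅ := fun hFG =>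
    Tr_congr a hFG _ h0.not_mem_erase _ fun _ => notMem_empty _
  have hfl := flow hp (lorentz_slots h.pos h.hess _ _)
    (fun j => τ * fib c (c a) / fib c (c j) ^ 2) (fun T => f (Dof lo c T)) _ (h0.erase a)
    (fun j _ => by have := fib_pos c a; have := fib_pos c j; positivity) ∅ (fresh_empty _)
    (y • ind (a, true) - x • ind (a, false)) (by
      rw [hcg (G := fun T => y * mu H lo hi c (insert (a, true) T) +
        (-x) * mu H lo hi c (insert (a, false) T)) fun T hT => by simp [D_z, hT]; ring,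
        Tr_add, Tr_mul, Tr_mul, ← hx, ← hy]
      ring)
  obtain ⟨e, he⟩ : ∃ e, e = energy (fun D => H (emb D)) f lo hi := ⟨_, rfl⟩
  have hd := fun u => dir_nonneg (lo := lo) (hi := hi) (fun D => h.pos (emb D)) f u
  have hU : ∀ u, (hi u : ℝ) - lo u = fib c u := fun u => by exact_mod_cast (hc u).symm
  have hsum : ∑ j ∈ ((List.finRange n).erase a).toFinset,
      (τ * fib c (c a) / fib c (c j) ^ 2 * B (mu H lo hi c) (((List.finRange n).erase a).erase j)
        (y • ind (a, true) - x • ind (a, false)) ∅ +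
      En (mu H lo hi c) (fun T => f (Dof lo c T)) j (((List.finRange n).erase a).erase j) ∅ /
        (τ * fib c (c a) / fib c (c j) ^ 2)) ≤
      τ * (Fintype.card E * K ^ 2 * Z ^ 3) + 2 * K ^ 4 * PF c * e / τ := by
    obtain ⟨φ, hφ⟩ : ∃ φ : E → ℝ, φ = fun u => τ * K ^ 2 * Z ^ 3 / fib c u +
      2 * K ^ 4 * PF c / τ * (fib c u * dir (fun D => H (emb D)) f lo hi u) := ⟨_, rfl⟩
    have hZ0 : 0 < Z := by linarith
    calc _ ≤ ∑ j ∈ ((List.finRange n).erase a).toFinset, φ (c j) := by
          refine sum_le_sum fun j hj => ?_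
          have hj' := List.mem_toFinset.1 hj
          have e1 := B_le hK h hj' hx0.le hy0.le hxy
          have e2 := En_le hK h hc hj' f
          have e3 := fib_pos c a
          have e4 := fib_pos c j
          rw [← hZ'] at e1
          rw [hφ]
          refine add_le_add ?_ ?_
          · rw [div_mul_eq_mul_div, div_le_div_iff₀ (by positivity) e4]
            have := mul_le_mul_of_nonneg_left e1 (mul_pos hτ e4).le
            nlinarith
          · rw [div_div_eq_mul_div, div_le_iff₀ (by positivity)]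
            have := mul_le_mul_of_nonneg_left e2 e4.le
            refine le_trans (le_of_eq ?_) (this.trans (le_of_eq ?_))
            · ring
            · field_simp
      _ ≤ ∑ j, φ (c j) := sum_le_sum_of_subset_of_nonneg (subset_univ _) fun j _ _ => by
          have := hd (c j)
          rw [hφ]; positivity
      _ ≤ ∑ u, (τ * K ^ 2 * Z ^ 3 + 2 * K ^ 4 * PF c / τ *
            (((hi u : ℝ) - lo u + 1) ^ 2 * dir (fun D => H (emb D)) f lo hi u)) := by
          rw [sum_fib]
          refine sum_le_sum fun u _ => ?_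
          have := hd u
          rw [hφ, hU, mul_add, mul_div_assoc', mul_left_comm (fib c u : ℝ) (_ / τ),
            ← mul_assoc (fib c u : ℝ) (fib c u : ℝ), ← sq]
          gcongr
          · exact div_le_of_le_mul₀ (by positivity) (by positivity) (le_of_eq (by ring))
          · linarith
      _ = _ := by
          rw [sum_add_distrib, sum_const, ← mul_sum, he, energy, card_univ, nsmul_eq_mul]
          ring
  have hfl' := hfl.trans (div_le_div_of_nonneg_right hsum two_pos.le)
  obtain ⟨g1, hg1⟩ : ∃ g : (E → ℤ) → ℝ, g = fun D =>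
    if lo (c a) < D (c a) then (f D - f (D - Pi.single (c a) 1)) ^ 2 else 0 := ⟨_, rfl⟩
  have hg : XX H lo hi c a true g1 ≤ PF c * (K ^ 2 * e) := by
    have e1 : ∑ D ∈ box lo hi, H (emb D) * g1 D ≤
        K ^ 2 * dir (fun D => H (emb D)) f lo hi (c a) := by
      rw [hg1]; exact dir_shift hK h f (c a)
    have e2 : 0 ≤ XX H lo hi c a false g1 :=
      Tr_nonneg (fun T => mul_nonneg (hp _).le (by rw [hg1]; positivity)) _ _
    have e3 : dir (fun D => H (emb D)) f lo hi (c a) ≤ e := by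
      rw [he, energy]
      refine le_trans ?_ (single_le_sum (f := fun u => ((hi u : ℝ) - lo u + 1) ^ 2 *
        dir (fun D => H (emb D)) f lo hi u) (fun u _ => mul_nonneg (sq_nonneg _) (hd u))
        (mem_univ (c a)))
      refine le_mul_of_one_le_left (hd _) (one_le_pow₀ ?_)
      rw [hU]; linarith [fib_pos c a]
    have e4 := XX_add (H := H) hc a g1
    have e5 := mul_le_mul_of_nonneg_left (e1.trans (mul_le_mul_of_nonneg_left e3 (sq_nonneg K)))
      hP.le
    linarith
  obtain ⟨σ, hσ⟩ : ∃ σ, σ = τ * (x + y) * K ^ 2 := ⟨_, rfl⟩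
  have hσ0 : 0 < σ := by rw [hσ]; positivity
  have hmain : y * XX H lo hi c a true f - x * XX H lo hi c a false f ≤
      Tr ((List.finRange n).erase a) (fun T => f (Dof lo c T) *
        D (y • ind (a, true) - x • ind (a, false)) (mu H lo hi c) T) ∅ +
      (y * σ / 2 * x + y / (2 * σ) * XX H lo hi c a true g1) := by
    rw [sub_eq_add_neg, ← neg_mul]
    nth_rewrite 3 [hx]
    simp only [XX, ← Tr_mul, ← Tr_add]
    refine Tr_mono a (fun T hT => ?_) _ h0.not_mem_erase _ fun _ => notMem_empty _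
    have e2 : lo (c a) ≤ Dof lo c T (c a) := by simp [Dof]
    rw [D_z, if_neg (hT _), if_neg (hT _), Dof_false lo c (hT _), Dof_true lo c (hT _), hg1]
    simp only [add_sub_cancel_right]
    rw [if_pos (by simp; omega)]
    have e1 := mul_pos hy0 (hp (insert (a, true) T))
    generalize f (Dof lo c T + Pi.single (c a) 1) = p
    generalize f (Dof lo c T) = q
    have e3 : p - q ≤ σ / 2 + (p - q) ^ 2 / (2 * σ) := by
      have : σ / 2 + (p - q) ^ 2 / (2 * σ) - (p - q) = (σ - (p - q)) ^ 2 / (2 * σ) := by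
        field_simp; ring
      have h2 : 0 ≤ (σ - (p - q)) ^ 2 / (2 * σ) := by positivity
      linarith
    have e4 := mul_le_mul_of_nonneg_left e3 e1.le
    refine le_of_sub_nonneg (le_of_le_of_eq (sub_nonneg.2 e4) ?_)
    ring
  have he0 : 0 ≤ e := he ▸ sum_nonneg fun u _ => mul_nonneg (sq_nonneg _) (hd u)
  have h1 : y * σ / 2 * x ≤ τ * (K ^ 2 * Z ^ 3) / 2 := by
    rw [hσ, hZ']
    have : 0 ≤ τ * (x + y) * K ^ 2 * (x ^ 2 + x * y + y ^ 2) := by positivity
    nlinarith
  have h2 : y / (2 * σ) * XX H lo hi c a true g1 ≤ K ^ 4 * PF c * e / τ / 2 := by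
    refine (mul_le_mul_of_nonneg_left hg (by positivity)).trans ?_
    rw [hσ, div_mul_eq_mul_div, div_div, div_le_div_iff₀ (by positivity) (by positivity)]
    have e1 : y * 1 ≤ (x + y) * K ^ 4 := by gcongr; linarith; exact one_le_pow₀ hK
    have e2 : 0 ≤ PF c * K ^ 2 * e * τ * 2 := by positivity
    nlinarith [mul_le_mul_of_nonneg_left e1 e2]
  rw [hx1, ← XX_add hc a f, ← he]
  have h3 : Z * XX H lo hi c a true f - x * (XX H lo hi c a true f + XX H lo hi c a false f) =
      y * XX H lo hi c a true f - x * XX H lo hi c a false f := by rw [hZ']; ring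
  rw [h3]
  refine hmain.trans ((add_le_add hfl' (add_le_add h1 h2)).trans (le_of_eq ?_))
  ring

lemma sq_le_of_forall {x U a b : ℝ} (hU : 0 ≤ U) (ha : 0 < a) (hb : 0 ≤ b)
    (h : ∀ τ, 0 < τ → |x| ≤ U * ((τ * a + b / τ) / 2)) : x ^ 2 ≤ U ^ 2 * a * b := by
  rw [← sq_abs]
  rcases (abs_nonneg x).eq_or_lt with h0 | h0
  · rw [← h0, zero_pow two_ne_zero]; positivity
  rcases hU.eq_or_lt with rfl | hU
  · have := h 1 one_pos
    linarith
  have h1 := h (|x| / (U * a)) (by positivity)
  generalize |x| = y at *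
  have h2 : U * ((y / (U * a) * a + b / (y / (U * a))) / 2) = y / 2 + U ^ 2 * a * b / y / 2 := by
    field_simp
  have h3 : y ≤ U ^ 2 * a * b / y := by linarith
  rwa [le_div_iff₀ h0, ← sq] at h3

lemma cov_le (hK : 1 ≤ K) (h : Good H K) (hc : ∀ u, (fib c u : ℤ) = hi u - lo u) (v : E)
    (f : (E → ℤ) → ℝ) {τ : ℝ} (hτ : 0 < τ) :
    PF c ^ 2 * ((∑ D ∈ box lo hi, H (emb D)) *
        (∑ D ∈ box lo hi, H (emb D) * f D * ((D v : ℝ) - lo v)) -
      (∑ D ∈ box lo hi, H (emb D) * f D) * ∑ D ∈ box lo hi, H (emb D) * ((D v : ℝ) - lo v)) ≤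
      fib c v * ((τ * ((Fintype.card E + 1) * K ^ 2 * (PF c * ∑ D ∈ box lo hi, H (emb D)) ^ 3) +
        3 * K ^ 4 * PF c * energy (fun D => H (emb D)) f lo hi / τ) / 2) := by
  have h1 := sum_le_sum (s := univ.filter fun a => c a = v)
    fun a _ => slot_bound hK h hc a f hτ rfl
  rw [sum_const, nsmul_eq_mul, sum_sub_distrib, ← mul_sum, ← sum_mul, XX_sum hc, XX_sum hc] at h1
  refine le_trans (le_of_eq ?_) h1
  simp only [mul_one]
  ring

theorem covB_of_good {H : (E × Bool → ℤ) → ℝ} {K : ℝ} (hK : 1 ≤ K) (h : Good H K) :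
    CovB (fun D => H (emb D)) (4 * (Fintype.card E + 1) * K ^ 6) := by
  intro lo hi hle f v
  obtain ⟨e⟩ : Nonempty (Fin (Fintype.card (Σ u, Fin (hi u - lo u).toNat)) ≃
    Σ u, Fin (hi u - lo u).toNat) := ⟨(Fintype.equivFin _).symm⟩
  obtain ⟨c, hcd⟩ : ∃ c : Fin _ → E, c = fun a => (e a).1 := ⟨_, rfl⟩
  have hc : ∀ u, (fib c u : ℤ) = hi u - lo u := by
    intro u
    have h1 : fib c u = (univ.filter fun x : Σ u, Fin (hi u - lo u).toNat => x.1 = u).card :=
      card_equiv e (by simp [hcd])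
    have h2 : (univ.filter fun x : Σ u, Fin (hi u - lo u).toNat => x.1 = u) =
        ({u} : Finset E).sigma fun _ => univ := by ext x; simp
    have := hle u
    rw [h1, h2, card_sigma]
    simp; omega
  have hP := PF_pos c
  have hm : 0 < ∑ D ∈ box lo hi, H (emb D) :=
    sum_pos (fun _ _ => h.pos _) ⟨lo, mem_box.2 fun u => ⟨le_rfl, hle u⟩⟩
  have hE : 0 ≤ energy (fun D => H (emb D)) f lo hi :=
    sum_nonneg fun u _ => mul_nonneg (sq_nonneg _) (dir_nonneg (fun _ => h.pos _) f u)
  have hneg : energy (fun D => H (emb D)) (fun D => -f D) lo hi =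
      energy (fun D => H (emb D)) f lo hi := by
    unfold energy dir
    refine sum_congr rfl fun u _ => congrArg _ (sum_congr rfl fun D _ => by ring)
  have key := sq_le_of_forall (Nat.cast_nonneg (fib c v)) (by positivity) (by positivity)
    fun τ hτ => abs_le.2 ⟨by
      have := cov_le hK h hc v (fun D => -f D) hτ
      simp only [hneg, mul_neg, neg_mul, sum_neg_distrib] at this
      linarith, cov_le hK h hc v f hτ⟩
  have hU : (hi v : ℝ) - lo v = fib c v := by exact_mod_cast (hc v).symm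
  rw [hU]
  refine le_of_mul_le_mul_left ?_ (pow_pos hP 4)
  have h0 : 0 ≤ PF c ^ 4 * ((fib c v : ℝ) ^ 2 * ((Fintype.card E + 1) * K ^ 6) *
    (∑ D ∈ box lo hi, H (emb D)) ^ 3 * energy (fun D => H (emb D)) f lo hi) := by positivity
  refine le_trans (le_of_eq (by ring)) (key.trans ?_)
  nlinarith

end Vale.Agent.P328
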