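import Vale.Agent.P328.Hess
import Vale.Agent.P317.FlowA

/-! Sums over transversals (helper file of job Cov). -/

namespace Vale.Agent.P328

open Finset P317 P317.Fl

variable {E : Type} [Fintype E] [DecidableEq E] {n : ℕ}

def kap (c : Fin n → E) (e : El n) : E × Bool := (c e.1, e.2)

def mult (c : Fin n → E) (K : List (Fin n)) (u : E) : ℕ := K.countP fun a => c a = u

omit [Fintype E] in
lemma cnt_ins {Ω : Type} [DecidableEq Ω] (κ : Ω → E) {S : Finset Ω} {a : Ω} (ha : a ∉ S) (e : E) :
    cnt κ (insert a S) e = cnt κ S e + if κ a = e then 1 else 0 := by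
  unfold cnt
  rw [filter_insert]
  split_ifs with h
  · rw [card_insert_of_notMem (by simp [ha])]
  · rfl

omit [Fintype E] in
lemma mult_cons (c : Fin n → E) (l : Fin n) (K : List (Fin n)) (u : E) :
    mult c (l :: K) u = mult c K u + if c l = u then 1 else 0 := by
  simp [mult, List.countP_cons]

lemma Tr_perm {K K' : List (Fin n)} (h : K.Perm K') (f : Finset (El n) → ℝ) :
    ∀ S, Tr K f S = Tr K' f S := by
  induction h with
  | nil => intro S; rfl
  | cons l _ ih => intro S; simp only [Tr, ih]
  | swap a b K =>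
    intro S
    simp only [Tr]
    rw [insert_comm (a, false) (b, false), insert_comm (a, true) (b, false),
      insert_comm (a, false) (b, true), insert_comm (a, true) (b, true)]
    ring
  | trans _ _ ih1 ih2 => intro S; rw [ih1, ih2]

lemma Tr_sum {ι : Type} (s : Finset ι) (f : ι → Finset (El n) → ℝ) (K : List (Fin n))
    (S : Finset (El n)) : Tr K (fun T => ∑ i ∈ s, f i T) S = ∑ i ∈ s, Tr K (f i) S := by
  classical
  induction s using Finset.induction_on with
  | empty => simpa using Tr_mul 0 (fun _ => 0) K S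
  | insert i s hi ih => simp only [sum_insert hi, Tr_add, ih]

omit [Fintype E] in
lemma Tr_mono' (c : Fin n → E) {f g : Finset (El n) → ℝ} : ∀ (K : List (Fin n)), K.Nodup →
    ∀ S, Fresh K S → (∀ T : Finset (El n), (∀ e ∈ T, e ∈ S ∨ e.1 ∈ K) →
      (∀ u, cnt (kap c) T (u, true) + cnt (kap c) T (u, false) =
        cnt (kap c) S (u, true) + cnt (kap c) S (u, false) + mult c K u) → f T ≤ g T) →
    Tr K f S ≤ Tr K g S
  | [], _, S, _, h => h S (fun _ he => Or.inl he) fun _ => rfl
  | l :: K, hK, S, hS, h => by
    have hl := (List.nodup_cons.1 hK).1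
    have hK' := (List.nodup_cons.1 hK).2
    have key : ∀ b, Tr K f (insert (l, b) S) ≤ Tr K g (insert (l, b) S) := by
      intro b
      refine Tr_mono' c K hK' _ (hS.insert hl b) fun T h1 h2 => h T (fun e he => ?_) fun u => ?_
      · rcases h1 e he with h3 | h3
        · rcases mem_insert.1 h3 with rfl | h3
          · exact Or.inr List.mem_cons_self
          · exact Or.inl h3
        · exact Or.inr (List.mem_cons_of_mem _ h3)
      · have hb : (l, b) ∉ S := hS l List.mem_cons_self b
        rw [h2 u, cnt_ins _ hb, cnt_ins _ hb, mult_cons]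
        cases b <;> by_cases hu : c l = u <;> simp [kap, hu] <;> omega
    exact add_le_add (key false) (key true)

lemma Tr_count (c : Fin n → E) (lo hi : E → ℤ) (Ψ : (E → ℤ) → ℝ) : ∀ (K : List (Fin n)), K.Nodup →
    (∀ u, (mult c K u : ℤ) ≤ hi u - lo u) → ∀ S, Fresh K S →
    Tr K (fun T => Ψ fun u => lo u + cnt (kap c) T (u, true)) S =
      ∑ D ∈ box lo hi, (∏ u, ((mult c K u).choose (D u - lo u).toNat : ℝ)) *
        Ψ fun u => D u + cnt (kap c) S (u, true)
  | [], _, hm, S, _ => by
    have hlo : lo ∈ box lo hi := mem_box.2 fun u => ⟨le_rfl, by have := hm u; simp [mult] at this; omega⟩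
    rw [sum_eq_single_of_mem lo hlo]
    · simp [Tr]
    · intro D hD hne
      obtain ⟨u, hu⟩ := Function.ne_iff.1 hne
      have := (mem_box.1 hD u).1
      rw [prod_eq_zero (mem_univ u), zero_mul]
      rw [Nat.choose_eq_zero_of_lt, Nat.cast_zero]
      simp only [mult, List.countP_nil]; omega
  | l :: K, hK, hm, S, hS => by
    have hl := (List.nodup_cons.1 hK).1
    have hK' := (List.nodup_cons.1 hK).2
    have hm' : ∀ u, (mult c K u : ℤ) ≤ hi u - lo u := fun u => by
      have := hm u; rw [mult_cons] at this; push_cast at this; split_ifs at this <;> omega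
    have hlt : (mult c K (c l) : ℤ) < hi (c l) - lo (c l) := by
      have := hm (c l); rw [mult_cons, if_pos rfl] at this; push_cast at this; omega
    have hb : ∀ b, (l, b) ∉ S := hS l List.mem_cons_self
    simp only [Tr]
    rw [Tr_count c lo hi Ψ K hK' hm' _ (hS.insert hl false),
      Tr_count c lo hi Ψ K hK' hm' _ (hS.insert hl true)]
    obtain ⟨F, hF⟩ : ∃ F : (E → ℤ) → ℝ, F = fun D =>
        (∏ u, ((mult c K u).choose ((D - Pi.single (c l) 1 : E → ℤ) u - lo u).toNat : ℝ)) *
          Ψ fun u => D u + cnt (kap c) S (u, true) := ⟨_, rfl⟩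
    have h1 : ∑ D ∈ box lo hi, (∏ u, ((mult c K u).choose (D u - lo u).toNat : ℝ)) *
        (Ψ fun u => D u + cnt (kap c) (insert (l, true) S) (u, true)) =
        ∑ D ∈ box lo hi, if lo (c l) < D (c l) then F D else 0 := by
      rw [← sum_filter, ← sum_shift, sum_filter]
      refine sum_congr rfl fun D hD => ?_
      split_ifs with h
      · simp only [hF, add_sub_cancel_right]
        congr 2
        funext u
        rw [cnt_ins _ (hb _)]
        by_cases hu : c l = u
        · subst hu; simp [kap]; ring
        · simp [kap, hu, Ne.symm hu]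
      · rw [prod_eq_zero (mem_univ (c l)), zero_mul]
        rw [Nat.choose_eq_zero_of_lt, Nat.cast_zero]
        omega
    rw [h1, ← sum_add_distrib]
    refine sum_congr rfl fun D hD => ?_
    have h2 : (fun u => D u + cnt (kap c) (insert (l, false) S) (u, true)) =
        fun u => D u + cnt (kap c) S (u, true) := by
      funext u; rw [cnt_ins _ (hb _)]; simp [kap]
    have h3 : ∏ u ∈ univ.erase (c l), ((mult c (l :: K) u).choose (D u - lo u).toNat : ℝ) =
        ∏ u ∈ univ.erase (c l), ((mult c K u).choose (D u - lo u).toNat : ℝ) :=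
      prod_congr rfl fun u hu => by rw [mult_cons, if_neg (ne_of_mem_erase hu).symm, add_zero]
    have h4 : ∏ u ∈ univ.erase (c l),
        ((mult c K u).choose ((D - Pi.single (c l) 1 : E → ℤ) u - lo u).toNat : ℝ) =
        ∏ u ∈ univ.erase (c l), ((mult c K u).choose (D u - lo u).toNat : ℝ) :=
      prod_congr rfl fun u hu => by simp [ne_of_mem_erase hu]
    rw [h2, hF]
    simp only [← mul_prod_erase univ _ (mem_univ (c l))]
    rw [h3, h4, mult_cons, if_pos rfl]
    have h5 := (mem_box.1 hD (c l)).1
    split_ifs with h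
    · have h6 : (D (c l) - lo (c l)).toNat =
          ((D - Pi.single (c l) 1 : E → ℤ) (c l) - lo (c l)).toNat + 1 := by
        simp only [Pi.sub_apply, Pi.single_eq_same]; omega
      rw [h6, Nat.choose_succ_succ']
      push_cast; ring
    · have h6 : (D (c l) - lo (c l)).toNat = 0 := by omega
      rw [h6]; simp

end Vale.Agent.P328
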