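import Vale.Agent.P328.CovA

/-! The polarised weight of a box (helper file of job Cov). -/

namespace Vale.Agent.P328

open Finset P317 P317.Fl

variable {E : Type} [Fintype E] [DecidableEq E] {n : ℕ}

def bas (lo hi : E → ℤ) (e : E × Bool) : ℤ := if e.2 = true then lo e.1 else -hi e.1

noncomputable def mu (H : (E × Bool → ℤ) → ℝ) (lo hi : E → ℤ) (c : Fin n → E) :
    Finset (El n) → ℝ := slotW H (kap c) (bas lo hi)

def Dof (lo : E → ℤ) (c : Fin n → E) (T : Finset (El n)) (u : E) : ℤ :=
  lo u + cnt (kap c) T (u, true)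

def fib (c : Fin n → E) (u : E) : ℕ := (univ.filter fun a => c a = u).card

noncomputable def PF (c : Fin n → E) : ℝ := ∏ u, ((fib c u).factorial : ℝ)

lemma PF_pos (c : Fin n → E) : 0 < PF c :=
  prod_pos fun _ _ => by exact_mod_cast Nat.factorial_pos _

omit [Fintype E] in
lemma cnt_univ (c : Fin n → E) (e : E × Bool) : cnt (kap c) univ e = fib c e.1 := by
  unfold cnt fib
  symm
  refine card_nbij' (fun a => (a, e.2)) Prod.fst ?_ ?_ ?_ ?_
  · intro a ha; simpa [kap, Prod.ext_iff] using ha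
  · intro a ha; simp [kap, Prod.ext_iff] at ha; simpa using ha.1
  · intro a _; rfl
  · intro a ha; simp [kap, Prod.ext_iff] at ha; simp [← ha.2]

omit [Fintype E] in
lemma mult_all (c : Fin n → E) (u : E) : mult c (List.finRange n) u = fib c u := by
  rw [mult, fib, List.countP_eq_length_filter, ← List.toFinset_card_of_nodup
    ((List.nodup_finRange n).filter _)]
  congr 1; ext a; simp

omit [Fintype E] in
lemma mult_erase (c : Fin n → E) {K : List (Fin n)} {a : Fin n} (ha : a ∈ K) (u : E) :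
    mult c K u = mult c (K.erase a) u + if c a = u then 1 else 0 := by
  rw [← mult_cons]; exact (List.perm_cons_erase ha).countP_eq _

lemma Tr_split {K : List (Fin n)} {a : Fin n} (ha : a ∈ K) (F : Finset (El n) → ℝ) :
    Tr K F ∅ = Tr (K.erase a) (fun T => F (insert (a, false) T)) ∅ +
      Tr (K.erase a) (fun T => F (insert (a, true) T)) ∅ := by
  rw [Tr_perm (List.perm_cons_erase ha), Tr, Tr_shift, Tr_shift]

lemma Tr_nonneg {F : Finset (El n) → ℝ} (h : ∀ T, 0 ≤ F T) : ∀ (K : List (Fin n)) S, 0 ≤ Tr K F S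
  | [], S => h S
  | _ :: K, _ => add_nonneg (Tr_nonneg h K _) (Tr_nonneg h K _)

lemma Tr_part {K : List (Fin n)} {a : Fin n} (ha : a ∈ K) {F : Finset (El n) → ℝ}
    (h : ∀ T, 0 ≤ F T) (b : Bool) : Tr (K.erase a) (fun T => F (insert (a, b) T)) ∅ ≤ Tr K F ∅ := by
  rw [Tr_split ha F]
  have := fun b => Tr_nonneg (F := fun T => F (insert (a, b) T)) (fun _ => h _) (K.erase a) ∅
  cases b
  · linarith [this true]
  · linarith [this false]

lemma fresh_empty (K : List (Fin n)) : Fresh K ∅ := fun _ _ _ => notMem_empty _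

omit [Fintype E] in
lemma Dof_false (lo : E → ℤ) (c : Fin n → E) {T : Finset (El n)} {a : Fin n}
    (ha : (a, false) ∉ T) : Dof lo c (insert (a, false) T) = Dof lo c T := by
  funext u; simp [Dof, cnt_ins _ ha, kap]

omit [Fintype E] in
lemma Dof_true (lo : E → ℤ) (c : Fin n → E) {T : Finset (El n)} {a : Fin n}
    (ha : (a, true) ∉ T) : Dof lo c (insert (a, true) T) = Dof lo c T + Pi.single (c a) 1 := by
  funext u
  by_cases h : c a = u
  · subst h; simp [Dof, cnt_ins _ ha, kap]; ring
  · simp [Dof, cnt_ins _ ha, kap, h, Ne.symm h]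

variable {H : (E × Bool → ℤ) → ℝ} {lo hi : E → ℤ} {c : Fin n → E} {K : ℝ}

lemma Tr_full (hc : ∀ u, (fib c u : ℤ) = hi u - lo u) (g : (E → ℤ) → ℝ) :
    Tr (List.finRange n) (fun T => mu H lo hi c T * g (Dof lo c T)) ∅ =
      PF c * ∑ D ∈ box lo hi, H (emb D) * g D := by
  obtain ⟨Ψ, hΨ⟩ : ∃ Ψ : (E → ℤ) → ℝ, Ψ = fun D => H (emb D) * g D *
      ∏ u, (((D u - lo u).toNat.factorial * (fib c u - (D u - lo u).toNat).factorial : ℕ) : ℝ) :=
    ⟨_, rfl⟩
  have key : ∀ T : Finset (El n), (∀ u, cnt (kap c) T (u, true) + cnt (kap c) T (u, false) =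
      cnt (kap c) ∅ (u, true) + cnt (kap c) ∅ (u, false) + mult c (List.finRange n) u) →
      mu H lo hi c T * g (Dof lo c T) = Ψ (Dof lo c T) := by
    intro T hT
    have h1 : ∀ u, cnt (kap c) T (u, true) + cnt (kap c) T (u, false) = fib c u := fun u => by
      rw [hT, mult_all]; simp [cnt]
    have h2 : (bas lo hi + fun e => (cnt (kap c) T e : ℤ)) = emb (Dof lo c T) := by
      funext ⟨u, b⟩
      have := h1 u
      have := hc u
      cases b <;> simp [bas, emb, Dof]
      omega
    simp only [hΨ, mu, slotW, h2]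
    rw [mul_right_comm, Fintype.prod_prod_type]
    congr 1
    refine prod_congr rfl fun u _ => ?_
    have h3 : (Dof lo c T u - lo u).toNat = cnt (kap c) T (u, true) := by simp [Dof]
    have h4 : fib c u - cnt (kap c) T (u, false) = cnt (kap c) T (u, true) := by
      have := h1 u; omega
    rw [Fintype.prod_bool, cnt_univ, cnt_univ, h3, h4]
    push_cast; ring
  have h0 := List.nodup_finRange n
  rw [le_antisymm (Tr_mono' c _ h0 ∅ (fresh_empty _) fun T _ hT => (key T hT).le)
    (Tr_mono' c _ h0 ∅ (fresh_empty _) fun T _ hT => (key T hT).ge)]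
  have := Tr_count c lo hi Ψ _ h0 (fun u => by rw [mult_all, hc]) ∅ (fresh_empty _)
  unfold Dof
  rw [this, mul_sum]
  refine sum_congr rfl fun D hD => ?_
  have h5 : (fun u => D u + cnt (kap c) ∅ (u, true)) = D := by funext u; simp [cnt]
  rw [h5, hΨ, mul_left_comm, ← prod_mul_distrib, mul_comm, PF]
  congr 1
  refine prod_congr rfl fun u _ => ?_
  have h6 : (D u - lo u).toNat ≤ fib c u := by
    have := mem_box.1 hD u
    have := hc u
    omega
  rw [mult_all, ← Nat.choose_mul_factorial_mul_factorial h6]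
  push_cast; ring

lemma mu_pos (h : Good H K) (T : Finset (El n)) : 0 < mu H lo hi c T := slotW_pos h.pos _ _ _

lemma mu_swap (hK : 1 ≤ K) (h : Good H K) {T : Finset (El n)} {a a' : El n} (ha : a ∉ T)
    (ha' : a' ∉ T) :
    mu H lo hi c (insert a T) * ((fib c (c a.1) - cnt (kap c) T (kap c a) : ℕ) : ℝ) ≤
      K ^ 2 * fib c (c a'.1) * mu H lo hi c (insert a' T) := by
  have h1 := slotW_insert H (kap c) (bas lo hi) ha
  have h2 := slotW_insert H (kap c) (bas lo hi) ha'
  rw [cnt_univ] at h1 h2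
  have h3 := h.up (bas lo hi + fun e => (cnt (kap c) T e : ℤ)) (kap c a)
  have h4 := h.down (bas lo hi + fun e => (cnt (kap c) T e : ℤ)) (kap c a')
  have h5 : (0 : ℝ) ≤ ∏ e, ((cnt (kap c) univ e - cnt (kap c) T e).factorial : ℝ) :=
    prod_nonneg fun _ _ => Nat.cast_nonneg _
  have h6 := (mu_pos (lo := lo) (hi := hi) (c := c) h (insert a' T)).le
  have h7 : ((fib c (c a'.1) - cnt (kap c) T (kap c a') : ℕ) : ℝ) ≤ fib c (c a'.1) := by
    exact_mod_cast Nat.sub_le _ _
  unfold mu at *
  calc _ = _ := h1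
    _ ≤ K * (K * H (bas lo hi + (fun e => (cnt (kap c) T e : ℤ)) + Pi.single (kap c a') 1)) *
        ∏ e, ((cnt (kap c) univ e - cnt (kap c) T e).factorial : ℝ) := by
      gcongr
      exact h3.trans (by gcongr)
    _ = K ^ 2 * (slotW H (kap c) (bas lo hi) (insert a' T) *
        ((fib c (c a'.1) - cnt (kap c) T (kap c a') : ℕ) : ℝ)) := by
      rw [show (kap c a').1 = c a'.1 from rfl] at h2
      rw [h2]; ring
    _ ≤ K ^ 2 * (slotW H (kap c) (bas lo hi) (insert a' T) * fib c (c a'.1)) := by gcongr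
    _ = _ := by ring

/-- a doubled slot is compared with transversals -/
lemma mu_double (hK : 1 ≤ K) (h : Good H K) {T : Finset (El n)} {a j : Fin n} (haj : a ≠ j)
    (ha : ∀ b, (a, b) ∉ T) (hj : ∀ b, (j, b) ∉ T)
    (hT : cnt (kap c) T (c a, true) + cnt (kap c) T (c a, false) ≤ fib c (c a)) :
    fib c (c a) * mu H lo hi c (insert (a, false) (insert (a, true) T)) ≤ K ^ 2 * fib c (c j) *
      (mu H lo hi c (insert (j, false) (insert (a, true) T)) +
        mu H lo hi c (insert (j, false) (insert (a, false) T))) := by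
  have h1 := mu_swap (lo := lo) (hi := hi) (c := c) hK h (T := insert (a, true) T)
    (a := (a, false)) (a' := (j, false)) (by simp [ha]) (by simp [hj])
  have h2 := mu_swap (lo := lo) (hi := hi) (c := c) hK h (T := insert (a, false) T)
    (a := (a, true)) (a' := (j, false)) (by simp [ha]) (by simp [hj, haj.symm])
  rw [insert_comm] at h2
  rw [cnt_ins _ (ha _)] at h1 h2
  simp only [kap, Prod.mk.injEq, Bool.true_eq_false, Bool.false_eq_true, and_false, if_false,
    add_zero] at h1 h2
  have h3 : (fib c (c a) : ℝ) ≤ ((fib c (c a) - cnt (kap c) T (c a, false) : ℕ) : ℝ) +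
      ((fib c (c a) - cnt (kap c) T (c a, true) : ℕ) : ℝ) := by
    norm_cast; omega
  have h4 := mul_le_mul_of_nonneg_right h3
    (mu_pos (lo := lo) (hi := hi) (c := c) h (insert (a, false) (insert (a, true) T))).le
  linarith

lemma w_step (hK : 1 ≤ K) (h : Good H K) (D : E → ℤ) (u : E) :
    H (emb (D + Pi.single u 1)) ≤ K ^ 2 * H (emb D) := by
  have h1 : emb (D + Pi.single u 1) + Pi.single (u, false) 1 = emb D + Pi.single (u, true) 1 := by
    funext ⟨v, b⟩
    by_cases hv : v = u <;> cases b <;> simp [emb, hv]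
  have h2 := h.down (emb (D + Pi.single u 1)) (u, false)
  have h3 := h.up (emb D) (u, true)
  rw [h1] at h2
  calc _ ≤ _ := h2
    _ ≤ K * (K * H (emb D)) := by gcongr
    _ = _ := by ring

/-- the shifted energy -/
lemma dir_shift (hK : 1 ≤ K) (h : Good H K) (f : (E → ℤ) → ℝ) (u : E) :
    ∑ D ∈ box lo hi, H (emb D) * (if lo u < D u then (f D - f (D - Pi.single u 1)) ^ 2 else 0) ≤
      K ^ 2 * dir (fun D => H (emb D)) f lo hi u := by
  simp only [mul_ite, mul_zero]
  rw [← sum_filter, ← sum_shift, dir, mul_sum]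
  refine sum_le_sum fun D _ => ?_
  rw [add_sub_cancel_right, ← mul_assoc]
  exact mul_le_mul_of_nonneg_right (w_step hK h D u) (sq_nonneg _)

end Vale.Agent.P328
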