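import Mathlib
import Vale.Agent.Lib.PTime.Defs

/-! Contingency tables and almost uniform samplers. -/

namespace Vale.Agent.P328

open Finset Vale.Agent.PT

/-- the contingency tables with row sums `r` and column sums `c` -/
def Omega {m n : ℕ} (r : Fin m → ℕ) (c : Fin n → ℕ) : Finset (Fin m → Fin n → ℕ) :=
  (Fintype.piFinset fun i => Fintype.piFinset fun _ => range (r i + 1)).filter fun X =>
    (∀ i, ∑ j, X i j = r i) ∧ ∀ j, ∑ i, X i j = c j

/-- a table written as the list of its rows -/
def rows {m n : ℕ} (X : Fin m → Fin n → ℕ) : List (List ℕ) :=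
  List.ofFn fun i => List.ofFn fun j => X i j

/-- the probability that `g` outputs `y` on `T` uniformly random bits -/
noncomputable def prob (T : ℕ) (g : List Bool → List (List ℕ)) (y : List (List ℕ)) : ℝ :=
  ((univ.filter fun ω : Fin T → Bool => g (List.ofFn ω) = y).card : ℝ) / 2 ^ T

/-- `A` is an almost uniform sampler: a polynomial-time Turing machine which, given the margins
(in binary), a number `k` in unary and polynomially many random bits, outputs a table whose law
is within total variation distance `2 ^ (-k)` of the uniform law -/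
def IsSampler (A : (List ℕ × List ℕ × List Unit) × List Bool → List (List ℕ)) : Prop :=
  PolyTimeTM A ∧ ∃ p : Polynomial ℕ, ∀ (m n : ℕ), 0 < m → 0 < n →
    ∀ (r : Fin m → ℕ) (c : Fin n → ℕ), ∑ i, r i = ∑ j, c j → ∀ (k : ℕ)
    (x : List ℕ × List ℕ × List Unit), x = (List.ofFn r, List.ofFn c, List.replicate k ()) →
    ∀ T : ℕ, T = p.eval (encode x).length →
      (∀ ω : Fin T → Bool, ∃ X ∈ Omega r c, A (x, List.ofFn ω) = rows X) ∧
      (∑ X ∈ Omega r c, |prob T (fun l => A (x, l)) (rows X) - 1 / (Omega r c).card|) / 2 ≤
        (1 / 2) ^ k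

end Vale.Agent.P328
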