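import Vale.Agent.P328.Model
import Vale.Agent.P328.Accept

/-! Completing the cross: tables and points of the box (job Fill). -/

namespace Vale.Agent.P328

open Finset

namespace Fl

variable (I : Inst)

lemma sum_c : ∑ j, (I.c j : ℤ) = I.N := by
  rw [Inst.N, I.hsum]; push_cast; rfl

lemma sum_r : ∑ i, (I.r i : ℤ) = I.N := by
  rw [Inst.N]; push_cast; rfl

lemma sum_col (D : I.Cell → ℤ) : ∑ j, I.col D j = I.tot D := sum_comm

lemma fill_row (D : I.Cell → ℤ) (i : Fin I.m) : ∑ j, I.fill D (i, j) = I.r i := by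
  have h : ∑ j, D (i, j) = I.row D i := rfl
  by_cases hi : i = I.i0
  · simp only [Inst.fill, hi, if_true, true_and, sum_add_distrib, sum_sub_distrib, sum_ite_eq',
      mem_univ, sum_c, sum_col] at h ⊢
    rw [h]; ring
  · simp only [Inst.fill, hi, if_false, false_and, sum_add_distrib, sum_ite_eq',
      mem_univ, if_true, add_zero, sub_zero, h]
    ring

lemma fill_col (D : I.Cell → ℤ) (j : Fin I.n) : ∑ i, I.fill D (i, j) = I.c j := by
  have h : ∑ i, D (i, j) = I.col D j := rfl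
  have ht : ∑ i, I.row D i = I.tot D := rfl
  by_cases hj : j = I.j0
  · simp only [Inst.fill, hj, if_true, and_true, sum_add_distrib, sum_sub_distrib, sum_ite_eq',
      mem_univ, sum_r, ht] at h ⊢
    rw [h]; ring
  · simp only [Inst.fill, hj, if_false, and_false, sum_add_distrib, sum_ite_eq',
      mem_univ, if_true, add_zero, sub_zero, h]
    ring

lemma fill_off (D : I.Cell → ℤ) {u : I.Cell} (h1 : u.1 ≠ I.i0) (h2 : u.2 ≠ I.j0) :
    I.fill D u = D u := by
  simp [Inst.fill, h1, h2]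

variable {I}

lemma cross {D : I.Cell → ℤ} (hD : D ∈ box 0 I.U) {u : I.Cell} (h : u.1 = I.i0 ∨ u.2 = I.j0) :
    D u = 0 := by
  have h1 := mem_box.1 hD u
  have h2 : I.U u = 0 := by simp [Inst.U, Inst.Un, h]
  rw [h2] at h1
  exact le_antisymm h1.2 h1.1

lemma fill_inj {D D' : I.Cell → ℤ} (hD : D ∈ box 0 I.U) (hD' : D' ∈ box 0 I.U)
    (h : I.fill D = I.fill D') : D = D' := by
  funext u
  by_cases hu : u.1 = I.i0 ∨ u.2 = I.j0
  · rw [cross hD hu, cross hD' hu]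
  · push Not at hu
    rw [← fill_off I D hu.1 hu.2, h, fill_off I D' hu.1 hu.2]

lemma pen_eq {D : I.Cell → ℤ} (hD : D ∈ box 0 I.U) :
    I.pen D = ∑ e : I.Cell, I.lam e.1 e.2 * ((-I.fill D e).toNat : ℚ) := by
  have hr : I.row D I.i0 = 0 := sum_eq_zero fun j _ => cross hD (Or.inl rfl)
  have hc : I.col D I.j0 = 0 := sum_eq_zero fun j _ => cross hD (Or.inr rfl)
  have key : ∀ i j, I.lam i j * ((-I.fill D (i, j)).toNat : ℚ)
      = (if j = I.j0 then I.lam i I.j0 * ((I.row D i - I.r i).toNat : ℚ) else 0)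
        + (if i = I.i0 then I.lam I.i0 j * ((I.col D j - I.c j).toNat : ℚ) else 0)
        + (if i = I.i0 then if j = I.j0 then I.lam I.i0 I.j0
          * (((I.N : ℤ) - I.r I.i0 - I.c I.j0 - I.tot D).toNat : ℚ) else 0 else 0) := by
    intro i j
    by_cases hi : i = I.i0 <;> by_cases hj : j = I.j0
    · subst hi; subst hj
      have e : -I.fill D (I.i0, I.j0) = (I.N : ℤ) - I.r I.i0 - I.c I.j0 - I.tot D := by
        simp only [Inst.fill, if_true, and_self, hr, hc, cross hD (u := (I.i0, I.j0)) (Or.inl rfl)]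
        ring
      simp [e, hr, hc]
    · subst hi
      have e : -I.fill D (I.i0, j) = I.col D j - I.c j := by
        simp [Inst.fill, hj, cross hD (u := (I.i0, j)) (Or.inl rfl)]
      simp [e, hj]
    · subst hj
      have e : -I.fill D (i, I.j0) = I.row D i - I.r i := by
        simp [Inst.fill, hi, cross hD (u := (i, I.j0)) (Or.inr rfl)]
      simp [e, hi]
    · have h0 : (0 : ℤ) ≤ D (i, j) := (mem_box.1 hD (i, j)).1
      have e : (-I.fill D (i, j)).toNat = 0 := by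
        rw [fill_off I D (u := (i, j)) hi hj]; omega
      simp [e, hi, hj]
  rw [Fintype.sum_prod_type]
  simp only [key, sum_add_distrib]
  rw [sum_comm (f := fun i j =>
    if i = I.i0 then I.lam I.i0 j * ((I.col D j - I.c j).toNat : ℚ) else 0)]
  simp [Inst.pen]

lemma w_eq {D : I.Cell → ℤ} (hD : D ∈ box 0 I.U) :
    I.w D = ∏ e : I.Cell, ((2 : ℝ) ^ (-(I.lam e.1 e.2 : ℝ))) ^ (-I.fill D e).toNat := by
  rw [Inst.w, pen_eq hD]
  push_cast
  rw [← sum_neg_distrib, Real.rpow_sum_of_pos two_pos]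
  refine prod_congr rfl fun e _ => ?_
  rw [← Real.rpow_natCast, ← Real.rpow_mul two_pos.le, neg_mul]

lemma rate (M a b : ℕ) : (1 + 2 * (M : ℝ) ^ 3 / ((min a b : ℕ) + 1)) * (2 : ℝ) ^ (-(lamQ M a b : ℝ))
    ≤ 1 := by
  rw [Real.rpow_neg two_pos.le, ← div_eq_mul_inv, div_le_one (by positivity)]
  have h0 : (1 : ℝ) ≤ ((min a b : ℕ) : ℝ) + 1 := by
    have : (0 : ℝ) ≤ (min a b : ℕ) := Nat.cast_nonneg _
    linarith
  unfold lamQ
  rcases min_choice (ell M : ℚ) ((Lam M : ℚ) / ((min a b : ℕ) + 1)) with h | h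
  · rw [h, Rat.cast_natCast, Real.rpow_natCast]
    have h1 : 2 * M ^ 3 + 1 ≤ 2 ^ ell M := Nat.lt_size_self _
    have h2 : 2 * (M : ℝ) ^ 3 + 1 ≤ 2 ^ ell M := by exact_mod_cast h1
    have h3 : 2 * (M : ℝ) ^ 3 / ((min a b : ℕ) + 1) ≤ 2 * (M : ℝ) ^ 3 :=
      div_le_self (by positivity) h0
    linarith
  · rw [h, Real.rpow_def_of_pos two_pos]
    refine le_trans ?_ (Real.add_one_le_exp _)
    have h1 : ((((Lam M : ℚ) / ((min a b : ℕ) + 1) : ℚ)) : ℝ)
        = 2 * (2 * (M : ℝ) ^ 3 / ((min a b : ℕ) + 1)) := by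
      simp only [Lam, Rat.cast_div, Rat.cast_natCast, Rat.cast_add, Rat.cast_one, Nat.cast_mul,
        Nat.cast_pow, Nat.cast_ofNat, Rat.cast_mul, Rat.cast_pow, Rat.cast_ofNat]
      ring
    have h2 : (0 : ℝ) ≤ 2 * (M : ℝ) ^ 3 / ((min a b : ℕ) + 1) := by positivity
    have h3 := Real.log_two_gt_d9
    rw [h1]; nlinarith

lemma uniq {Y Z : I.Cell → ℤ} (hr : ∀ i, ∑ j, Y (i, j) = ∑ j, Z (i, j))
    (hc : ∀ j, ∑ i, Y (i, j) = ∑ i, Z (i, j))
    (ho : ∀ i j, i ≠ I.i0 → j ≠ I.j0 → Y (i, j) = Z (i, j)) : Y = Z := by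
  have h1 : ∀ i j, j ≠ I.j0 → Y (i, j) = Z (i, j) := by
    intro i j hj
    by_cases hi : i = I.i0
    · have h2 := hc j
      rw [← add_sum_erase _ _ (mem_univ I.i0), ← add_sum_erase _ _ (mem_univ I.i0),
        sum_congr rfl fun k hk => ho k j (ne_of_mem_erase hk) hj] at h2
      rw [hi]; exact add_right_cancel h2
    · exact ho i j hi hj
  funext ⟨i, j⟩
  by_cases hj : j = I.j0
  · have h2 := hr i
    rw [← add_sum_erase _ _ (mem_univ I.j0), ← add_sum_erase _ _ (mem_univ I.j0),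
      sum_congr rfl fun k hk => h1 i k (ne_of_mem_erase hk)] at h2
    rw [hj]; exact add_right_cancel h2
  · exact h1 i j hj

lemma mem_Omega {m n : ℕ} {r : Fin m → ℕ} {c : Fin n → ℕ} {X : Fin m → Fin n → ℕ} :
    X ∈ Omega r c ↔ (∀ i, ∑ j, X i j = r i) ∧ ∀ j, ∑ i, X i j = c j := by
  rw [Omega, mem_filter]
  refine ⟨fun h => h.2, fun h => ⟨?_, h⟩⟩
  simp only [Fintype.mem_piFinset, mem_range, Nat.lt_succ_iff]
  intro i j
  rw [← h.1 i]
  exact single_le_sum (f := X i) (fun _ _ => Nat.zero_le _) (mem_univ j)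

lemma toNat_mem {D : I.Cell → ℤ} (h : ∀ u, 0 ≤ I.fill D u) :
    (fun i j => (I.fill D (i, j)).toNat) ∈ Omega I.r I.c := by
  rw [mem_Omega]
  refine ⟨fun i => ?_, fun j => ?_⟩
  · have h1 := fill_row I D i
    rw [← sum_congr rfl fun j _ => Int.toNat_of_nonneg (h (i, j))] at h1
    exact_mod_cast h1
  · have h1 := fill_col I D j
    rw [← sum_congr rfl fun i _ => Int.toNat_of_nonneg (h (i, j))] at h1
    exact_mod_cast h1

/-- the box point of a table -/
def cut (I : Inst) (X : Fin I.m → Fin I.n → ℕ) : I.Cell → ℤ :=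
  fun u => if u.1 = I.i0 ∨ u.2 = I.j0 then 0 else X u.1 u.2

lemma fill_cut {X : Fin I.m → Fin I.n → ℕ} (hX : X ∈ Omega I.r I.c) :
    I.fill (cut I X) = fun u => (X u.1 u.2 : ℤ) := by
  rw [mem_Omega] at hX
  refine uniq (fun i => ?_) (fun j => ?_) fun i j hi hj => ?_
  · rw [fill_row, ← hX.1 i]; push_cast; rfl
  · rw [fill_col, ← hX.2 j]; push_cast; rfl
  · rw [fill_off I _ (u := (i, j)) hi hj]; simp [cut, hi, hj]

lemma cut_mem {X : Fin I.m → Fin I.n → ℕ} (hX : X ∈ Omega I.r I.c) : cut I X ∈ box 0 I.U := by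
  rw [mem_Omega] at hX
  refine mem_box.2 fun u => ?_
  have h1 : X u.1 u.2 ≤ I.r u.1 := by
    rw [← hX.1 u.1]
    exact single_le_sum (f := X u.1) (fun _ _ => Nat.zero_le _) (mem_univ u.2)
  have h2 : X u.1 u.2 ≤ I.c u.2 := by
    rw [← hX.2 u.2]
    exact single_le_sum (f := fun i => X i u.2) (fun _ _ => Nat.zero_le _) (mem_univ u.1)
  simp only [cut, Inst.U, Inst.Un, Pi.zero_apply]
  split_ifs <;> omega

lemma W_one {D : I.Cell → ℤ} (hD : D ∈ box 0 I.U) (h : ∀ u, 0 ≤ I.fill D u) : I.W D = 1 := by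
  have h1 : I.pen D = 0 := by
    rw [pen_eq hD]
    refine sum_eq_zero fun e _ => ?_
    have h2 := h e
    have : (-I.fill D e).toNat = 0 := by omega
    simp [this]
  simp [Inst.W, Inst.ex, h1]

end Fl

namespace Inst

variable (I : Inst)

theorem out_mem {D : I.Cell → ℤ} {X : Fin I.m → Fin I.n → ℕ} (h : I.out D = some X) :
    X ∈ Omega I.r I.c := by
  unfold out at h
  split_ifs at h with h1
  rw [← Option.some.inj h]
  exact Fl.toNat_mem h1

theorem sum_W_le : ∑ D ∈ box 0 I.U, I.W D ≤ 4 * ((Omega I.r I.c).card : ℝ) := by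
  have h1 := accept I.m_pos I.n_pos I.r I.c (fun e => (2 : ℝ) ^ (-(I.lam e.1 e.2 : ℝ)))
    (fun e => Real.rpow_pos_of_pos two_pos _) (fun e => Fl.rate _ _ _)
    ((box 0 I.U).image I.fill) fun X hX => by
      obtain ⟨D, -, rfl⟩ := mem_image.1 hX
      exact ⟨Fl.fill_row I D, Fl.fill_col I D⟩
  rw [sum_image fun D hD D' hD' h => Fl.fill_inj hD hD' h,
    ← sum_congr rfl fun D hD => Fl.w_eq hD] at h1
  have h2 : ∑ D ∈ box 0 I.U, I.W D ≤ 2 * ∑ D ∈ box 0 I.U, I.w D := by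
    rw [mul_sum]; exact sum_le_sum fun D _ => I.W_le D
  linarith

theorem sum_W_out (g : (Fin I.m → Fin I.n → ℕ) → ℝ) :
    ∑ D ∈ box 0 I.U, I.W D * (I.out D).elim 0 g = ∑ X ∈ Omega I.r I.c, g X := by
  have h1 : ∑ D ∈ box 0 I.U, I.W D * (I.out D).elim 0 g
      = ∑ D ∈ box 0 I.U with ∀ u, 0 ≤ I.fill D u, g fun i j => (I.fill D (i, j)).toNat := by
    rw [sum_filter]
    refine sum_congr rfl fun D hD => ?_
    unfold out
    split_ifs with h
    · rw [Fl.W_one hD h, one_mul]; rfl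
    · simp
  rw [h1]
  refine sum_nbij' (fun D i j => (I.fill D (i, j)).toNat) (Fl.cut I) ?_ ?_ ?_ ?_ ?_
  · intro D hD
    exact Fl.toNat_mem (mem_filter.1 hD).2
  · intro X hX
    refine mem_filter.2 ⟨Fl.cut_mem hX, fun u => ?_⟩
    rw [Fl.fill_cut hX]; exact Int.natCast_nonneg _
  · intro D hD
    obtain ⟨h2, h3⟩ := mem_filter.1 hD
    refine Fl.fill_inj (Fl.cut_mem (Fl.toNat_mem h3)) h2 ?_
    rw [Fl.fill_cut (Fl.toNat_mem h3)]
    funext u
    exact Int.toNat_of_nonneg (h3 u)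
  · intro X hX
    funext i j
    simp [Fl.fill_cut hX]
  · intro D _; rfl

end Inst

end Vale.Agent.P328
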