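import Vale.Agent.P328.Box
import Vale.Agent.P317.LorStep

/-! Laminar weights satisfy the Hessian condition; polarisation (job Hess). -/

namespace Vale.Agent.P328

open Finset

variable {E Ω : Type} [Fintype E] [DecidableEq E] [Fintype Ω] [DecidableEq Ω]

namespace Hs

lemma sum_single (p : E → Prop) [DecidablePred p] (α : E → ℤ) (u : E) :
    ∑ w with p w, (α + Pi.single u 1 : E → ℤ) w = ∑ w with p w, α w + if p u then 1 else 0 := by
  simp only [Pi.add_apply, sum_add_distrib, Pi.single_apply, sum_ite_eq', mem_filter, mem_univ,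
    true_and]

lemma prod_ratio {G : Type} [Fintype G] [DecidableEq G] (r : G → ℤ → ℝ) (h0 : ∀ g, r g 0 = 1)
    (g₁ g₂ : G) : ∏ g, r g ((if g₁ = g then 1 else 0) + if g₂ = g then 1 else 0) =
      r g₁ 1 * r g₂ 1 - if g₁ = g₂ then r g₁ 1 ^ 2 - r g₁ 2 else 0 := by
  by_cases h : g₁ = g₂
  · subst h
    rw [prod_eq_single g₁ (fun g _ hg => by simp [hg.symm, h0]) (by simp)]
    simp only [if_true]; norm_num; ring
  · rw [prod_eq_mul g₁ g₂ h (fun g _ hg => by simp [hg.1.symm, hg.2.symm, h0]) (by simp) (by simp)]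
    simp [h, Ne.symm h]

lemma prod_ratio1 {G : Type} [Fintype G] [DecidableEq G] (r : G → ℤ → ℝ) (h0 : ∀ g, r g 0 = 1)
    (g₁ : G) : ∏ g, r g (if g₁ = g then 1 else 0) = r g₁ 1 := by
  rw [prod_eq_single g₁ (fun g _ hg => by simp [hg.symm, h0]) (by simp)]
  simp

lemma ratio_le {φ : ℤ → ℝ} (h : LogConc φ) (s : ℤ) :
    φ (s + 2) / φ s ≤ (φ (s + 1) / φ s) ^ 2 := by
  have := h.1 s
  rw [div_pow, div_le_div_iff₀ this (by positivity)]
  nlinarith [mul_le_mul_of_nonneg_left (h.2 s) this.le]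

lemma sum_grp {G : Type} [Fintype G] [DecidableEq G] (grp : E → G) (t : G → ℝ) (γ : E → ℝ) :
    ∑ u, ∑ v, (if grp u = grp v then t (grp u) else 0) * (γ u * γ v) =
      ∑ g, t g * (∑ u with grp u = g, γ u) ^ 2 := by
  rw [← sum_fiberwise univ grp]
  refine sum_congr rfl fun g _ => ?_
  rw [sq, sum_mul_sum, mul_sum]
  refine sum_congr rfl fun u hu => ?_
  rw [(mem_filter.1 hu).2, mul_sum, sum_filter]
  refine sum_congr rfl fun v _ => ?_
  by_cases h : grp v = g
  · simp [h]
  · simp [h, Ne.symm h]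

lemma diag_le (F : Finset Ω) (y : Ω → ℝ) :
    ∑ a ∈ F, ∑ b ∈ F, (if a ≠ b then y a * y b else 0) / ((F.card : ℝ) * ((F.card - 1 : ℕ) : ℝ)) ≤
      (∑ a ∈ F, y a) / F.card * ((∑ a ∈ F, y a) / F.card) := by
  have h1 : ∑ a ∈ F, ∑ b ∈ F, (if a ≠ b then y a * y b else 0) =
      (∑ a ∈ F, y a) ^ 2 - ∑ a ∈ F, y a ^ 2 := by
    rw [sq, sum_mul_sum, ← sum_sub_distrib]
    refine sum_congr rfl fun a ha => ?_
    have : y a ^ 2 = ∑ b ∈ F, if a = b then y a * y b else 0 := by simp [ha, sq]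
    rw [this, ← sum_sub_distrib]
    exact sum_congr rfl fun b _ => by by_cases h : a = b <;> simp [h]
  simp only [← sum_div]
  rw [h1]
  by_cases hn : F.card ≤ 1
  · rw [Nat.sub_eq_zero_of_le hn]
    simpa using mul_self_nonneg _
  · have h2 : (1 : ℝ) < F.card := by exact_mod_cast not_le.1 hn
    have h3 := sq_sum_le_card_mul_sum_sq (s := F) (f := y)
    rw [Nat.cast_sub (not_le.1 hn).le, Nat.cast_one, div_mul_div_comm,
      div_le_div_iff₀ (mul_pos (by linarith) (by linarith)) (by positivity)]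
    nlinarith [mul_le_mul_of_nonneg_left h3 (show (0 : ℝ) ≤ F.card by positivity)]

end Hs

open Hs

theorem hess_laminar {G : Type} [Fintype G] [DecidableEq G] (grp : E → G) (P : G → Prop)
    [DecidablePred P] {χ : ℤ → ℝ} {φ : G → ℤ → ℝ} (hχ : LogConc χ) (hφ : ∀ g, LogConc (φ g)) :
    Hess fun α : E → ℤ =>
      χ (∑ u with P (grp u), α u) * ∏ g, φ g (∑ u with grp u = g, α u) := by
  intro α γ
  simp only [sum_single]
  generalize ∑ u with P (grp u), α u = s
  generalize hsg : (fun g => ∑ u with grp u = g, α u) = sg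
  have hsg' : ∀ g, ∑ u with grp u = g, α u = sg g := fun g => congrFun hsg g
  simp only [hsg']
  set r : G → ℤ → ℝ := fun g k => φ g (sg g + k) / φ g (sg g) with hr
  have hr0 : ∀ g, r g 0 = 1 := fun g => by simp [hr, ((hφ g).1 _).ne']
  have hφr : ∀ g k, φ g (sg g + k) = φ g (sg g) * r g k := fun g k => by
    rw [hr]; field_simp [((hφ g).1 _).ne']
  set x : ℤ → ℝ := fun k => χ (s + k) / χ s with hx
  have hχr : ∀ k, χ (s + k) = χ s * x k := fun k => by rw [hx]; field_simp [(hχ.1 _).ne']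
  have hx0 : x 0 = 1 := by simp [hx, (hχ.1 _).ne']
  have hxp : ∀ k, 0 ≤ x k := fun k => (div_pos (hχ.1 _) (hχ.1 _)).le
  simp only [add_assoc, hφr, hχr, prod_mul_distrib, prod_ratio r hr0, prod_ratio1 r hr0]
  set h := χ s * ∏ g, φ g (sg g) with hh
  set p : E → ℝ := fun u => if P (grp u) then 1 else 0 with hp
  set c : E → ℝ := fun u => x (if P (grp u) then 1 else 0) * r (grp u) 1 * γ u with hc
  set d : E → ℝ := fun u => p u * r (grp u) 1 * γ u with hd
  set t : G → ℝ := fun g => x ((if P g then 1 else 0) + if P g then 1 else 0) *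
    (r g 1 ^ 2 - r g 2) with ht
  have h1 : ∀ u v, χ s * x ((if P (grp u) then 1 else 0) + if P (grp v) then 1 else 0) *
      ((∏ g, φ g (sg g)) * (r (grp u) 1 * r (grp v) 1 -
        if grp u = grp v then r (grp u) 1 ^ 2 - r (grp u) 2 else 0)) * (γ u * γ v) =
      h * (c u * c v - (x 1 ^ 2 - x 2) * (d u * d v) -
        (if grp u = grp v then t (grp u) else 0) * (γ u * γ v)) := by
    intro u v
    simp only [hh, hc, hd, hp, ht]
    by_cases e : grp u = grp v
    · rw [← e]
      by_cases h1 : P (grp u) <;> simp [h1, hx0, one_add_one_eq_two] <;> ring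
    · by_cases h1 : P (grp u) <;> by_cases h2 : P (grp v) <;>
        simp [e, h1, h2, hx0, one_add_one_eq_two] <;> ring
  have h2 : ∀ u, χ s * x (if P (grp u) then 1 else 0) * ((∏ g, φ g (sg g)) * r (grp u) 1) * γ u =
      h * c u := fun u => by simp only [hh, hc]; ring
  simp only [h1, h2, ← mul_sum, sum_sub_distrib, sum_grp, ← sum_mul]
  have h3 : 0 ≤ x 1 ^ 2 - x 2 := sub_nonneg.2 (ratio_le hχ s)
  have h4 : 0 ≤ ∑ g, t g * (∑ u with grp u = g, γ u) ^ 2 := sum_nonneg fun g _ =>
    mul_nonneg (mul_nonneg (hxp _) (sub_nonneg.2 (ratio_le (hφ g) _))) (sq_nonneg _)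
  nlinarith [mul_nonneg (mul_self_nonneg h) h4,
    mul_nonneg (mul_self_nonneg h) (mul_nonneg h3 (mul_self_nonneg (∑ u, d u)))]

/-- the number of elements of `S` in the fibre of `e` -/
def cnt (κ : Ω → E) (S : Finset Ω) (e : E) : ℕ := (S.filter fun a => κ a = e).card

/-- the polarised weight -/
noncomputable def slotW (H : (E → ℤ) → ℝ) (κ : Ω → E) (base : E → ℤ) (S : Finset Ω) : ℝ :=
  H (base + fun e => (cnt κ S e : ℤ)) * ∏ e, ((cnt κ univ e - cnt κ S e).factorial : ℝ)

lemma slotW_pos {H : (E → ℤ) → ℝ} (hpos : ∀ α, 0 < H α) (κ : Ω → E) (base : E → ℤ)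
    (S : Finset Ω) : 0 < slotW H κ base S :=
  mul_pos (hpos _) (prod_pos fun _ _ => by exact_mod_cast Nat.factorial_pos _)

namespace Hs

lemma cnt_insert (κ : Ω → E) {S : Finset Ω} {a : Ω} (ha : a ∉ S) (e : E) :
    cnt κ (insert a S) e = cnt κ S e + if κ a = e then 1 else 0 := by
  rw [cnt, cnt, filter_insert]
  split_ifs
  · rw [card_insert_of_notMem (by simp [ha])]
  · rfl

lemma card_free (κ : Ω → E) (S : Finset Ω) (e : E) :
    (Sᶜ.filter fun a => κ a = e).card = cnt κ univ e - cnt κ S e := by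
  have : (Sᶜ.filter fun a => κ a = e) = (univ.filter fun a => κ a = e) \ S.filter fun a => κ a = e := by
    ext a; simp only [mem_filter, mem_compl, mem_sdiff, mem_univ, true_and]; tauto
  rw [this, card_sdiff_of_subset (filter_subset_filter _ (subset_univ S)), cnt, cnt]

lemma free_pos (κ : Ω → E) {S : Finset Ω} {a : Ω} (ha : a ∉ S) :
    0 < cnt κ univ (κ a) - cnt κ S (κ a) := by
  rw [← card_free]
  exact card_pos.2 ⟨a, by simp [ha]⟩

lemma base_insert (κ : Ω → E) (base : E → ℤ) {S : Finset Ω} {a : Ω} (ha : a ∉ S) :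
    (base + fun e => (cnt κ (insert a S) e : ℤ)) =
      base + (fun e => (cnt κ S e : ℤ)) + Pi.single (κ a) 1 := by
  funext e
  simp only [Pi.add_apply, cnt_insert κ ha, Pi.single_apply, add_assoc, eq_comm (a := e)]
  push_cast; rfl

lemma prod_insert_mul (κ : Ω → E) {S : Finset Ω} {a : Ω} (ha : a ∉ S) :
    (∏ e, ((cnt κ univ e - cnt κ (insert a S) e).factorial : ℝ)) *
      ((cnt κ univ (κ a) - cnt κ S (κ a) : ℕ) : ℝ) =
      ∏ e, ((cnt κ univ e - cnt κ S e).factorial : ℝ) := by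
  rw [← mul_prod_erase _ _ (mem_univ (κ a)), ← mul_prod_erase univ _ (mem_univ (κ a)),
    prod_congr rfl (g := fun e => ((cnt κ univ e - cnt κ S e).factorial : ℝ)) fun e he => by
      rw [cnt_insert κ ha, if_neg (ne_of_mem_erase he).symm, add_zero],
    cnt_insert κ ha, if_pos rfl, ← Nat.mul_factorial_pred (free_pos κ ha).ne', Nat.sub_sub]
  push_cast; ring

end Hs

/-- adding a free element -/
lemma slotW_insert (H : (E → ℤ) → ℝ) (κ : Ω → E) (base : E → ℤ) {S : Finset Ω} {a : Ω}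
    (ha : a ∉ S) : slotW H κ base (insert a S) * ((cnt κ univ (κ a) - cnt κ S (κ a) : ℕ) : ℝ) =
      H (base + (fun e => (cnt κ S e : ℤ)) + Pi.single (κ a) 1) *
        ∏ e, ((cnt κ univ e - cnt κ S e).factorial : ℝ) := by
  rw [slotW, mul_assoc, prod_insert_mul κ ha, base_insert κ base ha]

theorem lorentz_slots {H : (E → ℤ) → ℝ} (hpos : ∀ α, 0 < H α) (hH : Hess H) (κ : Ω → E)
    (base : E → ℤ) : P317.Lorentz (slotW H κ base) := by
  refine P317.lorentz_of_base (slotW_pos hpos κ base) fun S => ?_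
  set α : E → ℤ := base + fun e => (cnt κ S e : ℤ) with hα
  set F : E → Finset Ω := fun e => Sᶜ.filter fun a => κ a = e with hF
  have hcard : ∀ e, cnt κ univ e - cnt κ S e = (F e).card := fun e => (card_free κ S e).symm
  refine P317.lorAt_of_hyperplane
    (fun a => if a ∈ S then 0 else H (α + Pi.single (κ a) 1) / (F (κ a)).card) fun y hy => ?_
  set γ : E → ℝ := fun e => (∑ a ∈ F e, y a) / (F e).card with hγ
  have hsum : ∀ f : Ω → ℝ, ∑ a, (if a ∈ S then 0 else f a) = ∑ e, ∑ a ∈ F e, f a := fun f => by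
    rw [hF, sum_fiberwise Sᶜ κ f, ← sum_filter_add_sum_filter_not univ (· ∈ S),
      sum_congr rfl (g := fun _ => 0) fun e he => if_pos (mem_filter.1 he).2,
      sum_congr rfl (g := f) fun e he => if_neg (mem_filter.1 he).2]
    simp only [sum_const_zero, zero_add]
    exact sum_congr (by ext; simp) fun _ _ => rfl
  have h0 : ∑ e, H (α + Pi.single e 1) * γ e = 0 := by
    rw [← hy]
    simp only [ite_mul, zero_mul]
    rw [hsum]
    refine sum_congr rfl fun e _ => ?_
    rw [hγ]
    simp only [sum_div, mul_sum]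
    exact sum_congr rfl fun a ha => by rw [(mem_filter.1 ha).2]; ring
  have h1 := hH α γ
  rw [h0] at h1
  have h2 : ∑ u, ∑ v, H (α + Pi.single u 1 + Pi.single v 1) * (γ u * γ v) ≤ 0 := by
    by_contra hc
    have := mul_pos (hpos α) (not_le.1 hc)
    linarith
  set Pr : ℝ := ∏ e, ((cnt κ univ e - cnt κ S e).factorial : ℝ) with hPr
  have hPr0 : 0 < Pr := prod_pos fun _ _ => by exact_mod_cast Nat.factorial_pos _
  have hw : ∀ a ∉ S, ∀ b ∉ S, a ≠ b → slotW H κ base (insert a (insert b S)) =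
      Pr * H (α + Pi.single (κ b) 1 + Pi.single (κ a) 1) / ((F (κ b)).card *
        (((F (κ a)).card - if κ b = κ a then 1 else 0 : ℕ) : ℝ)) := by
    intro a ha b hb hab
    have ha' : a ∉ insert b S := by simp [ha, hab]
    have e1 := slotW_insert H κ base ha'
    have e2 := prod_insert_mul κ hb
    have p1 := free_pos κ ha'
    have p2 := free_pos κ hb
    rw [base_insert κ base hb, cnt_insert κ hb, ← Nat.sub_sub, hcard, ← hα] at e1
    rw [cnt_insert κ hb, ← Nat.sub_sub, hcard] at p1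
    rw [hcard (κ b)] at e2 p2
    have p1' : (0 : ℝ) < (((F (κ a)).card - if κ b = κ a then 1 else 0 : ℕ) : ℝ) := by
      exact_mod_cast p1
    have p2' : (0 : ℝ) < (F (κ b)).card := by exact_mod_cast p2
    rw [eq_div_iff (mul_pos p2' p1').ne', mul_left_comm, e1, hPr, ← e2]
    ring
  rw [P317.DD_eq, sum_comm]
  have h3 : ∀ b, ∑ a, (if a ∉ S ∧ b ∉ S ∧ a ≠ b then
      y a * y b * slotW H κ base (insert a (insert b S)) else 0) =
      if b ∈ S then 0 else ∑ a, if a ∈ S then 0 else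
        Pr * H (α + Pi.single (κ b) 1 + Pi.single (κ a) 1) * ((if b ≠ a then y b * y a else 0) /
          ((F (κ b)).card * (((F (κ a)).card - if κ b = κ a then 1 else 0 : ℕ) : ℝ))) := by
    intro b
    by_cases hb : b ∈ S
    · simp [hb]
    · rw [if_neg hb]
      refine sum_congr rfl fun a _ => ?_
      by_cases ha : a ∈ S
      · simp [ha]
      · by_cases hab : a = b
        · simp [hab]
        · rw [if_pos ⟨ha, hb, hab⟩, if_neg ha, if_pos (Ne.symm hab), hw a ha b hb hab]
          ring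
  simp only [h3, hsum]
  refine le_trans (sum_le_sum fun u _ => ?_)
    ((mul_sum _ _ _).symm.trans_le (mul_nonpos_of_nonneg_of_nonpos hPr0.le h2))
  rw [sum_comm, mul_sum]
  refine sum_le_sum fun v _ => ?_
  rw [sum_congr rfl (g := fun b => Pr * H (α + Pi.single u 1 + Pi.single v 1) *
    ∑ a ∈ F v, ((if b ≠ a then y b * y a else 0) /
      ((F u).card * (((F v).card - if u = v then 1 else 0 : ℕ) : ℝ)))) fun b hb => by
      rw [mul_sum]
      exact sum_congr rfl fun a ha => by rw [(mem_filter.1 ha).2, (mem_filter.1 hb).2],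
    ← mul_sum, ← mul_assoc]
  refine mul_le_mul_of_nonneg_left ?_ (mul_pos hPr0 (hpos _)).le
  by_cases e : u = v
  · subst e
    rw [if_pos rfl]
    exact diag_le (F u) y
  · rw [if_neg e, Nat.sub_zero, hγ]
    simp only [div_mul_div_comm, sum_mul_sum, sum_div]
    refine le_of_eq (sum_congr rfl fun b hb => sum_congr rfl fun a ha => ?_)
    rw [if_pos]
    rintro rfl
    exact e ((mem_filter.1 hb).2.symm.trans (mem_filter.1 ha).2)

end Vale.Agent.P328
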