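import Vale.Agent.P328.Model
import Vale.Agent.P328.Hess

/-! Lipschitz bounds for the penalty and the log-concave lift (job Lip). -/

namespace Vale.Agent.P328

open Finset

lemma toNat_lip {ι : Type} (s : Finset ι) {a b : ℤ} {δ : ι → ℤ} (h : |a - b| = |∑ i ∈ s, δ i|) :
    (a.toNat : ℚ) ≤ b.toNat + ∑ i ∈ s, ((|δ i| : ℤ) : ℚ) := by
  have h1 := abs_sum_le_sum_abs δ s
  have h2 := le_abs_self (a - b)
  have h0 := abs_nonneg (a - b)
  rw [h] at h2 h0
  have h3 : (a.toNat : ℤ) ≤ b.toNat + ∑ i ∈ s, |δ i| := by omega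
  exact_mod_cast h3

lemma logConc_pen {l : ℚ} (hl : 0 ≤ l) {p : ℤ → ℤ} (hp : ∀ k, p k + p (k + 2) = 2 * p (k + 1)) :
    LogConc fun k => (2 : ℝ) ^ (-((l * ((p k).toNat : ℚ) : ℚ) : ℝ)) := by
  refine ⟨fun _ => Real.rpow_pos_of_pos two_pos _, fun k => ?_⟩
  simp only
  rw [sq, ← Real.rpow_add two_pos, ← Real.rpow_add two_pos]
  refine Real.rpow_le_rpow_of_exponent_le one_le_two ?_
  have h1 : 2 * (p (k + 1)).toNat ≤ (p k).toNat + (p (k + 2)).toNat := by have := hp k; omega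
  have h2 : (2 : ℝ) * (p (k + 1)).toNat ≤ (p k).toNat + (p (k + 2)).toNat := by exact_mod_cast h1
  have h3 : (0 : ℝ) ≤ l := by exact_mod_cast hl
  push_cast
  nlinarith

lemma two_pow_ell {M : ℕ} (hM : 0 < M) : 2 ^ ell M ≤ Lam M := by
  have h0 : 0 < 2 * M ^ 3 := by positivity
  have h1 : 0 < ell M := Nat.size_pos.2 h0
  have h2 : 2 ^ (ell M - 1) ≤ 2 * M ^ 3 := Nat.lt_size.1 (by unfold ell at *; omega)
  obtain ⟨k, hk⟩ : ∃ k, ell M = k + 1 := ⟨ell M - 1, by omega⟩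
  rw [hk] at h2 ⊢
  simp only [add_tsub_cancel_right] at h2
  unfold Lam; omega

lemma rpow_neg_le {p p' : ℚ} {k : ℕ} (h : p' ≤ p + k) :
    (2 : ℝ) ^ (-(p : ℝ)) ≤ 2 ^ k * 2 ^ (-(p' : ℝ)) := by
  rw [← Real.rpow_natCast, ← Real.rpow_add two_pos]
  refine Real.rpow_le_rpow_of_exponent_le one_le_two ?_
  have : (p' : ℝ) ≤ p + k := by exact_mod_cast h
  linarith

namespace Inst

variable (I : Inst)

def pen2 (x y : I.Cell → ℤ) : ℚ :=
  ∑ i, I.lam i I.j0 * ((I.row x i - I.r i).toNat : ℚ) +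
    ∑ j, I.lam I.i0 j * ((I.col y j - I.c j).toNat : ℚ) +
    I.lam I.i0 I.j0 * (((I.N : ℤ) - I.r I.i0 - I.c I.j0 - I.tot x).toNat : ℚ)

lemma pen2_lip (x y x' y' : I.Cell → ℤ) : I.pen2 x' y' ≤ I.pen2 x y +
    (∑ u : I.Cell, (I.lam u.1 I.j0 + I.lam I.i0 I.j0) * ((|x' u - x u| : ℤ) : ℚ) +
      ∑ u : I.Cell, I.lam I.i0 u.2 * ((|y' u - y u| : ℤ) : ℚ)) := by
  have h0 := fun i j => (I.lam_pos i j).le
  have h1 := sum_le_sum (s := univ) fun i _ => mul_le_mul_of_nonneg_left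
    (toNat_lip univ (a := I.row x' i - I.r i) (b := I.row x i - I.r i)
      (δ := fun j => x' (i, j) - x (i, j)) (by simp [row])) (h0 i I.j0)
  have h2 := sum_le_sum (s := univ) fun j _ => mul_le_mul_of_nonneg_left
    (toNat_lip univ (a := I.col y' j - I.c j) (b := I.col y j - I.c j)
      (δ := fun i => y' (i, j) - y (i, j)) (by simp [col])) (h0 I.i0 j)
  have h3 := mul_le_mul_of_nonneg_left
    (toNat_lip univ (a := (I.N : ℤ) - I.r I.i0 - I.c I.j0 - I.tot x')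
      (b := (I.N : ℤ) - I.r I.i0 - I.c I.j0 - I.tot x) (δ := fun u => x' u - x u)
      (by rw [abs_sub_comm]; simp [tot, row, Fintype.sum_prod_type])) (h0 I.i0 I.j0)
  simp only [mul_add, sum_add_distrib, mul_sum] at h1 h2 h3
  rw [← Fintype.sum_prod_type' fun i j => I.lam i I.j0 * ((|x' (i, j) - x (i, j)| : ℤ) : ℚ)] at h1
  rw [← Fintype.sum_prod_type_right' fun i j =>
    I.lam I.i0 j * ((|y' (i, j) - y (i, j)| : ℤ) : ℚ)] at h2
  simp only [pen2, add_mul, sum_add_distrib]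
  linarith

def kp (u : I.Cell) : ℚ := I.lam u.1 I.j0 + I.lam I.i0 I.j0 + I.lam I.i0 u.2

lemma pen_lip (D D' : I.Cell → ℤ) :
    I.pen D' ≤ I.pen D + ∑ u, I.kp u * ((|D' u - D u| : ℤ) : ℚ) := by
  have := I.pen2_lip D D D' D'
  simp only [kp, add_mul _ (I.lam I.i0 _), sum_add_distrib] at this ⊢
  exact this

lemma lam_le (i : Fin I.m) (j : Fin I.n) : I.lam i j ≤ ell I.M := min_le_left _ _

lemma lam_mul (i : Fin I.m) (j : Fin I.n) {a : ℕ} (ha : a ≤ min (I.r i) (I.c j)) :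
    I.lam i j * (a + 1) ≤ Lam I.M := by
  have h1 : I.lam i j ≤ (Lam I.M : ℚ) / ((min (I.r i) (I.c j) : ℕ) + 1) := min_le_right _ _
  rw [le_div_iff₀ (by positivity)] at h1
  refine le_trans (mul_le_mul_of_nonneg_left ?_ (I.lam_pos i j).le) h1
  exact_mod_cast Nat.succ_le_succ ha

lemma kp_nonneg (u : I.Cell) : 0 ≤ I.kp u :=
  add_nonneg (add_nonneg (I.lam_pos _ _).le (I.lam_pos _ _).le) (I.lam_pos _ _).le

lemma kp_le (u : I.Cell) : I.kp u ≤ (3 * ell I.M : ℕ) := by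
  have := I.lam_le
  unfold kp; push_cast
  linarith [this u.1 I.j0, this I.i0 I.j0, this I.i0 u.2]

lemma kp_mul (u : I.Cell) : I.kp u * (I.Un u + 1) ≤ 3 * Lam I.M := by
  have h := I.Un_le u
  have h1 := I.hi0 u.1
  have h2 := I.hj0 u.2
  have h3 := I.lam_mul u.1 I.j0 (a := I.Un u) (by omega)
  have h4 := I.lam_mul I.i0 I.j0 (a := I.Un u) (by omega)
  have h5 := I.lam_mul I.i0 u.2 (a := I.Un u) (by omega)
  unfold kp; linarith

lemma Lam_pos : 0 < Lam I.M := by have := I.M_pos; unfold Lam; positivity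

lemma pow_ell (k : ℕ) : (2 : ℝ) ^ (k * ell I.M) ≤ (Lam I.M : ℝ) ^ k := by
  rw [mul_comm, pow_mul]
  gcongr
  exact_mod_cast two_pow_ell I.M_pos

lemma sum_single {ι : Type} [Fintype ι] [DecidableEq ι] (a : ι → ℚ) {x x' : ι → ℤ} (u : ι)
    (h : ∀ v, v ≠ u → x' v = x v) :
    ∑ v, a v * ((|x' v - x v| : ℤ) : ℚ) = a u * ((|x' u - x u| : ℤ) : ℚ) :=
  sum_eq_single u (fun v _ hv => by simp [h v hv]) (by simp)

theorem exists_good : ∃ H : (I.Cell × Bool → ℤ) → ℝ, Good H ((Lam I.M : ℝ) ^ 2) ∧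
    ∀ D, H (emb D) = I.w D := by
  have key : ∀ (α α' : I.Cell × Bool → ℤ) (e : I.Cell × Bool), (∀ v, v ≠ e → α' v = α v) →
      |α' e - α e| = 1 → (2 : ℝ) ^ (-(I.pen2 (fun u => α (u, true)) fun u => -α (u, false) : ℝ)) ≤
      (Lam I.M : ℝ) ^ 2 * 2 ^ (-(I.pen2 (fun u => α' (u, true)) fun u => -α' (u, false) : ℝ)) := by
    rintro α α' ⟨u, b⟩ h1 h2
    refine (rpow_neg_le (k := 2 * ell I.M) ((I.pen2_lip _ _ _ _).trans (add_le_add_right ?_ _))).trans
      (mul_le_mul_of_nonneg_right (I.pow_ell 2) (by positivity))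
    rw [sum_single _ u fun v hv => h1 _ (by simp [hv]),
      sum_single _ u fun v hv => by rw [h1 _ (by simp [hv])], neg_sub_neg, abs_sub_comm (α (u, false))]
    have := I.lam_le
    have h3 := I.lam_pos I.i0 u.2
    cases b
    · rw [h2, h1 (u, true) (by simp)]
      simp
      linarith [this I.i0 u.2, this I.i0 I.j0, I.lam_pos I.i0 I.j0]
    · rw [h2, h1 (u, false) (by simp)]
      simp
      linarith [this u.1 I.j0, this I.i0 I.j0]
  refine ⟨fun α => (2 : ℝ) ^ (-(I.pen2 (fun u => α (u, true)) fun u => -α (u, false) : ℝ)),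
    ⟨fun _ => Real.rpow_pos_of_pos two_pos _, ?_, fun α e => key _ _ e ?_ ?_,
      fun α e => key _ _ e ?_ ?_⟩, fun D => ?_⟩
  · have h := hess_laminar (G := Fin I.m ⊕ Fin I.n)
      (fun e : I.Cell × Bool => if e.2 = true then Sum.inl e.1.1 else Sum.inr e.1.2)
      (fun g => g.isLeft = true)
      (logConc_pen (I.lam_pos I.i0 I.j0).le (p := fun k => (I.N : ℤ) - I.r I.i0 - I.c I.j0 - k)
        fun k => by ring)
      (φ := fun g => Sum.elim
        (fun i k => (2 : ℝ) ^ (-((I.lam i I.j0 * ((k - I.r i : ℤ).toNat : ℚ) : ℚ) : ℝ)))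
        (fun j k => (2 : ℝ) ^ (-((I.lam I.i0 j * ((-k - I.c j : ℤ).toNat : ℚ) : ℚ) : ℝ))) g)
      fun g => by
        cases g with
        | inl i => exact logConc_pen (I.lam_pos i I.j0).le (p := fun k => k - I.r i) fun k => by ring
        | inr j =>
          exact logConc_pen (I.lam_pos I.i0 j).le (p := fun k => -k - I.c j) fun k => by ring
    convert h using 2 with α
    rw [Fintype.prod_sum_type]
    simp only [Sum.elim_inl, Sum.elim_inr]
    rw [← Real.rpow_sum_of_pos two_pos, ← Real.rpow_sum_of_pos two_pos, ← Real.rpow_add two_pos,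
      ← Real.rpow_add two_pos]
    congr 1
    simp only [sum_filter, Fintype.sum_prod_type, Fintype.sum_bool, pen2, tot, row, col]
    simp
    ring
  · intro v hv; simp [hv]
  · simp
  · intro v hv; simp [hv]
  · simp
  · simp [emb, w, pen, pen2]

theorem w_up (D : I.Cell → ℤ) (u : I.Cell) :
    I.w (D + Pi.single u 1) ≤ (Lam I.M ^ 3 : ℕ) * I.w D := by
  refine (rpow_neg_le (k := 3 * ell I.M) ((I.pen_lip _ _).trans (add_le_add_right ?_ _))).trans
    (mul_le_mul_of_nonneg_right (by exact_mod_cast I.pow_ell 3) (I.w_pos D).le)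
  rw [sum_single _ u fun v hv => by simp [hv]]
  simpa using I.kp_le u

theorem w_down (D : I.Cell → ℤ) (u : I.Cell) :
    I.w D ≤ (Lam I.M ^ 3 : ℕ) * I.w (D + Pi.single u 1) := by
  refine (rpow_neg_le (k := 3 * ell I.M) ((I.pen_lip _ _).trans (add_le_add_right ?_ _))).trans
    (mul_le_mul_of_nonneg_right (by exact_mod_cast I.pow_ell 3) (I.w_pos _).le)
  rw [sum_single _ u fun v hv => by simp [hv]]
  simpa using I.kp_le u

lemma kp_div (u : I.Cell) {q : ℕ} (hq : 0 < q) {a : ℤ}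
    (h : a ≤ ((I.Un u + 1) / (3 * Lam I.M * q) : ℕ)) : I.kp u * (a : ℚ) ≤ 1 / q := by
  have h1 : (a : ℚ) ≤ (((I.Un u + 1) / (3 * Lam I.M * q) : ℕ) : ℚ) := by
    rw [← Int.cast_natCast]; exact Int.cast_le.2 h
  have h2 := I.Lam_pos
  refine (mul_le_mul_of_nonneg_left (h1.trans Nat.cast_div_le) (I.kp_nonneg u)).trans ?_
  have h3 := I.kp_mul u
  push_cast
  rw [← mul_div_assoc, div_le_div_iff₀ (by positivity) (by positivity), one_mul]
  gcongr

theorem w_line (D : I.Cell → ℤ) (u : I.Cell) (δ : ℤ)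
    (h : |δ| ≤ ((I.Un u + 1) / (3 * Lam I.M) : ℕ)) : I.w D ≤ 2 * I.w (D + Pi.single u δ) := by
  refine (rpow_neg_le (k := 1) ((I.pen_lip _ _).trans (add_le_add_right ?_ _))).trans (by rw [pow_one]; rfl)
  rw [sum_single _ u fun v hv => by simp [hv]]
  simpa using I.kp_div u one_pos (a := |δ|) (by rwa [mul_one])

theorem w_near (D D' : I.Cell → ℤ) (h : ∀ u, |D u - D' u| ≤ I.s u - 1) : I.w D ≤ 2 * I.w D' := by
  refine (rpow_neg_le (k := 1) ((I.pen_lip _ _).trans (add_le_add_right ?_ _))).trans (by rw [pow_one]; rfl)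
  have h1 := sum_le_sum (s := univ) fun u _ => I.kp_div u I.M_pos (a := |D' u - D u|)
    (by have := h u; rw [abs_sub_comm] at this; unfold s at this; omega)
  rw [sum_const, card_univ, card_Cell, nsmul_eq_mul,
    mul_one_div_cancel (by exact_mod_cast I.M_pos.ne')] at h1
  simpa using h1

theorem w_mv {D : I.Cell → ℤ} (hD : D ∈ box 0 I.U) (u : I.Cell) (δ : ℤ) (h : |δ| ≤ I.s u) :
    I.w D ≤ 2 * (Lam I.M : ℝ) ^ 3 * I.w (mv I.U D u δ) := by
  refine (rpow_neg_le (k := 1 + 3 * ell I.M) ((I.pen_lip _ _).trans (add_le_add_right ?_ _))).trans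
    (mul_le_mul_of_nonneg_right (by rw [pow_add, pow_one]; gcongr; exact I.pow_ell 3) (I.w_pos _).le)
  rw [sum_single _ u fun v hv => by simp [mv, hv]]
  have h1 := refl_dist δ (mem_box.1 hD u).1 (mem_box.1 hD u).2
  have h2 := I.kp_div u I.M_pos (a := |mv I.U D u δ u - D u| - 1)
    (by simp only [mv, Function.update_self]; unfold s at h; omega)
  have h3 : (1 : ℚ) / I.M ≤ 1 :=
    div_le_one_of_le₀ (by exact_mod_cast I.M_pos) (Nat.cast_nonneg _)
  have h4 := I.kp_le u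
  push_cast at *
  linarith

lemma pen_box {D D' : I.Cell → ℤ} (hD : D ∈ box 0 I.U) (hD' : D' ∈ box 0 I.U) :
    I.pen D' ≤ I.pen D + (3 * Lam I.M * I.M : ℕ) := by
  refine (I.pen_lip _ _).trans (add_le_add_right ?_ _)
  have h1 := sum_le_sum (s := univ) fun u _ => (mul_le_mul_of_nonneg_left
    (show ((|D' u - D u| : ℤ) : ℚ) ≤ I.Un u + 1 by
      have h2 := mem_box.1 hD u
      have h3 := mem_box.1 hD' u
      have h4 : |D' u - D u| ≤ I.Un u + 1 := by
        simp only [U, Pi.zero_apply] at h2 h3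
        rw [abs_le]; omega
      exact_mod_cast h4) (I.kp_nonneg u)).trans (I.kp_mul u)
  rw [sum_const, card_univ, card_Cell, nsmul_eq_mul] at h1
  push_cast at *
  linarith

theorem sum_w_le {D : I.Cell → ℤ} (hD : D ∈ box 0 I.U) :
    ∑ x ∈ box 0 I.U, I.w x ≤ 2 ^ dd I.M I.N * I.w D := by
  have h1 := sum_le_sum (s := box 0 I.U) fun x hx => rpow_neg_le (I.pen_box hx hD)
  rw [sum_const, nsmul_eq_mul] at h1
  refine h1.trans ?_
  rw [dd, pow_add, mul_assoc (2 ^ _ : ℝ)]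
  refine mul_le_mul_of_nonneg_right ?_ (by positivity)
  have h2 : (box 0 I.U).card ≤ 2 ^ (I.M * I.N.size) := by
    rw [box, Fintype.card_piFinset, mul_comm, pow_mul, ← card_Cell, ← card_univ]
    refine prod_le_pow_card _ _ _ fun u _ => ?_
    have h3 := I.Un_le u
    have h4 := I.r_le_N u.1
    have h5 := Nat.lt_size_self I.N
    simp only [U, Pi.zero_apply, Int.card_Icc]
    omega
  exact_mod_cast h2

theorem ex_sub_le {D D' : I.Cell → ℤ} (hD : D ∈ box 0 I.U) (hD' : D' ∈ box 0 I.U) :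
    I.ex D' - I.ex D ≤ dd I.M I.N + 1 := by
  have h1 := Int.floor_mono (I.pen_box hD hD')
  rw [Int.floor_add_natCast] at h1
  unfold ex dd
  omega

end Inst

end Vale.Agent.P328
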