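import Vale.Agent.P328.Unif
import Vale.Agent.P328.Lip
import Vale.Agent.P328.Chain

/-! The program simulates the chain (job Sem). -/

namespace Vale.Agent.P328

open Finset P317 P317.Prog

namespace Inst

variable {I : Inst}

namespace SemA

lemma len_r : I.rL.length = I.m := by simp [rL]
lemma len_c : I.cL.length = I.n := by simp [cL]
lemma get_r (i : Fin I.m) : I.rL.getD i 0 = I.r i := by simp [rL]
lemma get_c (j : Fin I.n) : I.cL.getD j 0 = I.c j := by simp [cL]
lemma ML_eq : ML I.rL I.cL = I.M := by rw [ML, len_r, len_c, M]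
lemma sum_r : I.rL.sum = I.N := by rw [rL, List.sum_ofFn, N]

lemma ent_enc (D : I.Cell → ℤ) (i : Fin I.m) (j : Fin I.n) : ent (I.enc D) i j = D (i, j) := by
  simp [ent, enc]

lemma rowL_eq (X : List (List ℤ)) (i : Fin I.m) :
    rowL I.cL X i = I.row (fun u => ent X u.1 u.2) i := by
  rw [rowL, len_c, row, ← Fin.sum_univ_eq_sum_range (fun j => ent X i j)]

lemma colL_eq (X : List (List ℤ)) (j : Fin I.n) :
    colL I.rL X j = I.col (fun u => ent X u.1 u.2) j := by
  rw [colL, len_r, col, ← Fin.sum_univ_eq_sum_range (fun i => ent X i j)]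

lemma totL_eq (X : List (List ℤ)) : totL I.rL I.cL X = I.tot fun u => ent X u.1 u.2 := by
  rw [totL, len_r, tot, ← Fin.sum_univ_eq_sum_range (fun i => rowL I.cL X i)]
  simp only [rowL_eq]

lemma dec_enc (D : I.Cell → ℤ) : (fun u : I.Cell => ent (I.enc D) u.1 u.2) = D :=
  funext fun u => ent_enc D u.1 u.2

lemma lamL_eq (i : Fin I.m) (j : Fin I.n) : lamL I.rL I.cL i j = I.lam i j := by
  rw [lamL, ML_eq, get_r, get_c, lam]

lemma UL_eq (h : I.Std) (i : Fin I.m) (j : Fin I.n) : UL I.rL I.cL i j = I.Un (i, j) := by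
  rw [UL, h.1, h.2, get_r, get_c, Un]
  simp only [Fin.val_inj]

lemma sL_eq (h : I.Std) (i : Fin I.m) (j : Fin I.n) : sL I.rL I.cL i j = I.s (i, j) := by
  rw [sL, UL_eq h, ML_eq, s]

lemma penL_eq (h : I.Std) (D : I.Cell → ℤ) : penL I.rL I.cL (I.enc D) = I.pen D := by
  rw [penL, h.1, h.2, len_r, len_c, pen, ← Fin.sum_univ_eq_sum_range
    (fun i => lamL I.rL I.cL i I.j0 * ((rowL I.cL (I.enc D) i - I.rL.getD i 0).toNat : ℚ)),
    ← Fin.sum_univ_eq_sum_range
    (fun j => lamL I.rL I.cL I.i0 j * ((colL I.rL (I.enc D) j - I.cL.getD j 0).toNat : ℚ))]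
  simp only [lamL_eq, rowL_eq, colL_eq, totL_eq, dec_enc, get_r, get_c, sum_r]

lemma exL_eq (h : I.Std) (D : I.Cell → ℤ) : exL I.rL I.cL (I.enc D) = I.ex D := by
  rw [exL, penL_eq h, ex]

lemma fillL_eq (h : I.Std) (D : I.Cell → ℤ) (i : Fin I.m) (j : Fin I.n) :
    fillL I.rL I.cL (I.enc D) i j = I.fill D (i, j) := by
  rw [fillL, h.1, h.2, fill]
  simp only [rowL_eq, colL_eq, totL_eq, get_r, get_c, sum_r, ent_enc, Fin.val_inj]

lemma fillL_dec (X : List (List ℤ)) (i : Fin I.m) (j : Fin I.n) :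
    fillL I.rL I.cL X i j = fillL I.rL I.cL (I.enc fun u => ent X u.1 u.2) i j := by
  simp only [fillL, rowL_eq, colL_eq, totL_eq, ent_enc]

lemma forall_iff (p : ℕ → ℕ → Prop) : (∀ i < I.rL.length, ∀ j < I.cL.length, p i j) ↔
    ∀ u : I.Cell, p u.1 u.2 := by
  rw [len_r, len_c]
  exact ⟨fun h u => h _ u.1.2 _ u.2.2, fun h i hi j hj => h (⟨i, hi⟩, ⟨j, hj⟩)⟩

lemma mvL_eq (h : I.Std) {D : I.Cell → ℤ} (hD : D ∈ box 0 I.U) (i : Fin I.m) (j : Fin I.n)
    {δ : ℤ} (hδ : |δ| ≤ I.s (i, j)) :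
    mvL I.rL I.cL (I.enc D) i j δ = I.enc (mv I.U D (i, j) δ) := by
  have hm := mem_box.1 (mv_mem hD (hδ.trans (I.s_le (i, j))))
  rw [mvL, len_r, len_c, tab_eq]
  refine congrArg List.ofFn (funext fun i' => congrArg List.ofFn (funext fun j' => ?_))
  have e : (if (i' : ℕ) = i ∧ (j' : ℕ) = j then refl (UL I.rL I.cL i j) (ent (I.enc D) i j + δ)
      else ent (I.enc D) i' j') = mv I.U D (i, j) δ (i', j') := by
    rw [UL_eq h, ent_enc, ent_enc, mv, Function.update_apply]
    simp only [Fin.val_inj, Prod.mk.injEq, U]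
  have h1 := hm (i', j')
  have h2 := I.Un_le (i', j')
  have h3 := I.r_le_N i'
  simp only [Pi.zero_apply, U] at h1 h2
  rw [e, sum_r]
  omega

lemma cl_half : cl (1 / 2) = 1 / 2 := by
  rw [cl_eq (by norm_num) (by norm_num)]; norm_num

lemma E_propP (h : I.Std) {D : I.Cell → ℤ} (hD : D ∈ box 0 I.U) (G : List (List ℤ) → ℝ) :
    E O0 (propP I.rL I.cL (I.enc D)) G = Kq I.U I.s (fun y => G (I.enc y)) D := by
  have hm : (0 : ℝ) < I.m := by exact_mod_cast I.m_pos
  have hn : (0 : ℝ) < I.n := by exact_mod_cast I.n_pos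
  rw [propP, E_bind, len_r, E_unifP I.m_pos, ← Fin.sum_univ_eq_sum_range, Kq,
    Fintype.sum_prod_type, card_Cell, M, sum_div, sum_div]
  refine sum_congr rfl fun i _ => ?_
  rw [E_bind, len_c, E_unifP I.n_pos, ← Fin.sum_univ_eq_sum_range, sum_div, sum_div, sum_div]
  refine sum_congr rfl fun j _ => ?_
  have hs := I.one_le_s (i, j)
  have hs' : (0 : ℝ) < I.s (i, j) := by exact_mod_cast hs
  rw [E_bind, E_coinP, E_bind, E_bind, sL_eq h, E_unifP hs, E_unifP hs]
  simp only [E_bind, E_coinP, E_ret, cl_half, if_true, Bool.false_eq_true, if_false]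
  rw [mvL_eq h hD i j (δ := I.s (i, j)) (by simp), mvL_eq h hD i j (δ := -I.s (i, j)) (by simp)]
  have e : ∑ t ∈ range (I.s (i, j)), (1 / 2 * G (mvL I.rL I.cL (I.enc D) i j t) +
      (1 - 1 / 2) * G (mvL I.rL I.cL (I.enc D) i j (-t))) =
      (∑ t ∈ range (I.s (i, j)), (G (I.enc (mv I.U D (i, j) t)) +
        G (I.enc (mv I.U D (i, j) (-t))))) / 2 := by
    rw [sum_div]
    refine sum_congr rfl fun t ht => ?_
    have ht' := (mem_range.1 ht).le
    rw [mvL_eq h hD i j (δ := t) (by simpa using ht'),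
      mvL_eq h hD i j (δ := -t) (by simpa using ht')]
    ring
  rw [e, sum_const, card_range, nsmul_eq_mul]
  push_cast
  field_simp
  ring

lemma acc (a b : ℕ) : cl (1 / 2 ^ (b - a)) = min 1 ((1 / 2 : ℝ) ^ b / (1 / 2) ^ a) := by
  rw [cl_eq (by positivity) ((div_le_one (by positivity)).2 (one_le_pow₀ one_le_two))]
  rcases le_total a b with h | h
  · obtain ⟨d, rfl⟩ := Nat.exists_eq_add_of_le h
    rw [Nat.add_sub_cancel_left, pow_add, mul_div_cancel_left₀ _ (by positivity),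
      min_eq_right (pow_le_one₀ (by norm_num) (by norm_num))]
    simp
  · rw [Nat.sub_eq_zero_of_le h, min_eq_left ((one_le_div (by positivity)).2
      (pow_le_pow_of_le_one (by norm_num) (by norm_num) h))]
    simp

end SemA

open SemA

theorem outL_enc (h : I.Std) (D : I.Cell → ℤ) :
    outL I.rL I.cL (I.enc D) = (I.out D).map rows := by
  rw [outL, out, if_congr (forall_iff fun i j => 0 ≤ fillL I.rL I.cL (I.enc D) i j) rfl rfl,
    len_r, len_c, tab_eq]
  simp only [fillL_eq h]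
  split_ifs
  · rfl
  · rfl

/-- the output only depends on the entries inside the table -/
theorem outL_eq (X : List (List ℤ)) :
    outL I.rL I.cL X = outL I.rL I.cL (I.enc fun u => ent X u.1 u.2) := by
  rw [outL, outL, if_congr (forall_iff fun i j => 0 ≤ fillL I.rL I.cL X i j) rfl rfl,
    if_congr (forall_iff fun i j => 0 ≤ fillL I.rL I.cL (I.enc fun u => ent X u.1 u.2) i j)
      rfl rfl, len_r, len_c, tab_eq, tab_eq]
  simp only [← fillL_dec]

theorem E_stepP (h : I.Std) {D : I.Cell → ℤ} (hD : D ∈ box 0 I.U) (g : List (List ℤ) → ℝ) :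
    E O0 (stepP I.rL I.cL (I.enc D)) g = I.P (fun y => g (I.enc y)) D := by
  rw [stepP, E_bind, E_coinP, cl_half]
  simp only [if_true, Bool.false_eq_true, if_false, E_ret, E_bind, E_coinP]
  rw [E_propP h hD, Kq_eq I.s_le _ hD, P, MH]
  have e : ∀ y ∈ box 0 I.U, cl (1 / 2 ^ min (exL I.rL I.cL (I.enc y) - exL I.rL I.cL (I.enc D))
      (dd (ML I.rL I.cL) I.rL.sum + 1)) = min 1 (I.W y / I.W D) := by
    intro y hy
    rw [exL_eq h, exL_eq h, ML_eq, sum_r, min_eq_left (I.ex_sub_le hD hy), acc, W, W]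
  rw [sum_congr rfl fun y hy => by rw [e y hy]]
  ring

theorem E_trialP (h : I.Std) (k : ℕ) (g : Option (List (List ℕ)) → ℝ) :
    E O0 (trialP I.rL I.cL k) g =
      I.P^[TT I.M I.N k] (fun D => g ((I.out D).map rows)) 0 := by
  have key : ∀ (l : List ℕ) (G : List (List ℤ) → ℝ), ∀ D ∈ box 0 I.U,
      E O0 (foldP l (fun X _ => stepP I.rL I.cL X) (I.enc D)) G =
        I.P^[l.length] (fun y => G (I.enc y)) D := by
    intro l G
    induction l with
    | nil => intro D _; rfl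
    | cons a l ih =>
      intro D hD
      rw [foldP, E_bind, E_stepP h hD, List.length_cons, Function.iterate_succ_apply']
      exact MH_congr ih hD
  have e : (tab I.rL.length I.cL.length fun _ _ => (0 : ℤ)) = I.enc 0 := by
    rw [len_r, len_c, tab_eq]; rfl
  rw [trialP, E_bind, walkP, e, key _ _ 0 I.zero_mem, List.length_range, ML_eq, sum_r]
  simp only [E_ret, outL_enc h]

end Inst

end Vale.Agent.P328
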