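import Vale.Agent.P328.Gap
import Vale.Agent.P328.Sem
import Vale.Agent.P328.AlgoPP

/-! The sampler (job Final). -/

namespace Vale.Agent.P328

open Finset P317 P317.Prog Vale.Agent.PT

/-- repeated trials -/
lemma E_trials {β γ : Type} (p : Prog Unit (Option β)) (d : β) (g : β → ℝ)
    (hg : ∀ y, 0 ≤ g y ∧ g y ≤ 1) {τ : ℝ} (hτ : τ ≤ 1)
    (h1 : E O0 p (fun o => o.elim 1 fun _ => 0) ≤ 7 / 8)
    (h2 : τ * (1 - E O0 p fun o => o.elim 1 fun _ => 0) ≤ E O0 p fun o => o.elim 0 g)
    (l : List γ) : τ - (7 / 8) ^ l.length ≤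
      E O0 (mapP l fun _ => p) fun os => g ((os.filterMap id).headD d) := by
  induction l with
  | nil => simp only [E_mapP_nil, List.length_nil, pow_zero]; linarith [(hg (List.headD
      (List.filterMap id []) d)).1]
  | cons c l ih =>
    rw [E_mapP_cons]
    generalize hq : (E O0 (mapP l fun _ => p) fun os => g ((os.filterMap id).headD d)) = q at ih
    have h3 : (fun b : Option β => E O0 (mapP l fun _ => p)
        fun bs => g (((b :: bs).filterMap id).headD d)) =
        fun b => b.elim 0 g + q * b.elim 1 fun _ => 0 := by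
      funext b
      cases b with
      | none => simpa using hq
      | some y => simp
    rw [h3, E_add, E_mul]
    have h4 : 0 ≤ E O0 p fun o => o.elim (1 : ℝ) fun _ => 0 :=
      E_nonneg _ _ fun o => by cases o <;> simp
    have h5 := mul_le_mul_of_nonneg_left ih h4
    have h6 := mul_le_mul_of_nonneg_right h1 (show (0 : ℝ) ≤ (7 / 8) ^ l.length by positivity)
    rw [List.length_cons, pow_succ]
    nlinarith

lemma rows_inj {m n : ℕ} : Function.Injective (rows : (Fin m → Fin n → ℕ) → _) := by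
  intro X Y h
  funext i
  exact List.ofFn_injective (congrFun (List.ofFn_injective h) i)

/-- total variation from a one-sided bound -/
lemma tv_le {X : Type} (Ω : Finset X) (hΩ : Ω.Nonempty) (p : X → ℝ) (hp : ∑ x ∈ Ω, p x = 1) {ε : ℝ}
    (h : ∀ S ⊆ Ω, (S.card : ℝ) / Ω.card - ε ≤ ∑ x ∈ S, p x) :
    (∑ x ∈ Ω, |p x - 1 / Ω.card|) / 2 ≤ ε := by
  classical
  have h0 : (0 : ℝ) < Ω.card := by exact_mod_cast hΩ.card_pos
  have h1 := h _ (filter_subset (fun x => p x < 1 / Ω.card) Ω)
  have h2 : ∑ x ∈ Ω, |p x - 1 / Ω.card| = ∑ x ∈ Ω, ((p x - 1 / Ω.card) +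
      2 * if p x < 1 / Ω.card then 1 / Ω.card - p x else 0) := by
    refine sum_congr rfl fun x _ => ?_
    split_ifs with hx
    · rw [abs_of_neg (by linarith)]; ring
    · rw [abs_of_nonneg (by linarith)]; ring
  rw [h2, sum_add_distrib, ← mul_sum, ← sum_filter, sum_sub_distrib, sum_sub_distrib, hp,
    sum_const, sum_const, nsmul_eq_mul, nsmul_eq_mul, mul_one_div_cancel h0.ne', mul_one_div]
  linarith

namespace Inst

variable {I : Inst}

theorem All_mainP (h : I.Std) (k : ℕ) :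
    All (fun y => ∃ X ∈ Omega I.r I.c, y = rows X) (mainP I.rL I.cL k) := by
  refine (All_mapP _ _ (fun _ o => ∀ y, o = some y → ∃ X ∈ Omega I.r I.c, y = rows X)
    fun _ _ => All.bind' _ fun X y hy => ?_).bind fun os hos => ?_
  · rw [outL_eq, outL_enc h, Option.map_eq_some_iff] at hy
    obtain ⟨Y, h1, rfl⟩ := hy
    exact ⟨Y, I.out_mem h1, rfl⟩
  · rw [All_ret]
    generalize List.range (6 * (k + 2)) = l at hos
    induction hos with
    | nil => exact dflt_mem I
    | @cons _ o _ _ h1 _ ih =>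
      cases o with
      | none => exact ih
      | some y => exact h1 y rfl

theorem E_mainP (h : I.Std) (k : ℕ) (g : List (List ℕ) → ℝ) (hg : ∀ y, 0 ≤ g y ∧ g y ≤ 1) :
    (∑ X ∈ Omega I.r I.c, g (rows X)) / (Omega I.r I.c).card - (1 / 2) ^ (k + 1) ≤
      E O0 (mainP I.rL I.cL k) g := by
  obtain ⟨a, ha, h1, h2, h3⟩ := I.trial_law k
  have h4 := h3 (fun X => g (rows X)) fun X => hg _
  have e1 : E O0 (trialP I.rL I.cL k) (fun o => o.elim 1 fun _ => 0) =
      I.P^[TT I.M I.N k] (fun D => (I.out D).elim 1 fun _ => 0) 0 := by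
    rw [E_trialP h]
    exact congrArg (fun f => I.P^[TT I.M I.N k] f 0) (funext fun D => by cases I.out D <;> rfl)
  have e2 : E O0 (trialP I.rL I.cL k) (fun o => o.elim 0 g) =
      I.P^[TT I.M I.N k] (fun D => (I.out D).elim 0 fun X => g (rows X)) 0 := by
    rw [E_trialP h]
    exact congrArg (fun f => I.P^[TT I.M I.N k] f 0) (funext fun D => by cases I.out D <;> rfl)
  have e3 : E O0 (trialP I.rL I.cL k) (fun o => o.elim (1 : ℝ) fun _ => 0) ≤ 1 :=
    E_le_one _ _ fun o => by cases o <;> simp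
  have e4 : 0 ≤ E O0 (trialP I.rL I.cL k) (fun o => o.elim 0 g) :=
    E_nonneg _ _ fun o => by cases o <;> simp [hg]
  rw [← e1] at h1 h2
  rw [← e2] at h4
  have hσ : (∑ X ∈ Omega I.r I.c, g (rows X)) / (Omega I.r I.c).card ≤ 1 := by
    refine div_le_one_of_le₀ ?_ (Nat.cast_nonneg _)
    simpa using sum_le_sum (s := Omega I.r I.c) fun X _ => (hg (rows X)).2
  generalize (∑ X ∈ Omega I.r I.c, g (rows X)) / (Omega I.r I.c).card = σ at *
  have hη : (0 : ℝ) < (1 / 2) ^ k := by positivity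
  have hη1 : ((1 : ℝ) / 2) ^ k ≤ 1 := pow_le_one₀ (by norm_num) (by norm_num)
  have h5 := E_trials (trialP I.rL I.cL k) (dflt I.rL I.cL) g hg (τ := σ - 8 * (1 / 2) ^ (k + 5))
    (by have : (0 : ℝ) < (1 / 2) ^ (k + 5) := by positivity
        linarith) (by rw [pow_add] at h1; linarith) (by
      rcases le_total (σ - 8 * (1 / 2) ^ (k + 5)) 0 with h0 | h0
      · exact (mul_nonpos_of_nonpos_of_nonneg h0 (by linarith)).trans e4
      · have : (0 : ℝ) < (1 / 2) ^ (k + 5) := by positivity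
        generalize ((1 : ℝ) / 2) ^ (k + 5) = η at *
        have := mul_le_mul_of_nonneg_left (show 1 - E O0 (trialP I.rL I.cL k)
          (fun o => o.elim (1 : ℝ) fun _ => 0) ≤ a + η by linarith) h0
        nlinarith) (List.range (6 * (k + 2)))
  have h6 : ((7 : ℝ) / 8) ^ (6 * (k + 2)) ≤ (1 / 2) ^ (k + 2) := by
    rw [pow_mul]; gcongr; norm_num
  rw [List.length_range] at h5
  simp only [mainP, rep, E_bind, E_ret]
  rw [pow_add] at *
  linarith

end Inst

theorem exists_sampler : ∃ A, IsSampler A := by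
  classical
  obtain ⟨A, hA, p, hp⟩ := exists_run _ pp_mainP []
  refine ⟨A, hA.toTM, p, fun m n hm hn r c hrc k x hx T hT => ?_⟩
  obtain ⟨i0, j0, h1, h2, hI⟩ := exists_std hm hn r c hrc
  obtain ⟨h3, h4⟩ := hp x T hT.ge
  have hk : k + 1 ≤ sz x := by
    have := length_lt_sz (List.replicate k ())
    rw [List.length_replicate] at this
    rw [hx, sz_prod, sz_prod]
    omega
  have hx' : mainP x.1 x.2.1 x.2.2.length = mainP (List.ofFn r) (List.ofFn c) k := by simp [hx]
  rw [hx'] at h3 h4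
  have h5 := h3 _ (Inst.All_mainP hI k)
  refine ⟨fun ω => h5 _, ?_⟩
  have hT0 : (0 : ℝ) < 2 ^ T := by positivity
  have key : ∀ S : Finset (Fin m → Fin n → ℕ), ∑ X ∈ S, prob T (fun l => A (x, l)) (rows X) =
      (∑ ω : Fin T → Bool, if A (x, List.ofFn ω) ∈ S.image rows then 1 else 0) / 2 ^ T := by
    intro S
    simp only [prob, ← sum_div, ← sum_boole]
    rw [sum_comm]
    congr 1
    refine sum_congr rfl fun ω _ => ?_
    rw [← sum_image (f := fun y => if A (x, List.ofFn ω) = y then (1 : ℝ) else 0) rows_inj.injOn,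
      sum_ite_eq]
  obtain ⟨X0, hX0, -⟩ := h5 []
  refine tv_le _ ⟨X0, hX0⟩ _ ?_ fun S hS => ?_
  · rw [key, sum_congr rfl fun ω _ => if_pos (by
      obtain ⟨X, hX, e⟩ := h5 (List.ofFn ω)
      exact mem_image.2 ⟨X, hX, e.symm⟩)]
    simp
  · have hg : ∀ y, 0 ≤ (if y ∈ S.image rows then (1 : ℝ) else 0) ∧
        (if y ∈ S.image rows then (1 : ℝ) else 0) ≤ 1 := fun y => by split_ifs <;> norm_num
    have h6 := h4 _ hg
    have h7 := Inst.E_mainP hI k _ hg
    have h8 : ∑ X ∈ Omega r c, (if rows X ∈ S.image rows then (1 : ℝ) else 0) = S.card := by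
      simp only [rows_inj.mem_finset_image, sum_boole, filter_mem_eq_inter, inter_eq_right.2 hS]
    have h9 : ((1 : ℝ) / 2) ^ sz x ≤ (1 / 2) ^ (k + 1) :=
      pow_le_pow_of_le_one (by norm_num) (by norm_num) hk
    rw [key, le_div_iff₀ hT0]
    refine le_trans (mul_le_mul_of_nonneg_right ?_ hT0.le) h6
    simp only [h8, Inst.rL, Inst.cL] at h7
    rw [pow_succ] at h7 h9
    linarith

end Vale.Agent.P328
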