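import Vale.Agent.P328.Box

/-! From unit steps to long reflected moves by smoothing (job Smooth). -/

namespace Vale.Agent.P328

open Finset

variable {E : Type} [Fintype E] [DecidableEq E]

namespace Smo

/-- averaging over the moves in direction `u` -/
noncomputable def av (U : E → ℤ) (s : E → ℕ) (u : E) (f : (E → ℤ) → ℝ) (D : E → ℤ) : ℝ :=
  (∑ t ∈ range (s u), (f (mv U D u t) + f (mv U D u (-t)))) / (2 * s u)

/-- iterated averaging -/
noncomputable def avL (U : E → ℤ) (s : E → ℕ) (L : List E) (f : (E → ℤ) → ℝ) : (E → ℤ) → ℝ :=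
  L.foldr (av U s) f

variable {U : E → ℤ} {s : E → ℕ}

omit [Fintype E] in
lemma mv_comm {u v : E} (h : u ≠ v) (D : E → ℤ) (a b : ℤ) :
    mv U (mv U D u a) v b = mv U (mv U D v b) u a := by
  simp only [mv, Function.update_of_ne h, Function.update_of_ne h.symm]
  exact Function.update_comm h _ _ _

omit [Fintype E] in
lemma av_comm (u v : E) (f : (E → ℤ) → ℝ) : av U s u (av U s v f) = av U s v (av U s u f) := by
  by_cases h : u = v
  · rw [h]
  funext D
  simp only [av, ← add_div, ← sum_div, ← sum_add_distrib]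
  rw [div_div, div_div, mul_comm, sum_comm]
  congr 1
  refine sum_congr rfl fun a _ => sum_congr rfl fun b _ => ?_
  simp only [mv_comm h]
  ring

omit [Fintype E] in
lemma avL_perm {L L' : List E} (h : L.Perm L') (f : (E → ℤ) → ℝ) : avL U s L f = avL U s L' f :=
  haveI : LeftCommutative (av U s) := ⟨fun u v f => av_comm u v f⟩
  h.foldr_eq f

omit [Fintype E] in
lemma av_mono (u : E) {f g : (E → ℤ) → ℝ} (h : ∀ D, f D ≤ g D) (D : E → ℤ) :
    av U s u f D ≤ av U s u g D :=
  div_le_div_of_nonneg_right (sum_le_sum fun _ _ => add_le_add (h _) (h _)) (by positivity)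

omit [Fintype E] in
lemma av_sq {u : E} (hs : 1 ≤ s u) (f : (E → ℤ) → ℝ) (D : E → ℤ) :
    av U s u f D ^ 2 ≤ av U s u (fun y => f y ^ 2) D := by
  unfold av
  have h0 : (0 : ℝ) < s u := by exact_mod_cast hs
  have h1 := sq_sum_le_card_mul_sum_sq (s := range (s u))
    (f := fun t : ℕ => f (mv U D u t) + f (mv U D u (-t)))
  have h2 : ∑ t ∈ range (s u), (f (mv U D u t) + f (mv U D u (-t))) ^ 2
      ≤ 2 * ∑ t ∈ range (s u), (f (mv U D u t) ^ 2 + f (mv U D u (-t)) ^ 2) := by
    rw [mul_sum]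
    exact sum_le_sum fun t _ => by nlinarith [sq_nonneg (f (mv U D u t) - f (mv U D u (-t)))]
  rw [card_range] at h1
  rw [div_pow, div_le_div_iff₀ (by positivity) (by positivity)]
  have h3 := mul_le_mul_of_nonneg_left h2 h0.le
  nlinarith

omit [Fintype E] in
lemma avL_sq (hs : ∀ u, 1 ≤ s u) (L : List E) (f : (E → ℤ) → ℝ) (D : E → ℤ) :
    avL U s L f D ^ 2 ≤ avL U s L (fun y => f y ^ 2) D := by
  induction L generalizing D with
  | nil => exact le_rfl
  | cons u L ih => exact (av_sq (hs u) _ D).trans (av_mono u ih D)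

omit [Fintype E] in
lemma av_sub (u : E) (f g : (E → ℤ) → ℝ) (D : E → ℤ) :
    av U s u (fun y => f y - g y) D = av U s u f D - av U s u g D := by
  simp only [av, ← sub_div, ← sum_sub_distrib]
  congr 1
  exact sum_congr rfl fun t _ => by ring

omit [Fintype E] in
lemma avL_sub (L : List E) (f g : (E → ℤ) → ℝ) (D : E → ℤ) :
    avL U s L (fun y => f y - g y) D = avL U s L f D - avL U s L g D := by
  induction L generalizing D with
  | nil => rfl
  | cons u L ih =>
    change av U s u _ D = av U s u _ D - av U s u _ D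
    rw [← av_sub]
    exact congrArg (fun F => av U s u F D) (funext ih)

omit [Fintype E] in
lemma av_const {u : E} (hs : 1 ≤ s u) (c : ℝ) (D : E → ℤ) : av U s u (fun _ => c) D = c := by
  have h0 : (0 : ℝ) < s u := by exact_mod_cast hs
  simp only [av, sum_const, card_range, nsmul_eq_mul]
  field_simp; ring

lemma av_adj {u : E} (hs2 : (s u : ℤ) ≤ U u + 1) (a b : (E → ℤ) → ℝ) :
    ∑ D ∈ box 0 U, a D * av U s u b D = ∑ D ∈ box 0 U, av U s u a D * b D := by
  simp only [av, ← mul_div_assoc, div_mul_eq_mul_div, ← sum_div, mul_sum, sum_mul]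
  rw [sum_comm, sum_comm (s := box 0 U)]
  congr 1
  refine sum_congr rfl fun t ht => ?_
  have := sum_mv_symm (U := U) (u := u) (t := t)
    (by rw [mem_range] at ht; rw [abs_of_nonneg (by omega)]; omega) fun x y => a x * b y
  simpa only [mul_add, add_mul] using this

lemma avL_le (hs1 : ∀ u, 1 ≤ s u) (hs2 : ∀ u, (s u : ℤ) ≤ U u + 1) {g b : (E → ℤ) → ℝ}
    (hg : ∀ D, 0 ≤ g D) (L : List E) (hL : L.Nodup) (a : (E → ℤ) → ℝ)
    (hab : ∀ D ∈ box 0 U, ∀ D' ∈ box 0 U, (∀ u ∈ L, |D' u - D u| ≤ s u - 1) →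
      (∀ u, u ∉ L → D' u = D u) → a D' ≤ b D) :
    ∑ D ∈ box 0 U, a D * avL U s L g D ≤ ∑ D ∈ box 0 U, b D * g D := by
  induction L generalizing a with
  | nil =>
    exact sum_le_sum fun D hD => mul_le_mul_of_nonneg_right
      (hab D hD D hD (by simp) (by simp)) (hg D)
  | cons u L ih =>
    rw [List.nodup_cons] at hL
    change ∑ D ∈ box 0 U, a D * av U s u _ D ≤ _
    rw [av_adj (hs2 u)]
    refine ih hL.2 _ fun D hD D' hD' h1 h2 => ?_
    have key : ∀ t : ℤ, |t| ≤ s u - 1 → a (mv U D' u t) ≤ b D := by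
      intro t ht
      refine hab D hD _ (mv_mem hD' (by have := hs2 u; omega)) (fun v hv => ?_) fun v hv => ?_
      · by_cases h : v = u
        · subst h
          have := refl_dist (U := U v) t (mem_box.1 hD' v).1 (mem_box.1 hD' v).2
          rw [← h2 v hL.1]
          simp only [mv, Function.update_self]
          omega
        · simpa [mv, h] using h1 v (by simpa [h] using hv)
      · rw [List.mem_cons, not_or] at hv
        simpa [mv, hv.1] using h2 v hv.2
    rw [← av_const (U := U) (hs1 u) (b D) D']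
    refine div_le_div_of_nonneg_right (sum_le_sum fun t ht => ?_) (by positivity)
    rw [mem_range] at ht
    exact add_le_add (key _ (by rw [abs_of_nonneg (by omega)]; omega))
      (key _ (by rw [abs_neg, abs_of_nonneg (by omega)]; omega))

lemma avL_star {w : (E → ℤ) → ℝ} (hw : ∀ D, 0 < w D) (hs1 : ∀ u, 1 ≤ s u)
    (hs2 : ∀ u, (s u : ℤ) ≤ U u + 1)
    (hnear : ∀ D D' : E → ℤ, (∀ u, |D u - D' u| ≤ s u - 1) → w D ≤ 2 * w D')
    (L : List E) (hL : L.Nodup) (h : (E → ℤ) → ℝ) :
    ∑ D ∈ box 0 U, w D * avL U s L h D ^ 2 ≤ 2 * ∑ D ∈ box 0 U, w D * h D ^ 2 := by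
  calc _ ≤ ∑ D ∈ box 0 U, w D * avL U s L (fun y => h y ^ 2) D :=
        sum_le_sum fun D _ => mul_le_mul_of_nonneg_left (avL_sq hs1 L h D) (hw D).le
    _ ≤ ∑ D ∈ box 0 U, (2 * w D) * h D ^ 2 :=
        avL_le hs1 hs2 (fun D => sq_nonneg _) L hL w fun D _ D' _ h1 h2 => hnear D' D fun u => by
          by_cases hu : u ∈ L
          · exact h1 u hu
          · rw [h2 u hu, sub_self, abs_zero]; have := hs1 u; omega
    _ = _ := by rw [mul_sum]; exact sum_congr rfl fun D _ => by ring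

lemma mvE_nonneg {w : (E → ℤ) → ℝ} (hw : ∀ D, 0 < w D) (f : (E → ℤ) → ℝ) (u : E) (t : ℤ) :
    0 ≤ mvE w f U u t := sum_nonneg fun D _ => mul_nonneg (hw D).le (sq_nonneg _)

/-- the short move energy -/
noncomputable def eA (w f : (E → ℤ) → ℝ) (U : E → ℤ) (s : E → ℕ) (u : E) : ℝ :=
  (∑ t ∈ range (s u), (mvE w f U u t + mvE w f U u (-t))) / s u

lemma eA_nonneg {w : (E → ℤ) → ℝ} (hw : ∀ D, 0 < w D) (f : (E → ℤ) → ℝ) (u : E) :
    0 ≤ eA w f U s u :=
  div_nonneg (sum_nonneg fun _ _ => add_nonneg (mvE_nonneg hw f u _) (mvE_nonneg hw f u _))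
    (Nat.cast_nonneg _)

lemma sub_av_le {w : (E → ℤ) → ℝ} (hw : ∀ D, 0 < w D) {u : E} (hs : 1 ≤ s u) (f : (E → ℤ) → ℝ) :
    2 * ∑ D ∈ box 0 U, w D * (f D - av U s u f D) ^ 2 ≤ eA w f U s u := by
  have h0 : (0 : ℝ) < s u := by exact_mod_cast hs
  have h1 : ∀ D, (f D - av U s u f D) ^ 2 ≤ av U s u (fun y => (f y - f D) ^ 2) D := fun D => by
    refine le_trans (le_of_eq ?_) (av_sq hs (fun y => f y - f D) D)
    rw [av_sub u f fun _ => f D, av_const hs]; ring
  calc _ ≤ 2 * ∑ D ∈ box 0 U, w D * av U s u (fun y => (f y - f D) ^ 2) D := by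
        gcongr with D; exact (hw D).le; exact h1 D
    _ = _ := by
        simp only [av, eA, mvE, ← mul_div_assoc, ← sum_div, ← sum_add_distrib, ← mul_add]
        rw [sum_comm (s := range (s u))]
        simp only [← mul_sum]
        field_simp

lemma sub_avL_le {w : (E → ℤ) → ℝ} (hw : ∀ D, 0 < w D) (hs1 : ∀ u, 1 ≤ s u)
    (hs2 : ∀ u, (s u : ℤ) ≤ U u + 1)
    (hnear : ∀ D D' : E → ℤ, (∀ u, |D u - D' u| ≤ s u - 1) → w D ≤ 2 * w D') (f : (E → ℤ) → ℝ)
    (L : List E) (hL : L.Nodup) :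
    ∑ D ∈ box 0 U, w D * (f D - avL U s L f D) ^ 2 ≤ L.length * (L.map (eA w f U s)).sum := by
  induction L with
  | nil => simp [avL]
  | cons u L ih =>
    rw [List.nodup_cons] at hL
    have ih := ih hL.2
    have e : ∀ D, f D - avL U s (u :: L) f D
        = (f D - avL U s L f D) + avL U s L (fun y => f y - av U s u f y) D := fun D => by
      rw [avL_perm (List.perm_append_singleton u L).symm, avL_sub]
      simp only [avL, List.foldr_append, List.foldr_cons, List.foldr_nil]
      ring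
    have h1 := (avL_star hw hs1 hs2 hnear L hL.2 fun y => f y - av U s u f y).trans
      (sub_av_le hw (hs1 u) f)
    simp only [e, List.length_cons, List.map_cons, List.sum_cons]
    push_cast
    rcases L with _ | ⟨v, L⟩
    · simpa [avL] using h1
    · have hn : (0 : ℝ) < (v :: L).length := by simp only [List.length_cons]; positivity
      generalize v :: L = L' at *
      generalize (L'.length : ℝ) = n at *
      have h2 : n * ∑ D ∈ box 0 U, w D * ((f D - avL U s L' f D)
          + avL U s L' (fun y => f y - av U s u f y) D) ^ 2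
          ≤ (n + 1) * ∑ D ∈ box 0 U, w D * (f D - avL U s L' f D) ^ 2
            + n * (n + 1) * ∑ D ∈ box 0 U, w D * avL U s L' (fun y => f y - av U s u f y) D ^ 2 := by
        rw [mul_sum, mul_sum, mul_sum, ← sum_add_distrib]
        refine sum_le_sum fun D _ => ?_
        have := mul_nonneg (hw D).le (sq_nonneg ((f D - avL U s L' f D)
          - n * avL U s L' (fun y => f y - av U s u f y) D))
        nlinarith
      have h3 := mul_le_mul_of_nonneg_left ih (by linarith : 0 ≤ n + 1)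
      have h4 := mul_le_mul_of_nonneg_left h1 (by positivity : 0 ≤ n * (n + 1))
      refine le_of_mul_le_mul_left ?_ hn
      linarith

omit [Fintype E] in
lemma avL_shift {u : E} (a h : (E → ℤ) → ℝ) (L : List E) (hu : u ∉ L) (D : E → ℤ)
    (hh : ∀ y, y u = D u → a (y + Pi.single u 1) - a y = h y) :
    avL U s L a (D + Pi.single u 1) - avL U s L a D = avL U s L h D := by
  induction L generalizing D with
  | nil => exact hh D rfl
  | cons v L ih =>
    rw [List.mem_cons, not_or] at hu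
    have e : ∀ t, mv U (D + Pi.single u 1) v t = mv U D v t + Pi.single u 1 := fun t => by
      funext x
      by_cases hx : x = v
      · subst hx; simp [mv, Ne.symm hu.1]
      · simp [mv, hx]
    have e2 : ∀ t, avL U s L h (mv U D v t)
        = avL U s L a (mv U D v t + Pi.single u 1) - avL U s L a (mv U D v t) := fun t =>
      (ih hu.2 _ fun y hy => hh y (by rw [hy]; simp [mv, hu.1])).symm
    change av U s v (avL U s L a) _ - av U s v (avL U s L a) _ = av U s v (avL U s L h) _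
    simp only [av, e, e2, ← sub_div, ← sum_sub_distrib]
    congr 1
    exact sum_congr rfl fun t _ => by ring

lemma av_step {u : E} (f : (E → ℤ) → ℝ) {D : E → ℤ} (hD : D ∈ box 0 U) (h : D u < U u) :
    av U s u f (D + Pi.single u 1) - av U s u f D = (f (mv U D u (s u)) - f D
      - (f (mv U (D + Pi.single u 1) u (-s u)) - f (D + Pi.single u 1))) / (2 * s u) := by
  have e : ∀ t, mv U (D + Pi.single u 1) u t = mv U D u (1 + t) := fun t => by
    funext x
    by_cases hx : x = u
    · subst hx; simp [mv, add_assoc]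
    · simp [mv, hx]
  have h0 : 0 ≤ D u := (mem_box.1 hD u).1
  have e0 : mv U D u 0 = D := by
    have : refl (U u) (D u + 0) = D u := by unfold refl; split_ifs <;> omega
    rw [mv, this, Function.update_eq_self]
  have e1 : mv U D u 1 = D + Pi.single u 1 := by
    have : refl (U u) (D u + 1) = D u + 1 := by unfold refl; split_ifs <;> omega
    rw [mv, this]
    funext x
    by_cases hx : x = u
    · subst hx; simp
    · simp [hx]
  simp only [av, e, ← sub_div]
  congr 1
  generalize s u = n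
  induction n with
  | zero => simp [e0, e1]
  | succ n ih =>
    rw [sum_range_succ, sum_range_succ]
    push_cast
    rw [add_comm (n : ℤ) 1, show (1 : ℤ) + -(1 + n) = -n by ring]
    linarith

lemma dir_le {w : (E → ℤ) → ℝ} (hw : ∀ D, 0 < w D) (hs1 : ∀ u, 1 ≤ s u)
    (hs2 : ∀ u, (s u : ℤ) ≤ U u + 1) {K : ℝ} (hK : 1 ≤ K)
    (hnear : ∀ D D' : E → ℤ, (∀ u, |D u - D' u| ≤ s u - 1) → w D ≤ 2 * w D')
    (hdown : ∀ D u, w D ≤ K * w (D + Pi.single u 1)) (f : (E → ℤ) → ℝ) (u : E) :
    (s u : ℝ) ^ 2 * dir w (avL U s univ.toList f) 0 U u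
      ≤ K * (mvE w f U u (s u) + mvE w f U u (-s u)) := by
  have h0 : (0 : ℝ) < s u := by exact_mod_cast hs1 u
  have hp : (univ.toList : List E).Perm ((univ.erase u).toList ++ [u]) := by
    refine List.Perm.trans ?_ (List.perm_append_singleton u _).symm
    refine List.Perm.trans ?_ (toList_insert (notMem_erase u univ))
    rw [insert_erase (mem_univ u)]
  have e : avL U s univ.toList f = avL U s (univ.erase u).toList (av U s u f) := by
    rw [avL_perm hp]; simp only [avL, List.foldr_append, List.foldr_cons, List.foldr_nil]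
  obtain ⟨h, hh⟩ : ∃ h : (E → ℤ) → ℝ, h = fun y =>
    if y u < U u then av U s u f (y + Pi.single u 1) - av U s u f y else 0 := ⟨_, rfl⟩
  have h1 : dir w (avL U s univ.toList f) 0 U u
      ≤ ∑ D ∈ box 0 U, w D * avL U s (univ.erase u).toList h D ^ 2 := by
    rw [dir, sum_filter]
    refine sum_le_sum fun D _ => ?_
    split_ifs with hD
    · rw [e, avL_shift _ h _ (by simp) D fun y hy => by rw [hh]; simp only [hy, hD, if_true]]
    · exact mul_nonneg (hw D).le (sq_nonneg _)
  have h2 := avL_star hw hs1 hs2 hnear _ (nodup_toList (univ.erase u)) h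
  have h3 : (s u : ℝ) ^ 2 * (2 * ∑ D ∈ box 0 U, w D * h D ^ 2)
      ≤ ∑ D ∈ box 0 U with D u < U u, w D * (f (mv U D u (s u)) - f D) ^ 2
        + K * ∑ D ∈ box 0 U with D u < U u, w (D + Pi.single u 1)
          * (f (mv U (D + Pi.single u 1) u (-s u)) - f (D + Pi.single u 1)) ^ 2 := by
    rw [mul_sum, mul_sum, mul_sum, ← sum_add_distrib, sum_filter]
    refine sum_le_sum fun D hD => ?_
    rw [hh]
    dsimp only
    split_ifs with hu
    · rw [av_step f hD hu]
      generalize f (mv U D u (s u)) - f D = a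
      generalize f (mv U (D + Pi.single u 1) u (-s u)) - f (D + Pi.single u 1) = b
      have e1 : (s u : ℝ) ^ 2 * (2 * (w D * ((a - b) / (2 * s u)) ^ 2)) = w D * (a - b) ^ 2 / 2 := by
        field_simp
      have e2 := mul_le_mul_of_nonneg_right (hdown D u) (sq_nonneg b)
      have e3 := mul_nonneg (hw D).le (sq_nonneg (a + b))
      rw [e1]; nlinarith
    · simp
  rw [sum_shift 0 U u fun D => w D * (f (mv U D u (-s u)) - f D) ^ 2] at h3
  have h4 : ∑ D ∈ box 0 U with D u < U u, w D * (f (mv U D u (s u)) - f D) ^ 2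
      ≤ mvE w f U u (s u) := sum_le_sum_of_subset_of_nonneg (filter_subset _ _)
        fun D _ _ => mul_nonneg (hw D).le (sq_nonneg _)
  have h5 : ∑ D ∈ box 0 U with (0 : E → ℤ) u < D u, w D * (f (mv U D u (-s u)) - f D) ^ 2
      ≤ mvE w f U u (-s u) := sum_le_sum_of_subset_of_nonneg (filter_subset _ _)
        fun D _ _ => mul_nonneg (hw D).le (sq_nonneg _)
  have h6 := mul_le_mul_of_nonneg_left (h1.trans h2) (sq_nonneg (s u : ℝ))
  have h7 := mul_le_mul_of_nonneg_left h5 (by linarith : 0 ≤ K)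
  have h8 := mul_le_mul_of_nonneg_right hK (mvE_nonneg (U := U) hw f u (s u))
  linarith

end Smo

theorem smooth {w : (E → ℤ) → ℝ} (hw : ∀ D, 0 < w D) {U : E → ℤ} (hU : ∀ u, 0 ≤ U u)
    {s : E → ℕ} (hs1 : ∀ u, 1 ≤ s u) (hs2 : ∀ u, (s u : ℤ) ≤ U u + 1) {Γ K CP : ℝ}
    (hΓ : ∀ u, (U u : ℝ) + 1 ≤ Γ * s u) (hK : 1 ≤ K) (hCP : 0 ≤ CP)
    (hnear : ∀ D D' : E → ℤ, (∀ u, |D u - D' u| ≤ s u - 1) → w D ≤ 2 * w D')
    (hdown : ∀ D u, w D ≤ K * w (D + Pi.single u 1))
    (hP : ∀ f, var (box 0 U) w f ≤ CP * energy w f 0 U) (f : (E → ℤ) → ℝ) :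
    var (box 0 U) w f ≤ (2 * Fintype.card E + 2 * CP * Γ ^ 2 * K) * bigE w f U s := by
  have hm : 0 < ∑ D ∈ box 0 U, w D :=
    sum_pos (fun D _ => hw D) ⟨0, mem_box.2 fun u => ⟨le_rfl, hU u⟩⟩
  obtain ⟨g, hg⟩ : ∃ g, g = Smo.avL U s univ.toList f := ⟨_, rfl⟩
  have h1 := Smo.sub_avL_le hw hs1 hs2 hnear f _ (nodup_toList univ)
  rw [← hg, length_toList, card_univ, sum_map_toList] at h1
  have h2 : energy w g 0 U ≤ Γ ^ 2 * K * ∑ u, (mvE w f U u (s u) + mvE w f U u (-s u)) := by
    rw [energy, mul_sum]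
    refine sum_le_sum fun u _ => ?_
    have a1 := Smo.dir_le hw hs1 hs2 hK hnear hdown f u
    rw [← hg] at a1
    have a2 : 0 ≤ dir w g 0 U u := sum_nonneg fun D _ => mul_nonneg (hw D).le (sq_nonneg _)
    have a3 : (0 : ℝ) ≤ U u := by exact_mod_cast hU u
    have a4 : ((U u : ℝ) + 1) ^ 2 ≤ (Γ * s u) ^ 2 := pow_le_pow_left₀ (by linarith) (hΓ u) 2
    have a5 := mul_le_mul_of_nonneg_right a4 a2
    have a6 := mul_le_mul_of_nonneg_left a1 (sq_nonneg Γ)
    simp only [Pi.zero_apply, Int.cast_zero, sub_zero]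
    linarith
  have h3 := (hP g).trans (mul_le_mul_of_nonneg_left h2 hCP)
  rw [var_eq hm] at h3
  generalize (∑ x ∈ box 0 U, w x * g x) / ∑ x ∈ box 0 U, w x = c at h3
  have h4 : ∑ D ∈ box 0 U, w D * (f D - c) ^ 2 ≤ 2 * ∑ D ∈ box 0 U, w D * (f D - g D) ^ 2
      + 2 * ∑ D ∈ box 0 U, w D * (g D - c) ^ 2 := by
    rw [mul_sum, mul_sum, ← sum_add_distrib]
    refine sum_le_sum fun D _ => ?_
    have := mul_nonneg (hw D).le (sq_nonneg (f D - g D - (g D - c)))
    nlinarith
  have h5 := var_le hm f c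
  have h6 : bigE w f U s = ∑ u, Smo.eA w f U s u + ∑ u, (mvE w f U u (s u) + mvE w f U u (-s u)) := by
    rw [← sum_add_distrib]; rfl
  have h7 : 0 ≤ ∑ u, Smo.eA w f U s u := sum_nonneg fun u _ => Smo.eA_nonneg hw f u
  have h8 : 0 ≤ ∑ u, (mvE w f U u (s u) + mvE w f U u (-s u)) :=
    sum_nonneg fun u _ => add_nonneg (Smo.mvE_nonneg hw f u _) (Smo.mvE_nonneg hw f u _)
  have h9 := mul_nonneg (Nat.cast_nonneg (α := ℝ) (Fintype.card E)) h8
  have h10 := mul_nonneg (mul_nonneg (mul_nonneg hCP (sq_nonneg Γ)) (by linarith : 0 ≤ K)) h7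
  rw [h6]
  linarith

end Vale.Agent.P328
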