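import Vale.Agent.P328.Box

/-! From the covariance bound to a Poincare inequality by balanced splitting (job Split). -/

namespace Vale.Agent.P328

open Finset

variable {E : Type} [Fintype E] [DecidableEq E]

namespace Spl

lemma between_le {m1 m2 f1 f2 x1 x2 z1 z2 R h T G : ℝ} (hm1 : 0 < m1) (hm2 : 0 < m2)
    (c0 : ((z1 + z2) - (f1 + f2) * (x1 + x2) / (m1 + m2)) ^ 2 ≤ h ^ 2 * R * (m1 + m2))
    (c1 : (z1 - f1 * x1 / m1) ^ 2 ≤ h ^ 2 * R * (m1 + m2))
    (c2 : (z2 - f2 * x2 / m2) ^ 2 ≤ h ^ 2 * R * (m1 + m2))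
    (hT1 : m1 + m2 ≤ T * m1) (hT2 : m1 + m2 ≤ T * m2) (hgap : h ≤ G * (x2 / m2 - x1 / m1))
    (hpos : 0 < x2 / m2 - x1 / m1) (hh : 0 ≤ h) (hR : 0 ≤ R) :
    f1 ^ 2 / m1 + f2 ^ 2 / m2 - (f1 + f2) ^ 2 / (m1 + m2) ≤ 9 * R * T ^ 2 * G ^ 2 := by
  have hm : 0 < m1 + m2 := by positivity
  have e1 : f1 ^ 2 / m1 + f2 ^ 2 / m2 - (f1 + f2) ^ 2 / (m1 + m2)
      = m1 * m2 / (m1 + m2) * (f2 / m2 - f1 / m1) ^ 2 := by field_simp; ring
  have e2 : ((z1 + z2) - (f1 + f2) * (x1 + x2) / (m1 + m2)) - (z1 - f1 * x1 / m1)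
      - (z2 - f2 * x2 / m2) = m1 * m2 / (m1 + m2) * (f2 / m2 - f1 / m1) * (x2 / m2 - x1 / m1) := by
    field_simp; ring
  have e3 : m1 + m2 ≤ T ^ 2 * (m1 * m2 / (m1 + m2)) := by
    rw [← mul_div_assoc, le_div_iff₀ hm]
    have := mul_le_mul hT1 hT2 hm.le (hm.le.trans hT1)
    nlinarith
  have hμ : 0 < m1 * m2 / (m1 + m2) := by positivity
  rw [e1]
  generalize m1 * m2 / (m1 + m2) = μ at *
  generalize f2 / m2 - f1 / m1 = Δ at *
  generalize x2 / m2 - x1 / m1 = γ at *
  generalize (z1 + z2) - (f1 + f2) * (x1 + x2) / (m1 + m2) = a at *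
  generalize z1 - f1 * x1 / m1 = b at *
  generalize z2 - f2 * x2 / m2 = c at *
  generalize m1 + m2 = m at *
  have h1 : (μ * Δ * γ) ^ 2 ≤ 9 * (h ^ 2 * R * m) := by
    rw [← e2]; nlinarith [sq_nonneg (a + b), sq_nonneg (a + c), sq_nonneg (b - c)]
  have h2 : h ^ 2 ≤ (G * γ) ^ 2 := pow_le_pow_left₀ hh hgap 2
  have h3 : h ^ 2 * R * m ≤ (G * γ) ^ 2 * R * (T ^ 2 * μ) := by gcongr
  have h4 : (μ * γ ^ 2) * (μ * Δ ^ 2) ≤ (μ * γ ^ 2) * (9 * R * T ^ 2 * G ^ 2) := by nlinarith
  exact le_of_mul_le_mul_left h4 (by positivity)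

omit [DecidableEq E] in
lemma box_ne {lo hi : E → ℤ} [DecidableEq E] (hle : ∀ u, lo u ≤ hi u) : lo ∈ box lo hi :=
  mem_box.2 fun u => ⟨le_rfl, hle u⟩

lemma mass_pos {w : (E → ℤ) → ℝ} (hw : ∀ D, 0 < w D) {lo hi : E → ℤ} (hle : ∀ u, lo u ≤ hi u) :
    0 < ∑ D ∈ box lo hi, w D := sum_pos (fun D _ => hw D) ⟨lo, box_ne hle⟩

lemma cov_sq_le {w : (E → ℤ) → ℝ} (hw : ∀ D, 0 < w D) {C : ℝ} (hcov : CovB w C)
    {lo hi : E → ℤ} (hle : ∀ u, lo u ≤ hi u) (f : (E → ℤ) → ℝ) (v : E) :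
    (∑ D ∈ box lo hi, w D * f D * (D v : ℝ) - (∑ D ∈ box lo hi, w D * f D) *
      (∑ D ∈ box lo hi, w D * (D v : ℝ)) / ∑ D ∈ box lo hi, w D) ^ 2 ≤
    ((hi v : ℝ) - lo v) ^ 2 * (C * energy w f lo hi) * ∑ D ∈ box lo hi, w D := by
  have h := hcov lo hi hle f v
  have hm := mass_pos hw hle
  simp only [mul_sub, sum_sub_distrib, ← sum_mul] at h
  generalize ∑ D ∈ box lo hi, w D = m at *
  generalize ∑ D ∈ box lo hi, w D * f D = a at *
  generalize ∑ D ∈ box lo hi, w D * (D v : ℝ) = x at *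
  generalize ∑ D ∈ box lo hi, w D * f D * (D v : ℝ) = z at *
  have e : m * z - m * (a * lo v) - (a * x - a * (m * lo v)) = m * (z - a * x / m) := by
    field_simp; ring
  rw [e] at h
  have h2 : m ^ 2 * (z - a * x / m) ^ 2 ≤
      m ^ 2 * (((hi v : ℝ) - lo v) ^ 2 * (C * energy w f lo hi) * m) := by nlinarith
  exact le_of_mul_le_mul_left h2 (by positivity)

omit [Fintype E] in
lemma shift_le {w : (E → ℤ) → ℝ} (hw : ∀ D, 0 < w D) {S T : Finset (E → ℤ)} (e : E → ℤ) {c : ℝ}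
    (hc : 0 ≤ c) (hST : ∀ D ∈ S, D + e ∈ T) (h : ∀ D, w D ≤ c * w (D + e)) :
    ∑ D ∈ S, w D ≤ c * ∑ D ∈ T, w D := by
  classical
  calc ∑ D ∈ S, w D ≤ ∑ D ∈ S, c * w (D + e) := sum_le_sum fun D _ => h D
    _ = c * ∑ D ∈ S.image (· + e), w D := by
      rw [← mul_sum, sum_image fun x _ y _ hxy => add_right_cancel hxy]
    _ ≤ _ := by
      refine mul_le_mul_of_nonneg_left (sum_le_sum_of_subset_of_nonneg ?_ fun D _ _ => (hw D).le) hc
      intro D hD
      obtain ⟨x, hx, rfl⟩ := mem_image.1 hD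
      exact hST x hx

lemma add_mem_box {lo hi D : E → ℤ} (hD : D ∈ box lo hi) {v : E} {δ : ℤ} (h1 : lo v ≤ D v + δ)
    (h2 : D v + δ ≤ hi v) : D + Pi.single v δ ∈ box lo hi := by
  rw [mem_box] at hD ⊢
  intro u
  by_cases h : u = v
  · subst h; simpa using ⟨h1, h2⟩
  · simpa [h] using hD u

lemma box_lower {lo hi : E → ℤ} {v : E} {p : ℤ} (hp : p ≤ hi v) :
    box lo (Function.update hi v p) = (box lo hi).filter fun D => D v ≤ p := by
  ext D
  simp only [mem_filter, mem_box]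
  constructor
  · intro h
    have h1 := h v
    simp only [Function.update_self] at h1
    refine ⟨fun u => ?_, h1.2⟩
    by_cases hu : u = v
    · subst hu; omega
    · simpa [hu] using h u
  · rintro ⟨h, h1⟩ u
    by_cases hu : u = v
    · subst hu; simpa using ⟨(h u).1, h1⟩
    · simpa [hu] using h u

lemma box_upper {lo hi : E → ℤ} {v : E} {p : ℤ} (hp : lo v ≤ p + 1) :
    box (Function.update lo v (p + 1)) hi = (box lo hi).filter fun D => ¬ D v ≤ p := by
  ext D
  simp only [mem_filter, mem_box]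
  constructor
  · intro h
    have h1 := h v
    simp only [Function.update_self] at h1
    refine ⟨fun u => ?_, by omega⟩
    by_cases hu : u = v
    · subst hu; omega
    · simpa [hu] using h u
  · rintro ⟨h, h1⟩ u
    by_cases hu : u = v
    · subst hu; simpa using ⟨by omega, (h u).2⟩
    · simpa [hu] using h u

lemma exists_cut {w : (E → ℤ) → ℝ} (hw : ∀ D, 0 < w D) {K : ℕ}
    (hup : ∀ D u, w (D + Pi.single u 1) ≤ K * w D) (hdown : ∀ D u, w D ≤ K * w (D + Pi.single u 1))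
    {lo hi : E → ℤ} (hle : ∀ u, lo u ≤ hi u) {v : E} (hv : lo v < hi v) :
    ∃ p, lo v ≤ p ∧ p < hi v ∧
      ∑ D ∈ box lo hi, w D ≤ (K + 2) * ∑ D ∈ (box lo hi).filter (fun D => D v ≤ p), w D ∧
      ∑ D ∈ box lo hi, w D ≤ (K + 2) * ∑ D ∈ (box lo hi).filter (fun D => ¬ D v ≤ p), w D := by
  have hm := mass_pos hw hle
  have hK : (0 : ℝ) ≤ K := Nat.cast_nonneg K
  obtain ⟨p, ⟨hp1, hp2⟩, hp3⟩ := Int.exists_least_of_bdd (P := fun p => lo v ≤ p ∧
    ∑ D ∈ box lo hi, w D ≤ (K + 2) * ∑ D ∈ (box lo hi).filter (fun D => D v ≤ p), w D)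
    ⟨lo v, fun z hz => hz.1⟩ ⟨hi v, hle v, by
      rw [filter_true_of_mem fun D hD => (mem_box.1 hD v).2]; nlinarith⟩
  have hs := sum_filter_add_sum_filter_not (box lo hi) (fun D => D v ≤ p) w
  have hG : 0 ≤ ∑ D ∈ (box lo hi).filter (fun D => ¬ D v ≤ p), w D :=
    sum_nonneg fun D _ => (hw D).le
  rcases hp1.eq_or_lt with h | h
  · refine ⟨p, hp1, by omega, hp2, ?_⟩
    have := shift_le hw (S := (box lo hi).filter fun D => D v ≤ p)
      (T := (box lo hi).filter fun D => ¬ D v ≤ p) (Pi.single v 1) hK (fun D hD => by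
        rw [mem_filter] at hD ⊢
        have := (mem_box.1 hD.1 v).1
        exact ⟨add_mem_box hD.1 (by omega) (by omega), by simp; omega⟩) fun D => hdown D v
    nlinarith
  · have h1 : (K + 2) * ∑ D ∈ (box lo hi).filter (fun D => D v ≤ p - 1), w D
        < ∑ D ∈ box lo hi, w D := by
      by_contra h1
      have := hp3 (p - 1) ⟨by omega, not_lt.1 h1⟩
      omega
    have h2 := shift_le hw (S := ((box lo hi).filter fun D => D v ≤ p).filter fun D => ¬ D v ≤ p - 1)
      (T := (box lo hi).filter fun D => D v ≤ p - 1) (Pi.single v (-1)) hK (fun D hD => by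
        rw [mem_filter, mem_filter] at hD
        rw [mem_filter]
        have := (mem_box.1 hD.1.1 v).2
        exact ⟨add_mem_box hD.1.1 (by omega) (by omega), by simp; omega⟩) fun D => by
        have := hup (D + Pi.single v (-1)) v
        rwa [add_assoc, ← Pi.single_add, neg_add_cancel, Pi.single_zero, add_zero] at this
    have h3 := sum_filter_add_sum_filter_not ((box lo hi).filter fun D => D v ≤ p)
      (fun D => D v ≤ p - 1) w
    rw [filter_filter, filter_congr (q := fun D => D v ≤ p - 1) fun D _ => by omega] at h3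
    have h4 : ∑ D ∈ box lo hi, w D
        < (K + 2) * ∑ D ∈ (box lo hi).filter (fun D => ¬ D v ≤ p), w D := by nlinarith
    refine ⟨p, hp1, ?_, hp2, h4.le⟩
    by_contra h5
    rw [filter_false_of_mem fun D hD => by have := (mem_box.1 hD v).2; omega] at h4
    simp at h4; linarith

lemma gap_up {w : (E → ℤ) → ℝ} (hw : ∀ D, 0 < w D) {lo hi : E → ℤ} {v : E} {j : ℕ}
    (hg : ∀ D, w D ≤ 2 * w (D + Pi.single v (j : ℤ))) (hj : lo v + 2 * j ≤ hi v + 1) :
    ((lo v : ℝ) + j / 3) * ∑ D ∈ box lo hi, w D ≤ ∑ D ∈ box lo hi, w D * (D v : ℝ) := by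
  have h1 := shift_le hw (S := (box lo hi).filter fun D => D v < lo v + j)
    (T := (box lo hi).filter fun D => ¬ D v < lo v + j) (Pi.single v (j : ℤ)) zero_le_two
    (fun D hD => by
      rw [mem_filter] at hD ⊢
      have := (mem_box.1 hD.1 v).1
      exact ⟨add_mem_box hD.1 (by omega) (by omega), by simp; omega⟩) hg
  have h2 := sum_filter_add_sum_filter_not (box lo hi) (fun D => D v < lo v + j) w
  have h3 : (lo v : ℝ) * ∑ D ∈ box lo hi, w D
      + j * ∑ D ∈ (box lo hi).filter (fun D => ¬ D v < lo v + j), w D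
      ≤ ∑ D ∈ box lo hi, w D * (D v : ℝ) := by
    rw [sum_filter, mul_sum, mul_sum, ← sum_add_distrib]
    refine sum_le_sum fun D hD => ?_
    have h4 := (mem_box.1 hD v).1
    have h5 := hw D
    split_ifs with h6
    · have : (lo v : ℝ) ≤ D v := by exact_mod_cast h4
      nlinarith
    · have : (lo v : ℝ) + j ≤ D v := by exact_mod_cast not_lt.1 h6
      nlinarith
  have hj0 : (0 : ℝ) ≤ j := Nat.cast_nonneg j
  nlinarith

lemma gap_down {w : (E → ℤ) → ℝ} (hw : ∀ D, 0 < w D) {lo hi : E → ℤ} {v : E} {j : ℕ}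
    (hg : ∀ D, w D ≤ 2 * w (D + Pi.single v (-(j : ℤ)))) (hj : lo v + 2 * j ≤ hi v + 1) :
    ∑ D ∈ box lo hi, w D * (D v : ℝ) ≤ ((hi v : ℝ) - j / 3) * ∑ D ∈ box lo hi, w D := by
  have h1 := shift_le hw (S := (box lo hi).filter fun D => hi v - j < D v)
    (T := (box lo hi).filter fun D => ¬ hi v - j < D v) (Pi.single v (-(j : ℤ))) zero_le_two
    (fun D hD => by
      rw [mem_filter] at hD ⊢
      have := (mem_box.1 hD.1 v).2
      exact ⟨add_mem_box hD.1 (by omega) (by omega), by simp; omega⟩) hg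
  have h2 := sum_filter_add_sum_filter_not (box lo hi) (fun D => hi v - j < D v) w
  have h3 : ∑ D ∈ box lo hi, w D * (D v : ℝ)
      + j * ∑ D ∈ (box lo hi).filter (fun D => ¬ hi v - j < D v), w D
      ≤ (hi v : ℝ) * ∑ D ∈ box lo hi, w D := by
    rw [sum_filter, mul_sum, mul_sum, ← sum_add_distrib]
    refine sum_le_sum fun D hD => ?_
    have h4 := (mem_box.1 hD v).2
    have h5 := hw D
    split_ifs with h6
    · have : (D v : ℝ) ≤ hi v := by exact_mod_cast h4
      nlinarith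
    · have : (D v : ℝ) ≤ hi v - j := by exact_mod_cast not_lt.1 h6
      nlinarith
  have hj0 : (0 : ℝ) ≤ j := Nat.cast_nonneg j
  nlinarith

lemma dir_nonneg {w : (E → ℤ) → ℝ} (hw : ∀ D, 0 < w D) (f : (E → ℤ) → ℝ) (lo hi : E → ℤ) (u : E) :
    0 ≤ dir w f lo hi u := sum_nonneg fun D _ => mul_nonneg (hw D).le (sq_nonneg _)

lemma energy_nonneg {w : (E → ℤ) → ℝ} (hw : ∀ D, 0 < w D) (f : (E → ℤ) → ℝ) (lo hi : E → ℤ) :
    0 ≤ energy w f lo hi := sum_nonneg fun u _ => mul_nonneg (sq_nonneg _) (dir_nonneg hw f lo hi u)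

lemma energy_split {w : (E → ℤ) → ℝ} (hw : ∀ D, 0 < w D) (f : (E → ℤ) → ℝ) {lo hi : E → ℤ}
    (hle : ∀ u, lo u ≤ hi u) {v : E} {p : ℤ} (h1 : lo v ≤ p) (h2 : p < hi v) :
    energy w f lo (Function.update hi v p) + energy w f (Function.update lo v (p + 1)) hi
      ≤ energy w f lo hi := by
  unfold energy
  rw [← sum_add_distrib]
  refine sum_le_sum fun u _ => ?_
  have d1 := dir_nonneg hw f lo (Function.update hi v p) u
  have d2 := dir_nonneg hw f (Function.update lo v (p + 1)) hi u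
  have a1 : lo u ≤ Function.update hi v p u ∧ Function.update hi v p u ≤ hi u := by
    by_cases hu : u = v
    · subst hu; simp; omega
    · simpa [hu] using hle u
  have a2 : lo u ≤ Function.update lo v (p + 1) u ∧ Function.update lo v (p + 1) u ≤ hi u := by
    by_cases hu : u = v
    · subst hu; simp; omega
    · simpa [hu] using hle u
  have d3 : dir w f lo (Function.update hi v p) u + dir w f (Function.update lo v (p + 1)) hi u
      ≤ dir w f lo hi u := by
    unfold dir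
    rw [box_lower h2.le, box_upper (by omega), ← sum_filter_add_sum_filter_not
      ((box lo hi).filter fun D => D u < hi u) (fun D => D v ≤ p),
      filter_comm (fun D : E → ℤ => D u < hi u), filter_comm (fun D : E → ℤ => D u < hi u)]
    refine add_le_add (sum_le_sum_of_subset_of_nonneg ?_ fun D _ _ =>
      mul_nonneg (hw D).le (sq_nonneg _)) le_rfl
    intro D hD
    rw [mem_filter] at hD ⊢
    exact ⟨hD.1, by omega⟩
  have b1 : (((Function.update hi v p u : ℤ) : ℝ) - lo u + 1) ^ 2 ≤ ((hi u : ℝ) - lo u + 1) ^ 2 := by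
    have e1 : (lo u : ℝ) ≤ (Function.update hi v p u : ℤ) := by exact_mod_cast a1.1
    have e2 : ((Function.update hi v p u : ℤ) : ℝ) ≤ hi u := by exact_mod_cast a1.2
    exact pow_le_pow_left₀ (by linarith) (by linarith) 2
  have b2 : ((hi u : ℝ) - (Function.update lo v (p + 1) u : ℤ) + 1) ^ 2
      ≤ ((hi u : ℝ) - lo u + 1) ^ 2 := by
    have e1 : (lo u : ℝ) ≤ (Function.update lo v (p + 1) u : ℤ) := by exact_mod_cast a2.1
    have e2 : ((Function.update lo v (p + 1) u : ℤ) : ℝ) ≤ hi u := by exact_mod_cast a2.2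
    exact pow_le_pow_left₀ (by linarith) (by linarith) 2
  have := mul_le_mul_of_nonneg_right b1 d1
  have := mul_le_mul_of_nonneg_right b2 d2
  have := mul_le_mul_of_nonneg_left d3 (sq_nonneg ((hi u : ℝ) - lo u + 1))
  linarith

lemma cov_half {w : (E → ℤ) → ℝ} (hw : ∀ D, 0 < w D) {C : ℝ} (hC : 0 ≤ C) (hcov : CovB w C)
    {lo hi : E → ℤ} (hle : ∀ u, lo u ≤ hi u) (f : (E → ℤ) → ℝ) (v : E) {h R m : ℝ}
    (h1 : (hi v : ℝ) - lo v ≤ h) (h2 : energy w f lo hi ≤ R) (h3 : ∑ D ∈ box lo hi, w D ≤ m) :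
    (∑ D ∈ box lo hi, w D * f D * (D v : ℝ) - (∑ D ∈ box lo hi, w D * f D) *
      (∑ D ∈ box lo hi, w D * (D v : ℝ)) / ∑ D ∈ box lo hi, w D) ^ 2 ≤ h ^ 2 * (C * R) * m := by
  refine (cov_sq_le hw hcov hle f v).trans ?_
  have e1 : (lo v : ℝ) ≤ hi v := by exact_mod_cast hle v
  have e2 := energy_nonneg hw f lo hi
  have e3 := (mass_pos hw hle).le
  have e4 : 0 ≤ R := e2.trans h2
  gcongr

lemma step {w : (E → ℤ) → ℝ} (hw : ∀ D, 0 < w D) {C : ℝ} (hC : 0 ≤ C) (hcov : CovB w C)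
    {K : ℕ} (hup : ∀ D u, w (D + Pi.single u 1) ≤ K * w D)
    (hdown : ∀ D u, w D ≤ K * w (D + Pi.single u 1)) {g : E → ℕ}
    (hg : ∀ D u (δ : ℤ), |δ| ≤ g u → w D ≤ 2 * w (D + Pi.single u δ))
    {lo hi : E → ℤ} (hle : ∀ u, lo u ≤ hi u) {Γ : ℕ} {v : E} (hv : lo v < hi v)
    (hΓ : hi v - lo v ≤ Γ * (g v + 1)) (f : (E → ℤ) → ℝ) :
    ∃ p, lo v ≤ p ∧ p < hi v ∧
      (K + 2) * ∑ D ∈ box lo (Function.update hi v p), w D ≤ (K + 1) * ∑ D ∈ box lo hi, w D ∧
      (K + 2) * ∑ D ∈ box (Function.update lo v (p + 1)) hi, w D ≤ (K + 1) * ∑ D ∈ box lo hi, w D ∧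
      var (box lo hi) w f ≤ var (box lo (Function.update hi v p)) w f
        + var (box (Function.update lo v (p + 1)) hi) w f
        + (81 * C * (Γ + 4) ^ 2 * (K + 2) ^ 2) * energy w f lo hi := by
  obtain ⟨p, hp1, hp2, hp3, hp4⟩ := exists_cut hw hup hdown hle hv
  rw [← box_lower hp2.le] at hp3
  rw [← box_upper (by omega)] at hp4
  have hs : ∀ F : (E → ℤ) → ℝ, ∑ D ∈ box lo hi, F D = ∑ D ∈ box lo (Function.update hi v p), F D
      + ∑ D ∈ box (Function.update lo v (p + 1)) hi, F D := fun F => by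
    rw [box_lower hp2.le, box_upper (by omega), sum_filter_add_sum_filter_not]
  have l1 : ∀ u, lo u ≤ Function.update hi v p u := fun u => by
    by_cases hu : u = v
    · subst hu; simpa using hp1
    · simpa [hu] using hle u
  have l2 : ∀ u, Function.update lo v (p + 1) u ≤ hi u := fun u => by
    by_cases hu : u = v
    · subst hu; simpa using hp2
    · simpa [hu] using hle u
  have m1 := mass_pos hw l1
  have m2 := mass_pos hw l2
  have hm := hs w
  have hE := energy_split hw f hle hp1 hp2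
  have hE1 := energy_nonneg hw f lo (Function.update hi v p)
  have hE2 := energy_nonneg hw f (Function.update lo v (p + 1)) hi
  have r1 : (lo v : ℝ) ≤ p := by exact_mod_cast hp1
  have r2 : (p : ℝ) + 1 ≤ hi v := by exact_mod_cast hp2
  have c0 := cov_half hw hC hcov hle f v le_rfl le_rfl le_rfl
  have c1 := cov_half hw hC hcov l1 f v (h := (hi v : ℝ) - lo v) (R := energy w f lo hi)
    (m := ∑ D ∈ box lo hi, w D) (by simp; linarith) (by linarith) (by linarith)
  have c2 := cov_half hw hC hcov l2 f v (h := (hi v : ℝ) - lo v) (R := energy w f lo hi)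
    (m := ∑ D ∈ box lo hi, w D) (by simp; linarith) (by linarith) (by linarith)
  have hgap : ∃ j : ℕ, hi v - lo v ≤ (Γ + 4) * (j + 1) ∧ (1 : ℝ) + j / 3 ≤
      (∑ D ∈ box (Function.update lo v (p + 1)) hi, w D * (D v : ℝ))
        / (∑ D ∈ box (Function.update lo v (p + 1)) hi, w D)
      - (∑ D ∈ box lo (Function.update hi v p), w D * (D v : ℝ))
        / ∑ D ∈ box lo (Function.update hi v p), w D := by
    have key : ∀ j1 j2 : ℕ, j1 ≤ g v → j2 ≤ g v → lo v + 2 * j1 ≤ p + 1 → p + 1 + 2 * j2 ≤ hi v + 1 →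
        (1 : ℝ) + (j1 + j2 : ℕ) / 3 ≤
      (∑ D ∈ box (Function.update lo v (p + 1)) hi, w D * (D v : ℝ))
        / (∑ D ∈ box (Function.update lo v (p + 1)) hi, w D)
      - (∑ D ∈ box lo (Function.update hi v p), w D * (D v : ℝ))
        / ∑ D ∈ box lo (Function.update hi v p), w D := by
      intro j1 j2 a1 a2 a3 a4
      have g1 := gap_down hw (lo := lo) (hi := Function.update hi v p) (v := v) (j := j1)
        (fun D => hg D v _ (by simpa using a1)) (by simpa using a3)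
      have g2 := gap_up hw (lo := Function.update lo v (p + 1)) (hi := hi) (v := v) (j := j2)
        (fun D => hg D v _ (by simpa using a2)) (by simpa using a4)
      rw [← div_le_iff₀ m1] at g1
      rw [← le_div_iff₀ m2] at g2
      simp only [Function.update_self] at g1 g2
      push_cast at g2 ⊢
      linarith
    have fin : ∀ L j : ℕ, hi v - lo v + 1 ≤ 2 * L → j = min (g v) (L / 2) →
        hi v - lo v ≤ (Γ + 4) * (j + 1) := by
      intro L j a1 a2
      have a3 : (0 : ℤ) ≤ Γ * (j + 1) := by positivity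
      rcases le_total (g v) (L / 2) with a4 | a4
      · rw [min_eq_left a4] at a2
        rw [a2]; nlinarith
      · rw [min_eq_right a4] at a2
        have : hi v - lo v ≤ 4 * (j + 1) := by omega
        nlinarith
    rcases le_total (p + 1 - lo v) (hi v - p) with a | a
    · refine ⟨0 + min (g v) ((hi v - p).toNat / 2), fin (hi v - p).toNat _ (by omega) (by omega),
        key 0 _ (by omega) (by omega) (by omega) (by omega)⟩
    · refine ⟨min (g v) ((p + 1 - lo v).toNat / 2) + 0, fin (p + 1 - lo v).toNat _ (by omega)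
        (by omega), key _ 0 (by omega) (by omega) (by omega) (by omega)⟩
  obtain ⟨j, hj1, hj2⟩ := hgap
  have hj0 : (0 : ℝ) ≤ j := Nat.cast_nonneg j
  have hj3 : (hi v : ℝ) - lo v ≤ (Γ + 4) * (j + 1) := by exact_mod_cast hj1
  have hΓ0 : (0 : ℝ) ≤ Γ := Nat.cast_nonneg Γ
  rw [hs fun D => w D * f D * (D v : ℝ), hs fun D => w D * f D, hs fun D => w D * (D v : ℝ), hm] at c0
  rw [hm] at c1 c2 hp3 hp4
  have hb := between_le (G := 3 * (Γ + 4)) m1 m2 c0 c1 c2 hp3 hp4 (by nlinarith) (by linarith)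
    (by linarith) (mul_nonneg hC (energy_nonneg hw f lo hi))
  refine ⟨p, hp1, hp2, by rw [hm]; linarith, by rw [hm]; linarith, ?_⟩
  unfold var
  rw [hs fun D => w D * f D ^ 2, hs fun D => w D * f D, hm]
  linarith

end Spl

theorem poincare {w : (E → ℤ) → ℝ} (hw : ∀ D, 0 < w D) {C : ℝ} (hC : 0 ≤ C) (hcov : CovB w C)
    {K : ℕ} (hup : ∀ D u, w (D + Pi.single u 1) ≤ K * w D)
    (hdown : ∀ D u, w D ≤ K * w (D + Pi.single u 1)) {g : E → ℕ}
    (hg : ∀ D u (δ : ℤ), |δ| ≤ g u → w D ≤ 2 * w (D + Pi.single u δ))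
    {lo hi : E → ℤ} (hle : ∀ u, lo u ≤ hi u) {Γ : ℕ}
    (hΓ : ∀ u, hi u - lo u + 1 ≤ Γ * (g u + 1)) {d : ℕ}
    (hd : ∀ D ∈ box lo hi, ∑ x ∈ box lo hi, w x ≤ 2 ^ d * w D) (f : (E → ℤ) → ℝ) :
    var (box lo hi) w f ≤
      (K + 2) * (d + 1) * (81 * C * (Γ + 4) ^ 2 * (K + 2) ^ 2) * energy w f lo hi := by
  have hK : (0 : ℝ) ≤ K := Nat.cast_nonneg K
  have hc : 0 ≤ 81 * C * ((Γ : ℝ) + 4) ^ 2 * ((K : ℝ) + 2) ^ 2 := by positivity
  have key : ∀ (n : ℕ) (lo' hi' : E → ℤ), (∀ u, lo u ≤ lo' u) → (∀ u, lo' u ≤ hi' u) →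
      (∀ u, hi' u ≤ hi u) →
      2 ^ d * (∑ D ∈ box lo' hi', w D) * ((K + 1) / (K + 2)) ^ n < ∑ D ∈ box lo hi, w D →
      var (box lo' hi') w f ≤ n * (81 * C * (Γ + 4) ^ 2 * (K + 2) ^ 2) * energy w f lo' hi' := by
    intro n
    induction n with
    | zero =>
      intro lo' hi' h1 h2 h3 h4
      exfalso
      have h5 := hd lo' (mem_box.2 fun u => ⟨h1 u, (h2 u).trans (h3 u)⟩)
      have h6 : w lo' ≤ ∑ D ∈ box lo' hi', w D :=
        single_le_sum (fun D _ => (hw D).le) (Spl.box_ne h2)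
      have h7 : (2 : ℝ) ^ d * w lo' ≤ 2 ^ d * ∑ D ∈ box lo' hi', w D := by gcongr
      simp only [pow_zero, mul_one] at h4
      linarith
    | succ n ih =>
      intro lo' hi' h1 h2 h3 h4
      have hE := Spl.energy_nonneg hw f lo' hi'
      by_cases hv : ∃ v, lo' v < hi' v
      · obtain ⟨v, hv⟩ := hv
        obtain ⟨p, p1, p2, p3, p4, p5⟩ := Spl.step hw hC hcov hup hdown hg h2 (Γ := Γ) hv
          (by have := hΓ v; have := h1 v; have := h3 v; omega) f
        have mass : ∀ m' : ℝ, (K + 2) * m' ≤ (K + 1) * ∑ D ∈ box lo' hi', w D →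
            2 ^ d * m' * ((K + 1) / (K + 2)) ^ n < ∑ D ∈ box lo hi, w D := by
          intro m' hm'
          refine lt_of_le_of_lt ?_ h4
          have : m' ≤ (∑ D ∈ box lo' hi', w D) * ((K + 1) / (K + 2)) := by
            rw [← mul_div_assoc, le_div_iff₀ (by positivity)]; linarith
          rw [pow_succ', mul_assoc, mul_assoc, ← mul_assoc (∑ D ∈ box lo' hi', w D)]
          gcongr
        have i1 := ih lo' (Function.update hi' v p) h1 (fun u => by
          by_cases hu : u = v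
          · subst hu; simpa using p1
          · simpa [hu] using h2 u) (fun u => by
          by_cases hu : u = v
          · subst hu; simpa using p2.le.trans (h3 u)
          · simpa [hu] using h3 u) (mass _ p3)
        have i2 := ih (Function.update lo' v (p + 1)) hi' (fun u => by
          by_cases hu : u = v
          · subst hu; have := h1 u; simp; omega
          · simpa [hu] using h1 u) (fun u => by
          by_cases hu : u = v
          · subst hu; simpa using p2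
          · simpa [hu] using h2 u) h3 (mass _ p4)
        have i3 := mul_le_mul_of_nonneg_left (Spl.energy_split hw f h2 p1 p2)
          (mul_nonneg (Nat.cast_nonneg n) hc)
        push_cast
        linarith
      · have e : box lo' hi' = {lo'} := by
          ext D
          rw [mem_box, mem_singleton]
          push Not at hv
          constructor
          · intro h; funext u; have := h u; have := hv u; omega
          · rintro rfl u; exact ⟨le_rfl, h2 u⟩
        have e2 : var (box lo' hi') w f = 0 := by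
          have := (hw lo').ne'
          rw [e, var]; simp only [sum_singleton]; field_simp; ring
        rw [e2]; positivity
  have h := key ((K + 2) * (d + 1)) lo hi (fun _ => le_rfl) hle (fun _ => le_rfl) (by
    have hm := Spl.mass_pos hw hle
    have h1 : (((K : ℝ) + 1) / (K + 2)) ^ (K + 2) ≤ 1 / 2 := by
      have h2 : (1 : ℝ) + (K + 2 : ℕ) * (1 / (K + 1)) ≤ (1 + 1 / (K + 1)) ^ (K + 2) :=
        one_add_mul_le_pow (by
          have : (0 : ℝ) ≤ 1 / (K + 1) := by positivity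
          linarith) _
      have h3 : (2 : ℝ) ≤ 1 + (K + 2 : ℕ) * (1 / (K + 1)) := by
        push_cast
        rw [mul_one_div, ← sub_le_iff_le_add', le_div_iff₀ (by positivity)]; linarith
      have h4 : ((K : ℝ) + 1) / (K + 2) = (1 + 1 / ((K : ℝ) + 1))⁻¹ := by field_simp; ring
      rw [h4, inv_pow, one_div (2 : ℝ)]
      exact inv_anti₀ two_pos (h3.trans h2)
    have h5 : (((K : ℝ) + 1) / (K + 2)) ^ ((K + 2) * (d + 1)) ≤ (1 / 2) ^ (d + 1) := by
      rw [pow_mul]; gcongr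
    calc _ ≤ 2 ^ d * (∑ D ∈ box lo hi, w D) * (1 / 2) ^ (d + 1) := by gcongr
      _ = (∑ D ∈ box lo hi, w D) / 2 := by rw [one_div, inv_pow, pow_succ]; field_simp
      _ < _ := by linarith)
  push_cast at h
  exact h

end Vale.Agent.P328
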