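import Vale.Agent.P328.Lip
import Vale.Agent.P328.Fill
import Vale.Agent.P328.Cov
import Vale.Agent.P328.Split
import Vale.Agent.P328.Smooth
import Vale.Agent.P328.Chain

/-! The spectral gap of the chain and the law of one trial (job Gap). -/

namespace Vale.Agent.P328

open Finset

namespace Inst

variable (I : Inst)

lemma poincare_unit (f : (I.Cell → ℤ) → ℝ) :
    var (box 0 I.U) I.w f ≤ (CP I.M I.N : ℕ) * energy I.w f 0 I.U := by
  obtain ⟨H, hH, hw⟩ := I.exists_good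
  have hL : (1 : ℝ) ≤ (Lam I.M : ℝ) ^ 2 := one_le_pow₀ (by exact_mod_cast I.Lam_pos)
  have hcov := covB_of_good hL hH
  rw [show (fun D => H (emb D)) = I.w from funext hw, card_Cell] at hcov
  refine (poincare I.w_pos (by positivity) hcov I.w_up I.w_down I.w_line (Γ := 3 * Lam I.M)
    I.U_nonneg (fun u => ?_) (fun D hD => I.sum_w_le hD) f).trans (le_of_eq ?_)
  · have h1 := Nat.lt_mul_div_succ (I.Un u + 1) (b := 3 * Lam I.M) (by have := I.Lam_pos; omega)
    have h2 : ((I.Un u + 1 : ℕ) : ℤ) ≤ ((3 * Lam I.M * ((I.Un u + 1) / (3 * Lam I.M) + 1) : ℕ) : ℤ) :=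
      Int.ofNat_le.2 h1.le
    rw [Nat.cast_mul _ (_ + 1), Nat.cast_add _ 1, Nat.cast_add _ 1] at h2
    simpa [U] using h2
  · rw [← pow_mul]; unfold CP; push_cast; rfl

lemma poincare_big (f : (I.Cell → ℤ) → ℝ) :
    var (box 0 I.U) I.w f ≤ (CS I.M I.N : ℕ) * bigE I.w f I.U I.s := by
  have hL : (1 : ℝ) ≤ (Lam I.M ^ 3 : ℕ) := by exact_mod_cast Nat.one_le_pow _ _ I.Lam_pos
  refine (smooth I.w_pos I.U_nonneg I.one_le_s I.s_le (Γ := (3 * Lam I.M * I.M : ℕ))
    (fun u => ?_) hL (Nat.cast_nonneg _) I.w_near I.w_down I.poincare_unit f).trans (le_of_eq ?_)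
  · have h1 := Nat.lt_mul_div_succ (I.Un u + 1) (b := 3 * Lam I.M * I.M)
      (by have := I.Lam_pos; have := I.M_pos; positivity)
    have h2 : I.Un u + 1 ≤ 3 * Lam I.M * I.M * I.s u := by rw [s, add_comm 1]; exact h1.le
    rw [U, Int.cast_natCast]
    exact_mod_cast h2
  · rw [card_Cell]; unfold CS; push_cast; ring

lemma sum_pos' {w : (I.Cell → ℤ) → ℝ} (hw : ∀ D, 0 < w D) : 0 < ∑ D ∈ box 0 I.U, w D :=
  sum_pos (fun _ _ => hw _) ⟨0, I.zero_mem⟩

theorem poincare_W (f : (I.Cell → ℤ) → ℝ) : var (box 0 I.U) I.W f ≤ (CC I.M I.N : ℕ) *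
    ∑ x ∈ box 0 I.U, ∑ y ∈ box 0 I.U,
      qm I.U I.s x y * (min (I.W x) (I.W y) * (f y - f x) ^ 2) := by
  have h1 : var (box 0 I.U) I.W f ≤ 2 * var (box 0 I.U) I.w f := by
    rw [var_eq (I.sum_pos' I.w_pos), mul_sum]
    refine (var_le (I.sum_pos' I.W_pos) f ((∑ x ∈ box 0 I.U, I.w x * f x) /
      ∑ x ∈ box 0 I.U, I.w x)).trans (sum_le_sum fun x _ => ?_)
    rw [← mul_assoc]
    exact mul_le_mul_of_nonneg_right (I.W_le x) (sq_nonneg _)
  have hL : (1 : ℝ) ≤ (Lam I.M : ℝ) ^ 3 := one_le_pow₀ (by exact_mod_cast I.Lam_pos)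
  have h2 := bigE_le I.s_le (w := I.w) (W := I.W) (A := 2 * (Lam I.M : ℝ) ^ 3)
    (fun D hD u δ hδ => by
      rw [mul_min_of_nonneg _ _ (by positivity), le_min_iff]
      refine ⟨(I.w_le_W D).trans (le_mul_of_one_le_left (I.W_pos D).le (by linarith)),
        (I.w_mv hD u δ hδ).trans ?_⟩
      gcongr
      exact I.w_le_W _) f
  have h3 := (I.poincare_big f).trans (mul_le_mul_of_nonneg_left h2 (Nat.cast_nonneg _))
  rw [card_Cell] at h3
  refine h1.trans ((mul_le_mul_of_nonneg_left h3 two_pos.le).trans (le_of_eq ?_))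
  unfold CC; push_cast; ring

theorem mixing (k : ℕ) (f : (I.Cell → ℤ) → ℝ) (hf : ∀ x, |f x| ≤ 1) :
    |I.P^[TT I.M I.N k] f 0 - (∑ y ∈ box 0 I.U, I.W y * f y) / ∑ y ∈ box 0 I.U, I.W y| ≤
      (1 / 2) ^ (k + 5) := by
  refine mix_nat (fun x _ => I.W_pos x) (fun x _ y _ => qm_nonneg x y)
    (fun x hx => qm_sum I.one_le_s I.s_le hx) (fun x hx y hy => qm_symm hx hy) ?_ I.poincare_W f
    (fun x _ => hf x) I.zero_mem ?_
  · have := I.M_pos
    have := I.Lam_pos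
    exact Nat.succ_le_of_lt (by unfold CC CS; positivity)
  · have h1 := I.sum_w_le I.zero_mem
    have h2 := mul_le_mul_of_nonneg_left (I.w_le_W 0) (show (0 : ℝ) ≤ 2 ^ dd I.M I.N by positivity)
    have h3 := sum_le_sum (s := box 0 I.U) fun x _ => I.W_le x
    rw [← mul_sum] at h3
    rw [pow_succ]
    linarith

/-- the law of one trial: there is `a ≥ 1/4` such that a trial fails with probability about
`1 - a` and the output is about `a` times uniform -/
theorem trial_law (k : ℕ) : ∃ a : ℝ, 1 / 4 ≤ a ∧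
    I.P^[TT I.M I.N k] (fun D => (I.out D).elim 1 fun _ => 0) 0 ≤ 1 - a + (1 / 2) ^ (k + 5) ∧
    1 - a - (1 / 2) ^ (k + 5) ≤ I.P^[TT I.M I.N k] (fun D => (I.out D).elim 1 fun _ => 0) 0 ∧
    ∀ g : (Fin I.m → Fin I.n → ℕ) → ℝ, (∀ X, 0 ≤ g X ∧ g X ≤ 1) →
      a * ((∑ X ∈ Omega I.r I.c, g X) / (Omega I.r I.c).card) - (1 / 2) ^ (k + 5) ≤
        I.P^[TT I.M I.N k] (fun D => (I.out D).elim 0 g) 0 := by
  have hZ := I.sum_pos' I.W_pos
  have h4 := I.sum_W_le
  have hΩ : (0 : ℝ) < (Omega I.r I.c).card := by linarith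
  have h1 := abs_le.1 (I.mixing k (fun D => (I.out D).elim 1 fun _ => 0) fun D => by
    cases I.out D <;> simp)
  have h2 : ∑ y ∈ box 0 I.U, I.W y * (I.out y).elim 1 (fun _ => 0) =
      ∑ y ∈ box 0 I.U, I.W y - (Omega I.r I.c).card := by
    have := I.sum_W_out fun _ => 1
    rw [sum_const, nsmul_eq_mul, mul_one] at this
    rw [← this, ← sum_sub_distrib]
    refine sum_congr rfl fun y _ => ?_
    cases I.out y <;> simp
  rw [h2, sub_div, div_self hZ.ne'] at h1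
  refine ⟨(Omega I.r I.c).card / ∑ y ∈ box 0 I.U, I.W y, ?_, by linarith, by linarith,
    fun g hg => ?_⟩
  · rw [le_div_iff₀ hZ]; linarith
  · have h3 := abs_le.1 (I.mixing k (fun D => (I.out D).elim 0 g) fun D => by
      cases I.out D with
      | none => simp
      | some X => exact abs_le.2 ⟨by linarith [(hg X).1, Option.elim_some (0 : ℝ) g X], (hg X).2⟩)
    rw [I.sum_W_out] at h3
    rw [div_mul_div_comm, mul_comm (∑ y ∈ box 0 I.U, I.W y), mul_div_mul_left _ _ hΩ.ne']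
    linarith

end Inst

end Vale.Agent.P328
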