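import Vale.Agent.P328.Defs
import Vale.Agent.P328.Box

/-! The penalised weights on the box of off-cross entries (definitions). -/

namespace Vale.Agent.P328

open Finset

/-! parameters, as functions of the number `M` of cells and the total `N` -/

def Lam (M : ℕ) : ℕ := 4 * M ^ 3
def ell (M : ℕ) : ℕ := (2 * M ^ 3).size
def dd (M N : ℕ) : ℕ := M * N.size + 3 * Lam M * M
def CP (M N : ℕ) : ℕ := (Lam M ^ 3 + 2) * (dd M N + 1) *
  (81 * (4 * (M + 1) * Lam M ^ 12) * (3 * Lam M + 4) ^ 2 * (Lam M ^ 3 + 2) ^ 2)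
def CS (M N : ℕ) : ℕ := 2 * M + 2 * CP M N * (3 * Lam M * M) ^ 2 * Lam M ^ 3
def CC (M N : ℕ) : ℕ := 16 * M * Lam M ^ 3 * CS M N
def TT (M N k : ℕ) : ℕ := 4 * CC M N * (dd M N + 1 + 2 * (k + 5))

/-- the penalty rate of a cell with margins `a`, `b` -/
def lamQ (M a b : ℕ) : ℚ := min (ell M : ℚ) ((Lam M : ℚ) / ((min a b : ℕ) + 1))

/-- margins together with a largest row and a largest column -/
structure Inst where
  m : ℕ
  n : ℕ
  r : Fin m → ℕ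
  c : Fin n → ℕ
  i0 : Fin m
  j0 : Fin n
  hsum : ∑ i, r i = ∑ j, c j
  hi0 : ∀ i, r i ≤ r i0
  hj0 : ∀ j, c j ≤ c j0

namespace Inst

variable (I : Inst)

abbrev Cell := Fin I.m × Fin I.n

def M : ℕ := I.m * I.n
def N : ℕ := ∑ i, I.r i
def lam (i : Fin I.m) (j : Fin I.n) : ℚ := lamQ I.M (I.r i) (I.c j)
def Un (u : I.Cell) : ℕ := if u.1 = I.i0 ∨ u.2 = I.j0 then 0 else min (I.r u.1) (I.c u.2)
def U (u : I.Cell) : ℤ := I.Un u
def s (u : I.Cell) : ℕ := 1 + (I.Un u + 1) / (3 * Lam I.M * I.M)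
def row (D : I.Cell → ℤ) (i : Fin I.m) : ℤ := ∑ j, D (i, j)
def col (D : I.Cell → ℤ) (j : Fin I.n) : ℤ := ∑ i, D (i, j)
def tot (D : I.Cell → ℤ) : ℤ := ∑ i, I.row D i

def pen (D : I.Cell → ℤ) : ℚ :=
  ∑ i, I.lam i I.j0 * ((I.row D i - I.r i).toNat : ℚ) +
    ∑ j, I.lam I.i0 j * ((I.col D j - I.c j).toNat : ℚ) +
    I.lam I.i0 I.j0 * (((I.N : ℤ) - I.r I.i0 - I.c I.j0 - I.tot D).toNat : ℚ)

/-- the log-concave weight -/
noncomputable def w (D : I.Cell → ℤ) : ℝ := (2 : ℝ) ^ (-(I.pen D : ℝ))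

def ex (D : I.Cell → ℤ) : ℕ := ⌊I.pen D⌋.toNat

/-- the rounded weight -/
noncomputable def W (D : I.Cell → ℤ) : ℝ := (1 / 2) ^ I.ex D

/-- completion of the cross -/
def fill (D : I.Cell → ℤ) (u : I.Cell) : ℤ :=
  D u + (if u.2 = I.j0 then I.r u.1 - I.row D u.1 else 0) +
    (if u.1 = I.i0 then I.c u.2 - I.col D u.2 else 0) -
    if u.1 = I.i0 ∧ u.2 = I.j0 then I.N - I.tot D else 0

/-- the table coded by `D`, if there is one -/
def out (D : I.Cell → ℤ) : Option (Fin I.m → Fin I.n → ℕ) :=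
  if ∀ u, 0 ≤ I.fill D u then some fun i j => (I.fill D (i, j)).toNat else none

/-- the transition operator -/
noncomputable def P (f : (I.Cell → ℤ) → ℝ) : (I.Cell → ℤ) → ℝ :=
  MH (box 0 I.U) (qm I.U I.s) I.W f

lemma m_pos : 0 < I.m := I.i0.pos
lemma n_pos : 0 < I.n := I.j0.pos
lemma M_pos : 0 < I.M := Nat.mul_pos I.m_pos I.n_pos
lemma card_Cell : Fintype.card I.Cell = I.M := by simp [M]
instance : Nonempty I.Cell := ⟨(I.i0, I.j0)⟩
lemma U_nonneg (u : I.Cell) : 0 ≤ I.U u := Int.natCast_nonneg _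
lemma zero_mem : (0 : I.Cell → ℤ) ∈ box 0 I.U := mem_box.2 fun u => ⟨le_rfl, I.U_nonneg u⟩
lemma one_le_s (u : I.Cell) : 1 ≤ I.s u := Nat.le_add_right _ _

lemma s_le (u : I.Cell) : (I.s u : ℤ) ≤ I.U u + 1 := by
  have h1 := I.M_pos
  have h2 : 2 ≤ 3 * Lam I.M * I.M := by
    have : 0 < I.M ^ 3 := by positivity
    unfold Lam; nlinarith
  have h3 : (I.Un u + 1) / (3 * Lam I.M * I.M) ≤ (I.Un u + 1) / 2 :=
    Nat.div_le_div_left h2 two_pos
  unfold s U; omega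

lemma r_le_N (i : Fin I.m) : I.r i ≤ I.N :=
  single_le_sum (f := I.r) (fun _ _ => Nat.zero_le _) (mem_univ i)

lemma Un_le (u : I.Cell) : I.Un u ≤ min (I.r u.1) (I.c u.2) := by
  unfold Un; split_ifs <;> simp

lemma lam_pos (i : Fin I.m) (j : Fin I.n) : 0 < I.lam i j := by
  have h1 := I.M_pos
  have h2 : 0 < ell I.M := Nat.size_pos.2 (by positivity)
  have h3 : 0 < Lam I.M := by unfold Lam; positivity
  unfold lam lamQ
  positivity

lemma pen_nonneg (D : I.Cell → ℤ) : 0 ≤ I.pen D := by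
  have := fun i j => (I.lam_pos i j).le
  unfold pen
  have h1 : 0 ≤ ∑ i, I.lam i I.j0 * ((I.row D i - I.r i).toNat : ℚ) :=
    sum_nonneg fun i _ => mul_nonneg (this _ _) (Nat.cast_nonneg _)
  have h2 : 0 ≤ ∑ j, I.lam I.i0 j * ((I.col D j - I.c j).toNat : ℚ) :=
    sum_nonneg fun i _ => mul_nonneg (this _ _) (Nat.cast_nonneg _)
  have h3 := mul_nonneg (this I.i0 I.j0)
    (Nat.cast_nonneg (((I.N : ℤ) - I.r I.i0 - I.c I.j0 - I.tot D).toNat))
  linarith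

lemma w_pos (D : I.Cell → ℤ) : 0 < I.w D := Real.rpow_pos_of_pos two_pos _
lemma W_pos (D : I.Cell → ℤ) : 0 < I.W D := by unfold W; positivity

lemma W_eq (D : I.Cell → ℤ) : I.W D = (2 : ℝ) ^ (-(⌊I.pen D⌋ : ℝ)) := by
  have h : ((⌊I.pen D⌋ : ℤ) : ℝ) = (I.ex D : ℕ) := by
    rw [ex, ← Int.cast_natCast, Int.toNat_of_nonneg (Int.floor_nonneg.2 (I.pen_nonneg D))]
  rw [h, Real.rpow_neg two_pos.le, Real.rpow_natCast, W, one_div, inv_pow]

lemma w_le_W (D : I.Cell → ℤ) : I.w D ≤ I.W D := by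
  rw [W_eq, w]
  refine Real.rpow_le_rpow_of_exponent_le one_le_two (neg_le_neg ?_)
  exact_mod_cast Int.floor_le (I.pen D)

lemma W_le (D : I.Cell → ℤ) : I.W D ≤ 2 * I.w D := by
  rw [W_eq, w, mul_comm, ← Real.rpow_add_one two_ne_zero]
  refine Real.rpow_le_rpow_of_exponent_le one_le_two ?_
  have : ((I.pen D : ℚ) : ℝ) ≤ (⌊I.pen D⌋ : ℤ) + 1 := by
    exact_mod_cast (Int.lt_floor_add_one (I.pen D)).le
  linarith

end Inst

end Vale.Agent.P328
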