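import Vale.Agent.P328.Algo
import Vale.Agent.P317.Replay
import Vale.Agent.P317.PP

/-! Uniform choices, the default table, and fair coins (job Unif). -/

namespace Vale.Agent.P328

open Finset P317 P317.Prog Vale.Agent.PT

namespace UnifA

theorem loop (g : ℕ → ℝ) (l : List ℕ) : ∀ lo len : ℕ, 0 < len → len ≤ 2 ^ l.length →
    E O0 (foldP l (fun (x : ℕ × ℕ) _ =>
      bind (coinP (((x.2 / 2 : ℕ) : ℚ) / x.2)) fun b =>
        .ret (if b = true then (x.1, x.2 / 2) else (x.1 + x.2 / 2, x.2 - x.2 / 2))) (lo, len))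
      (fun x => g x.1) = (∑ t ∈ range len, g (lo + t)) / len := by
  induction l with
  | nil =>
    intro lo len h0 h1
    obtain rfl : len = 1 := by simp at h1; omega
    simp [foldP]
  | cons c l ih =>
    intro lo len h0 h1
    rw [List.length_cons, pow_succ] at h1
    have hl : (0 : ℚ) < len := by exact_mod_cast h0
    have hl' : (0 : ℝ) < len := by exact_mod_cast h0
    have hle : len / 2 ≤ len := Nat.div_le_self _ _
    rw [foldP, E_bind, E_bind, E_coinP, cl_eq (by positivity)
      ((div_le_one hl).2 (by exact_mod_cast hle))]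
    simp only [E_ret, if_true, Bool.false_eq_true, if_false]
    rw [ih (lo + len / 2) (len - len / 2) (by omega) (by omega)]
    have hs : ∑ t ∈ range len, g (lo + t) = ∑ t ∈ range (len / 2), g (lo + t) +
        ∑ t ∈ range (len - len / 2), g (lo + len / 2 + t) := by
      conv_lhs => rw [show len = len / 2 + (len - len / 2) by omega, sum_range_add]
      simp only [add_assoc]
    have h2 : (0 : ℝ) < ((len - len / 2 : ℕ) : ℝ) := by exact_mod_cast (by omega : 0 < len - len / 2)
    have h3 : ((len - len / 2 : ℕ) : ℝ) = len - ((len / 2 : ℕ) : ℝ) := Nat.cast_sub hle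
    rw [hs, Rat.cast_div, Rat.cast_natCast, Rat.cast_natCast]
    rcases Nat.eq_zero_or_pos (len / 2) with h | h
    · rw [h]; simp
    · rw [ih lo (len / 2) h (by omega)]
      have h4 : (0 : ℝ) < ((len / 2 : ℕ) : ℝ) := by exact_mod_cast h
      rw [h3] at h2 ⊢
      field_simp

theorem amax_spec {m : ℕ} (hm : 0 < m) (r : Fin m → ℕ) :
    ∃ i0 : Fin m, (∀ i, r i ≤ r i0) ∧ amax (List.ofFn r) = i0 := by
  obtain ⟨i, -, hi⟩ := exists_max_image univ r ⟨⟨0, hm⟩, mem_univ _⟩
  have h : amax (List.ofFn r) < (List.ofFn r).length := by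
    refine List.findIdx_lt_length_of_exists ⟨r i, List.mem_ofFn.2 ⟨i, rfl⟩, ?_⟩
    rw [List.all_eq_true]
    intro y hy
    obtain ⟨j, rfl⟩ := List.mem_ofFn.1 hy
    exact decide_eq_true (hi j (mem_univ _))
  have h2 := List.findIdx_getElem (w := h)
  rw [List.all_eq_true] at h2
  refine ⟨⟨amax (List.ofFn r), by simpa using h⟩, fun j => ?_, rfl⟩
  have h3 := of_decide_eq_true (h2 (r j) (List.mem_ofFn.2 ⟨j, rfl⟩))
  exact h3.trans (le_of_eq (List.getElem_ofFn h))

theorem take_succ_sum {m : ℕ} (r : Fin m → ℕ) (i : Fin m) :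
    ((List.ofFn r).take (i + 1)).sum = ((List.ofFn r).take i).sum + r i := by
  rw [List.sum_take_succ _ _ (by simp)]
  simp

theorem take_le (l : List ℕ) (i : ℕ) : (l.take i).sum ≤ l.sum := by
  have := List.sum_take_add_sum_drop l i
  omega

theorem take_mono (l : List ℕ) (i : ℕ) : (l.take i).sum ≤ (l.take (i + 1)).sum := by
  have := take_le (l.take (i + 1)) i
  rwa [List.take_take, min_eq_left (Nat.le_succ i)] at this

theorem tele (l : List ℕ) {x y : ℕ} (hxy : x ≤ y) (n : ℕ) :
    ∑ j ∈ range n, ((min y (l.take (j + 1)).sum + min x (l.take j).sum) -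
      (min x (l.take (j + 1)).sum + min y (l.take j).sum)) + min x (l.take n).sum =
      min y (l.take n).sum := by
  induction n with
  | zero => simp
  | succ n ih =>
    rw [sum_range_succ]
    have := take_mono l n
    omega

theorem run_rep {β : Type} (B : ℕ) (p : Prog Unit β) : ∀ (r : List Bool) (D : ℕ), depth p ≤ D →
    (run B p (r, List.replicate D false)).2.map Prod.fst = some (outO B O0 p r) := by
  induction p with
  | ret b => intro r D _; rfl
  | ask q k ih =>
    intro r D hD
    obtain ⟨D, rfl⟩ : ∃ D', D = D' + 1 := ⟨D - 1, by simp only [depth] at hD; omega⟩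
    have h2 := depth_branch_le k false
    exact ih false r D (by simp only [depth] at hD; omega)
  | coin p k ih =>
    intro r D hD
    have h2 := depth_branch_le k (decide ((val (r.take B) : ℚ) < p * 2 ^ B))
    exact ih (decide ((val (r.take B) : ℚ) < p * 2 ^ B)) (r.drop B) D
      (by simp only [depth] at hD; omega)

theorem all_outO {β : Type} (B : ℕ) {G : β → Prop} {p : Prog Unit β} (h : All G p) :
    ∀ r, G (outO B O0 p r) := by
  induction p with
  | ret b => intro r; exact h
  | ask q k ih => intro r; exact ih _ (h _) r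
  | coin p k ih => intro r; exact ih _ (h _) _

end UnifA

theorem tab_eq {β : Type} (m n : ℕ) (F : ℕ → ℕ → β) :
    tab m n F = List.ofFn fun i : Fin m => List.ofFn fun j : Fin n => F i j := by
  unfold tab
  refine List.ext_getElem (by simp) fun i _ _ => ?_
  simp only [List.getElem_map, List.getElem_range, List.getElem_ofFn]
  exact List.ext_getElem (by simp) fun j _ _ => by simp

open UnifA

theorem E_unifP {s : ℕ} (hs : 0 < s) (g : ℕ → ℝ) :
    E O0 (unifP s) g = (∑ t ∈ range s, g t) / s := by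
  rw [unifP, E_bind]
  have := loop g (List.range s.size) 0 s hs (by rw [List.length_range]; exact (Nat.lt_size_self s).le)
  simp only [zero_add] at this
  exact this

theorem exists_std {m n : ℕ} (hm : 0 < m) (hn : 0 < n) (r : Fin m → ℕ) (c : Fin n → ℕ)
    (h : ∑ i, r i = ∑ j, c j) : ∃ (i0 : Fin m) (j0 : Fin n) (h1 : ∀ i, r i ≤ r i0)
      (h2 : ∀ j, c j ≤ c j0), Inst.Std ⟨m, n, r, c, i0, j0, h, h1, h2⟩ := by
  obtain ⟨i0, h1, h1'⟩ := amax_spec hm r
  obtain ⟨j0, h2, h2'⟩ := amax_spec hn c
  exact ⟨i0, j0, h1, h2, h1', h2'⟩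

theorem dflt_mem (I : Inst) : ∃ X ∈ Omega I.r I.c, dflt I.rL I.cL = rows X := by
  have hr : I.rL.length = I.m := by simp [Inst.rL]
  have hc : I.cL.length = I.n := by simp [Inst.cL]
  have hs : I.rL.sum = I.cL.sum := by
    simp only [Inst.rL, Inst.cL, List.sum_ofFn, I.hsum]
  obtain ⟨F, hF⟩ : ∃ F : ℕ → ℕ → ℕ, ∀ i j, F i j =
      (min (I.rL.take (i + 1)).sum (I.cL.take (j + 1)).sum +
        min (I.rL.take i).sum (I.cL.take j).sum) -
      (min (I.rL.take i).sum (I.cL.take (j + 1)).sum +
        min (I.rL.take (i + 1)).sum (I.cL.take j).sum) := ⟨_, fun _ _ => rfl⟩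
  have hrow : ∀ i : Fin I.m, ∑ j : Fin I.n, F i j = I.r i := by
    intro i
    have h1 := tele I.cL (take_mono I.rL i) I.n
    have h2 := take_succ_sum I.r i
    have h3 := take_le I.rL (i + 1)
    rw [← hc, List.take_length, hc, ← hs] at h1
    rw [Fin.sum_univ_eq_sum_range (F i)]
    simp only [hF]
    unfold Inst.rL at *
    omega
  have hcol : ∀ j : Fin I.n, ∑ i : Fin I.m, F i j = I.c j := by
    intro j
    have h1 := tele I.rL (take_mono I.cL j) I.m
    have h2 := take_succ_sum I.c j
    have h3 := take_le I.cL (j + 1)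
    rw [← hr, List.take_length, hr, hs] at h1
    rw [Fin.sum_univ_eq_sum_range (fun i => F i j)]
    have h4 : ∀ i, F i j = (min (I.cL.take (j + 1)).sum (I.rL.take (i + 1)).sum +
        min (I.cL.take j).sum (I.rL.take i).sum) -
      (min (I.cL.take j).sum (I.rL.take (i + 1)).sum +
        min (I.cL.take (j + 1)).sum (I.rL.take i).sum) := fun i => by rw [hF]; omega
    simp only [h4]
    unfold Inst.cL at *
    omega
  refine ⟨fun i j => F i j, ?_, ?_⟩
  · simp only [Omega, mem_filter, Fintype.mem_piFinset, mem_range]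
    refine ⟨fun i j => Nat.lt_succ_of_le ?_, hrow, hcol⟩
    rw [← hrow i]
    exact single_le_sum (f := fun j : Fin I.n => F i j) (fun _ _ => Nat.zero_le _) (mem_univ j)
  · rw [dflt, hr, hc, tab_eq, rows]
    simp only [hF]

/-- running a program on fair coins -/
theorem exists_run {α β : Type} [TEnc α] [TEnc β] (P : α → Prog Unit β) (hP : PP P) (b : β) :
    ∃ A : α × List Bool → β, PTime A ∧ ∃ p : Polynomial ℕ, ∀ (a : α) (T : ℕ),
      p.eval (sz a) ≤ T → (∀ G : β → Prop, All G (P a) → ∀ l, G (A (a, l))) ∧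
      ∀ g : β → ℝ, (∀ y, 0 ≤ g y ∧ g y ≤ 1) →
        (E O0 (P a) g - (1 / 2) ^ sz a) * 2 ^ T ≤ ∑ ω : Fin T → Bool, g (A (a, List.ofFn ω)) := by
  obtain ⟨q, hq⟩ := PB.exists_poly hP.dep
  obtain ⟨R, hR⟩ : ∃ R : α × List Bool → Option Unit × Option (β × List Bool × List Bool),
      ∀ z, R z = run (q.eval (sz z.1) + sz z.1) (P z.1)
        (z.2, List.replicate (q.eval (sz z.1)) false) := ⟨_, fun _ => rfl⟩
  have hd : PTime fun z : α × List Bool => z.1 := PTime.fst_id
  have hRt : PTime R := by
    have h1 : PTime fun z : α × List Bool =>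
        List.replicate (q.eval (sz z.1) + sz z.1) () :=
      PTime.replicate ((ptime_eval hd.sz q).add hd.sz) ((hd.sz_PB.eval q).add hd.sz_PB)
        (PTime.const ())
    have h2 : PTime fun z : α × List Bool => List.replicate (q.eval (sz z.1)) false :=
      PTime.replicate (ptime_eval hd.sz q) (hd.sz_PB.eval q) (PTime.const false)
    refine (hP.time.comp (hd.prodMk (h1.prodMk (PTime.snd_id.prodMk h2)))).of_eq fun z => ?_
    simp [hR]
  refine ⟨fun z => ((R z).2.map Prod.fst).getD b, ?_, q * (q + Polynomial.X), fun a T hT => ?_⟩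
  · refine PTime.getD ?_ (PTime.const b)
    exact PTime.option_map (h := fun _ s => s.1) hRt.snd (by fun_prop)
  obtain ⟨D, hD⟩ : ∃ D, D = q.eval (sz a) := ⟨_, rfl⟩
  have hT' : D * (D + sz a) ≤ T := by simpa [hD] using hT
  have hdep : depth (P a) ≤ D := hD ▸ hq a
  have key : ∀ l, ((R (a, l)).2.map Prod.fst).getD b = outO (D + sz a) O0 (P a) l := by
    intro l
    rw [hR]
    simp only [← hD]
    rw [run_rep _ _ _ _ hdep, Option.getD_some]
  simp only [key]
  refine ⟨fun G hG l => all_outO _ hG l, fun g hg => ?_⟩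
  have h1 := SS_outO (D + sz a) O0 g (fun y => (hg y).1) (fun y => (hg y).2) (P a) D T hdep hT'
  rw [SS_eq] at h1
  refine le_trans ?_ h1
  have h3 : (D : ℝ) * (1 / 2) ^ D ≤ 1 := by
    have : (D : ℝ) ≤ 2 ^ D := by exact_mod_cast Nat.lt_two_pow_self.le
    rw [one_div, inv_pow, ← div_eq_mul_inv, div_le_one (by positivity)]
    exact this
  have h4 : (D : ℝ) * (1 / 2) ^ (D + sz a) ≤ (1 / 2) ^ sz a := by
    rw [pow_add, ← mul_assoc]
    exact mul_le_of_le_one_left (by positivity) h3
  gcongr

end Vale.Agent.P328
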